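import Vale.Agent.P147F.Blk

/-! Anticoncentration of the displacement of many blocks in dimension at least three. -/

namespace Vale.Agent.P147F

open MeasureTheory Vale.Agent.P147
open scoped ENNReal Classical

variable {d : ℕ} {μ : Measure (St d → ℝ)} [IsProbabilityMeasure μ] {ℓ : Fin d → ℝ} {e : St d}

lemma anti_cb (n : ℕ) : n.centralBinom ^ 2 * (2 * n + 1) ≤ 16 ^ n := by
  induction n with
  | zero => simp
  | succ n ih =>
    refine Nat.le_of_mul_le_mul_left ?_ (pow_pos n.succ_pos 2)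
    rw [← mul_assoc, ← mul_pow, Nat.succ_mul_centralBinom_succ, pow_succ 16]
    nlinarith [Nat.mul_le_mul_left (4 * (2 * n + 1) * (2 * n + 3)) ih, Nat.zero_le (16 ^ n)]

lemma anti_choose (m j : ℕ) : m.choose j ^ 2 * (m + 1) ≤ 4 ^ m := by
  refine (Nat.mul_le_mul_right _ (Nat.pow_le_pow_left (Nat.choose_le_middle j m) 2)).trans ?_
  obtain ⟨n, rfl | rfl⟩ := m.even_or_odd'
  · rw [Nat.mul_div_cancel_left _ two_pos, pow_mul]
    exact anti_cb n
  · have h := anti_cb (n + 1)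
    rw [Nat.centralBinom, show 2 * (n + 1) = 2 * n + 1 + 1 by ring, Nat.choose_succ_succ',
      Nat.choose_symm_half, pow_succ 16] at h
    rw [show (2 * n + 1) / 2 = n by omega, pow_succ 4, pow_mul, show 4 ^ 2 = 16 from rfl]
    nlinarith [sq_nonneg ((2 * n + 1).choose n)]

lemma anti_real {p y : ℝ} (h0 : 0 ≤ p) (h1 : 2 * p ≤ 1) (hy : 1 ≤ y) :
    (1 - 2 * p) * (√y)⁻¹ + 2 * p * (√(y + 1))⁻¹ ≤ (√(y + p))⁻¹ := by
  have y0 : 0 < y := by linarith
  have a1 : (√y)⁻¹ ^ 2 = y⁻¹ := by rw [inv_pow, Real.sq_sqrt y0.le]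
  have a2 : (√(y + 1))⁻¹ ^ 2 = (y + 1)⁻¹ := by rw [inv_pow, Real.sq_sqrt (by positivity)]
  have a3 : (1 - 2 * p) * y⁻¹ + 2 * p * (y + 1)⁻¹ ≤ (y + p)⁻¹ := by
    rw [show (1 - 2 * p) * y⁻¹ + 2 * p * (y + 1)⁻¹ = (y + 1 - 2 * p) / (y * (y + 1)) by
      field_simp; ring, inv_eq_one_div, div_le_div_iff₀ (by positivity) (by positivity)]
    nlinarith [mul_le_mul_of_nonneg_left hy h0, sq_nonneg p]
  rw [← Real.sqrt_inv (y + p)]
  refine Real.le_sqrt_of_sq_le (le_trans ?_ a3)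
  rw [← a1, ← a2]
  nlinarith [mul_nonneg (mul_nonneg h0 (sub_nonneg.2 h1)) (sq_nonneg ((√y)⁻¹ - (√(y + 1))⁻¹))]

/-- average over `k` blocks -/
noncomputable def antiT (π : Pa d → ℝ≥0∞) (k : ℕ) (F : V d → ℝ≥0∞) (x : V d) : ℝ≥0∞ :=
  Ex π k fun l => F (x + tot disp l)

/-- binomial sums -/
noncomputable def antiB (v : V d) (m : ℕ) (F : V d → ℝ≥0∞) (x : V d) : ℝ≥0∞ :=
  ∑ j ∈ Finset.range (m + 1), m.choose j • F (x + (j : ℤ) • v)

lemma antiB_succ (v : V d) (m : ℕ) (F : V d → ℝ≥0∞) (x : V d) :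
    antiB v (m + 1) F x = antiB v m F x + antiB v m F (x + v) := by
  simp only [antiB, Finset.sum_choose_succ_nsmul (fun j _ => F (x + (j : ℤ) • v)) m,
    Nat.cast_succ, add_smul, one_smul, add_assoc, add_comm v]

lemma anti_one {π : Pa d → ℝ≥0∞} (hs : ∑' b, π b = 1) {b0 b1 : Pa d} {v : V d} (hv : v ≠ 0)
    (hb : disp b1 = disp b0 + v) {p : ℝ} (p0 : 0 ≤ p) (h0 : ENNReal.ofReal p ≤ π b0)
    (h1 : ENNReal.ofReal p ≤ π b1) {F : V d → ℝ≥0∞} {S : ℝ≥0∞}
    (hF : ∀ z, ∑' j : ℤ, F (z + j • v) ≤ S) (k m : ℕ) (x : V d) :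
    antiT π k (antiB v m F) x ≤ S * ENNReal.ofReal (2 ^ m * (√(p * k + m + 1))⁻¹) := by
  have hne : b0 ≠ b1 := by
    rintro rfl
    exact hv (left_eq_add.1 hb)
  obtain ⟨σ, hσ⟩ : ∃ σ : Pa d → ℝ≥0∞, ∀ b, π b =
      σ b + (ind (b = b0) * ENNReal.ofReal p + ind (b = b1) * ENNReal.ofReal p) := by
    refine ⟨_, fun b => (tsub_add_cancel_of_le ?_).symm⟩
    by_cases a0 : b = b0
    · simpa [a0, hne] using h0
    by_cases a1 : b = b1
    · simpa [a1, hne.symm] using h1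
    · simp [a0, a1]
  have e1 : ∀ G : Pa d → ℝ≥0∞, ∑' b, π b * G b =
      ∑' b, σ b * G b + ENNReal.ofReal p * (G b0 + G b1) := fun G => by
    simp only [hσ, add_mul, mul_assoc, ENNReal.tsum_add, tsum_ind_eq _ fun b => _ * G b, mul_add]
  have e2 := e1 fun _ => 1
  simp only [mul_one, hs, one_add_one_eq_two] at e2
  rw [← ENNReal.ofReal_ofNat, ← ENNReal.ofReal_mul p0, mul_comm] at e2
  have p1 : 2 * p ≤ 1 := ENNReal.ofReal_le_one.1 (e2 ▸ le_add_self)
  have e3 : ∑' b, σ b = ENNReal.ofReal (1 - 2 * p) := by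
    rw [ENNReal.ofReal_sub _ (by positivity), ENNReal.ofReal_one]
    exact ENNReal.eq_sub_of_add_eq ENNReal.ofReal_ne_top e2.symm
  induction k generalizing m x with
  | zero =>
    have a1 : ∀ j, (m.choose j : ℝ≥0∞) ≤ ENNReal.ofReal (2 ^ m * (√(m + 1))⁻¹) := fun j => by
      rw [← ENNReal.ofReal_natCast, ← div_eq_mul_inv]
      refine ENNReal.ofReal_le_ofReal ((le_div_iff₀ (by positivity)).2 (le_of_sq_le_sq ?_
        (by positivity)))
      rw [mul_pow, Real.sq_sqrt (by positivity), ← pow_mul, mul_comm m, pow_mul]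
      exact_mod_cast anti_choose m j
    simp only [antiT, Ex_zero, tot_nil, add_zero, antiB, nsmul_eq_mul, Nat.cast_zero, mul_zero,
      zero_add]
    refine (Finset.sum_le_sum fun j _ => mul_le_mul_left (a1 j) _).trans ?_
    rw [← Finset.mul_sum, mul_comm]
    exact mul_le_mul_left ((ENNReal.sum_le_tsum _).trans ((ENNReal.tsum_comp_le_tsum_of_injective
      Nat.cast_injective fun j : ℤ => F (x + j • v)).trans (hF x))) _
  | succ k ih =>
    have a1 : antiT π (k + 1) (antiB v m F) x = ∑' b, π b * antiT π k (antiB v m F) (x + disp b) := by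
      simp only [antiT, Ex_succ, tot_cons, add_assoc]
    have a2 : antiT π k (antiB v m F) (x + disp b0) + antiT π k (antiB v m F) (x + disp b1) =
        antiT π k (antiB v (m + 1) F) (x + disp b0) := by
      simp only [antiT, antiB_succ, Ex_add, hb, add_assoc, add_comm v]
    have a3 := anti_real p0 p1 (y := p * k + m + 1) (le_add_of_nonneg_left (by positivity))
    rw [a1, e1, a2]
    refine (add_le_add (ENNReal.tsum_le_tsum fun b => mul_le_mul_right (ih m _) _)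
      (mul_le_mul_right (ih (m + 1) _) _)).trans ?_
    rw [ENNReal.tsum_mul_right, e3, mul_left_comm, mul_left_comm _ S, ← mul_add,
      ← ENNReal.ofReal_mul (sub_nonneg.2 p1), ← ENNReal.ofReal_mul p0,
      ← ENNReal.ofReal_add (mul_nonneg (sub_nonneg.2 p1) (by positivity)) (by positivity)]
    refine mul_le_mul_right (ENNReal.ofReal_le_ofReal ?_) _
    push_cast
    rw [show p * (k + 1) + m + 1 = p * k + m + 1 + p by ring, ← add_assoc, pow_succ]
    nlinarith [mul_le_mul_of_nonneg_left a3 (by positivity : (0 : ℝ) ≤ 2 ^ m)]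

lemma anti_step {π : Pa d → ℝ≥0∞} (hs : ∑' b, π b = 1) {b0 b1 : Pa d} {p : ℝ} (p0 : 0 ≤ p)
    (h0 : ENNReal.ofReal p ≤ π b0) (h1 : ENNReal.ofReal p ≤ π b1) {i : Fin d}
    (hi : (disp b1 - disp b0) i ≠ 0) {Q : V d → Prop}
    (hQ : ∀ x (j : ℤ), Q (x + j • (disp b1 - disp b0)) → Q x) (c : ℤ) {S : ℝ≥0∞} {n : ℕ}
    (h : ∀ z, antiT π n (fun x => ind (Q x)) z ≤ S) (k : ℕ) (z : V d) :
    antiT π (k + n) (fun x => ind (x i = c ∧ Q x)) z ≤ S * ENNReal.ofReal (√(p * k + 1))⁻¹ := by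
  have := anti_one hs (fun h => hi (congrFun h i)) (add_sub_cancel _ _).symm p0 h0 h1
    (F := antiT π n fun x => ind (x i = c ∧ Q x)) (S := S) (fun y => le_trans ?_ (h y)) k 0 z
  · simpa [antiT, antiB, Ex_append, tot_append, add_assoc] using this
  simp only [antiT, ← Ex_tsum]
  refine Ex_mono' fun l => (tsum_ind_le fun j j' a a' => ?_).trans (ind_mono fun ⟨j, a⟩ => ?_)
  · have := a.1.trans a'.1.symm
    simp only [Pi.add_apply, Pi.smul_apply, smul_eq_mul, add_left_inj, add_right_inj] at this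
    exact mul_right_cancel₀ hi this
  · exact hQ _ j (add_right_comm y _ _ ▸ a.2)

lemma anti_vec (f : St d) : vec f f.1 ≠ 0 := by
  rw [vec_self]
  split_ifs <;> simp

lemma anti_lat (hN : Nrm ℓ e) {i : Fin d} (hi : i ≠ e.1) : ∃ b, Blk ℓ b ∧
    (disp b - disp [e]) i ≠ 0 ∧ ∀ j, j ≠ e.1 → j ≠ i → (disp b - disp [e]) j = 0 := by
  obtain ⟨f, rfl, hf⟩ : ∃ f : St d, f.1 = i ∧ 0 ≤ dot ℓ (vec f) := by
    rcases le_total 0 (ℓ i) with h | h
    · exact ⟨(i, true), rfl, by simpa [dot_vec]⟩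
    · exact ⟨(i, false), rfl, by simpa [dot_vec]⟩
  rcases hf.eq_or_lt with h | h
  · exact ⟨_, blk_pair h.symm (hN.2 ▸ one_pos), by simpa using anti_vec f,
      fun j _ hj => by simpa using vec_ne f hj⟩
  · exact ⟨_, blk_single h, by simpa [vec_ne e hi] using anti_vec f,
      fun j he hj => by simp [vec_ne f hj, vec_ne e he]⟩

lemma anti_blk (hN : Nrm ℓ e) : Blk ℓ [e, opp e, e, e] := by
  refine ⟨by simp, by simp [Bridge, ht, vec_opp, dot_add, hN.2], fun a b h ha hb => ?_⟩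
  rcases a with _ | ⟨x, _ | ⟨y, _ | ⟨z, _ | ⟨u, a⟩⟩⟩⟩
  · exact (ha rfl).elim
  all_goals
    simp only [List.cons_append, List.cons.injEq, List.nil_append, List.nil_eq,
      List.append_eq_nil_iff] at h
  · obtain ⟨rfl, rfl⟩ := h
    simp [Bridge, ht, vec_opp, dot_neg, hN.2]
  · obtain ⟨rfl, rfl, rfl⟩ := h
    simp [Bridge, ht, vec_opp]
  · obtain ⟨rfl, rfl, rfl, rfl⟩ := h
    simp [Bridge, ht, vec_opp]
  · exact (hb h.2.2.2.2.2).elim

theorem anti (hd : 3 ≤ d) (hμ : Elliptic μ) (hN : Nrm ℓ e) (hs : ∑' b, bw μ ℓ b = 1)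
    {ε : ℝ≥0∞} (hε : ε ≠ 0) : ∃ k0 : ℕ, ∀ k, k0 ≤ k → ∀ z : V d,
      k * Ex (bw μ ℓ) k (fun bs => ind (disp bs.flatten = z)) ≤ ε := by
  obtain ⟨i, hi, j, hj, hij⟩ := Finset.one_lt_card.1
    (show 1 < (Finset.univ.erase e.1).card by simp; omega)
  have hi := Finset.ne_of_mem_erase hi
  have hj := Finset.ne_of_mem_erase hj
  obtain ⟨b2, a1, a2, a3⟩ := anti_lat hN hi
  obtain ⟨b3, a4, a5, -⟩ := anti_lat hN hj
  have k : ∀ {b}, Blk ℓ b → 0 < bw μ ℓ b := fun h => pos_iff_ne_zero.2 (bw_ne_zero hμ h)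
  obtain ⟨p, p0, p1, p2⟩ := ENNReal.lt_iff_exists_real_btwn.1 (lt_min (lt_min one_pos
    (k (blk_single (f := e) (hN.2 ▸ one_pos)))) (lt_min (k (anti_blk hN)) (lt_min (k a1) (k a4))))
  obtain ⟨δ, -, δ1, δ2⟩ := ENNReal.lt_iff_exists_real_btwn.1 (pos_iff_ne_zero.2 hε)
  simp only [lt_min_iff, ENNReal.ofReal_lt_one, ENNReal.ofReal_pos] at p1 p2 δ1
  obtain ⟨⟨q0, q1⟩, q2, q3, q4⟩ := p2
  obtain ⟨N, hN'⟩ := exists_nat_ge ((3 / (p * δ)) ^ 2 / p)
  refine ⟨3 * N, fun k hk z => ?_⟩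
  obtain ⟨n, r, hr, rfl⟩ : ∃ n r, r < 3 ∧ k = n + (n + (n + r)) :=
    ⟨k / 3, k % 3, by omega, by omega⟩
  have e1 : disp [e, opp e, e, e] - disp [e] = vec e := by simp [vec_opp]
  have h := anti_step hs p0 q1.le q2.le (i := e.1) (e1 ▸ anti_vec e)
    (Q := fun x => x i = z i ∧ x j = z j ∧ True)
    (fun x t => by simp [vec_opp, vec_ne e hi, vec_ne e hj]) (z e.1)
    (anti_step hs p0 q1.le q3.le a2 (Q := fun x => x j = z j ∧ True)
      (fun x t => by simp only [Pi.add_apply, Pi.smul_apply, a3 j hj hij.symm]; simp) (z i)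
      (anti_step hs p0 q1.le q4.le a5 (Q := fun _ => True) (fun _ _ => id) (z j)
        (fun y => Ex_ind_le_one hs r _) n) n) n 0
  refine (mul_le_mul_right ((Ex_mono' fun l => ind_mono fun h => ?_).trans h) _).trans
    (le_trans ?_ δ2.le)
  · simp [tot_disp, h]
  have s0 : 0 < √(p * n + 1) := by positivity
  have s1 := Real.mul_self_sqrt (by positivity : 0 ≤ p * n + 1)
  have s2 : 3 ≤ √(p * n + 1) * (p * δ) := by
    refine (div_le_iff₀ (by positivity)).1 (Real.le_sqrt_of_sq_le ?_)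
    have : (N : ℝ) ≤ n := Nat.cast_le.2 (by omega)
    nlinarith [(div_le_iff₀ p1).1 hN']
  rw [one_mul, ← ENNReal.ofReal_mul (by positivity), ← ENNReal.ofReal_mul (by positivity),
    ← ENNReal.ofReal_natCast, ← ENNReal.ofReal_mul (by positivity), ← mul_inv, ← mul_inv, s1,
    ← div_eq_mul_inv]
  refine ENNReal.ofReal_le_ofReal ((div_le_iff₀ (by positivity)).2
    (le_of_mul_le_mul_left ?_ p1))
  have : (r : ℝ) ≤ 3 := by exact_mod_cast hr.le
  push_cast
  nlinarith [mul_le_mul_of_nonneg_left s2 (by positivity : 0 ≤ p * n + 1),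
    mul_le_mul_of_nonneg_left this p0]

end Vale.Agent.P147F
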