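import Vale.Agent.P147F.Blk

/-! An initial configuration separating the two legs. -/

namespace Vale.Agent.P147F

open MeasureTheory Vale.Agent.P147
open scoped ENNReal Classical

variable {d : ℕ} {μ : Measure (St d → ℝ)} [IsProbabilityMeasure μ] {ℓ : Fin d → ℝ} {e : St d}

lemma base_lat (hN : Nrm ℓ e) {i : Fin d} (hi : i ≠ e.1) : ∃ (c : Pa d) (σ : ℤ), Blk (-ℓ) c ∧
    |σ| = 1 ∧ σ * disp c i = 1 ∧ ∀ y ∈ dep 0 c, 0 ≤ dot ℓ y + ht (-ℓ) c * (σ * y i : ℤ) := by
  obtain ⟨f, rfl, hf⟩ : ∃ f : St d, f.1 = i ∧ 0 ≤ dot (-ℓ) (vec f) := by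
    rcases le_total 0 (ℓ i) with h | h
    · exact ⟨(i, false), rfl, by simpa [dot_vec]⟩
    · exact ⟨(i, true), rfl, by simpa [dot_vec]⟩
  have h1 : |vec f f.1| = 1 ∧ vec f f.1 * vec f f.1 = 1 := by
    rw [vec_self]
    split_ifs <;> simp
  rcases hf.eq_or_lt with h | h
  · refine ⟨_, _, blk_pair h.symm (hN.opp.2 ▸ one_pos), h1.1,
      by simpa [vec_opp, vec_ne e hi] using h1.2, ?_⟩
    rw [neg_dot, zero_eq_neg] at h
    simp [ht, h, neg_dot, dot_add, vec_opp, dot_neg, hN.2, mul_self_nonneg]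
  · exact ⟨_, _, blk_single h, h1.1, by simpa using h1.2, by simp⟩

omit [IsProbabilityMeasure μ] in
lemma base_X {s : List (Pa d)} (hs : Sup (bw μ ℓ) s) {z : V d} (hz : z ∈ (legX μ ℓ).sites 0 s) :
    dot ℓ z < 0 := by
  rw [sitesX] at hz
  simpa [dot_neg, ht] using
    ((bridge_flatten fun b hb => sup_bw hs b (List.mem_reverse.1 hb)).lt hz).2

theorem baseOk (hd : 2 ≤ d) (hμ : Elliptic μ) (hN : Nrm ℓ e) :
    BaseOk (legX μ ℓ) (legY μ ℓ) (-ℓ) := by
  intro ρ
  have := Fin.nontrivial_iff_two_le.2 hd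
  obtain ⟨i, hi⟩ := exists_ne e.1
  obtain ⟨c, σ, hc, h1, h2, h3⟩ := base_lat hN hi
  have h0 := hc.2.1.ht_pos hc.1
  obtain ⟨n, hn⟩ := exists_nat_ge (ht (-ℓ) c)⁻¹
  have hp : ∀ M, Sup (bw μ ℓ) (List.replicate M [e]) := fun M b hb =>
    List.eq_of_mem_replicate hb ▸ bw_ne_zero hμ (blk_single (hN.2 ▸ one_pos))
  have e1 : ∀ M : ℕ, tot (legX μ ℓ).a (List.replicate M [e]) = -((M : ℤ) • vec e) := fun M => by
    simp [tot, legX]
  have e2 : ∀ M : ℕ, tot (legY μ ℓ).a (List.replicate M c) = (M : ℤ) • disp c := fun M => by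
    simp [tot, legY]
  have hY : ∀ (M : ℕ) (x : V d), 0 ≤ dot ℓ x + ht (-ℓ) c * (σ * x i : ℤ) →
      ∀ z ∈ dep x (List.replicate M c).flatten, 0 ≤ dot ℓ z + ht (-ℓ) c * (σ * z i : ℤ) := by
    intro M
    induction M with
    | zero => simp
    | succ M ih =>
      intro x hx z hz
      rw [List.replicate_succ, List.flatten_cons, dep_append, Finset.mem_union] at hz
      rcases hz with hz | hz
      · have := h3 _ ((mem_dep_shift _ _ _).1 hz)
        rw [dot_sub, Pi.sub_apply, mul_sub, Int.cast_sub] at this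
        linarith
      · refine ih _ ?_ z hz
        rw [dot_add, Pi.add_apply, mul_add, h2, Int.cast_add, Int.cast_one, mul_add, mul_one,
          ht_neg, ← ht]
        rw [ht_neg] at hx
        linarith
  have hσ : ∀ {u : ℤ}, |u| ≤ ρ → -(ρ : ℤ) ≤ σ * u ∧ σ * u ≤ ρ := fun h =>
    abs_le.1 (by rwa [abs_mul, h1, one_mul])
  have f1 := Nat.floor_le (mul_pos (Nat.cast_pos.2 (2 * ρ + n).succ_pos) h0).le
  have f2 := Nat.lt_floor_add_one ((2 * ρ + n).succ * ht (-ℓ) c)
  refine ⟨_, List.replicate (2 * ρ + n).succ c, hp ⌊(2 * ρ + n).succ * ht (-ℓ) c⌋₊,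
    fun b hb => List.eq_of_mem_replicate hb ▸ bw_ne_zero hμ hc, ?_,
    fun s t hs _ bs bt => Finset.disjoint_left.2 fun z hx hy => ?_⟩
  · rw [e1, e2, dot_neg, dot_smul, dot_smul, neg_dot, hN.2, ← ht, abs_le]
    simp only [Int.cast_natCast]
    constructor <;> linarith
  have a1 : dot ℓ z + ht (-ℓ) c * (σ * z i : ℤ) < 0 ∧ σ * z i ≤ ρ := by
    rw [Leg.sites_append, Finset.mem_union] at hx
    rcases hx with hx | hx
    · have a2 := base_X (hp _) hx
      simp only [sitesX, List.reverse_replicate, List.flatten_replicate_singleton,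
        mem_dep_replicate, disp_replicate] at hx
      obtain ⟨j, -, hj⟩ := hx
      have : z i = 0 := by simp [hj, vec_ne e hi]
      simpa [this] using a2
    · rw [zero_add, e1, ← add_zero (-_), ← neg_add_cancel_left ((_ : ℤ) • vec e) z,
        Leg.mem_sites_shift] at hx
      have a2 := base_X hs hx
      have a3 := (hσ (bs _ hx i)).2
      simp only [Pi.add_apply, Pi.smul_apply, vec_ne e hi, smul_zero, zero_add] at a3
      refine ⟨?_, a3⟩
      have a4 : ((σ * z i : ℤ) : ℝ) ≤ ρ := by exact_mod_cast a3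
      rw [dot_add, dot_smul, hN.2, Int.cast_natCast] at a2
      have a5 := (inv_le_iff_one_le_mul₀ h0).1 hn
      push_cast at f2 a2
      nlinarith [mul_le_mul_of_nonneg_left a4 h0.le, mul_nonneg (ρ.cast_nonneg (α := ℝ)) h0.le]
  rw [Leg.sites_append, Finset.mem_union] at hy
  rcases hy with hy | hy
  · rw [sitesY] at hy
    exact a1.1.not_ge (hY _ 0 (by simp) z hy)
  · rw [zero_add, e2, ← add_zero ((_ : ℤ) • disp c), ← add_neg_cancel_left ((_ : ℤ) • disp c) z,
      Leg.mem_sites_shift] at hy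
    have a3 := (hσ (bt _ hy i)).1
    simp only [Pi.add_apply, Pi.neg_apply, Pi.smul_apply, smul_eq_mul, mul_add, mul_neg,
      mul_left_comm σ, h2] at a3
    omega

end Vale.Agent.P147F
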