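import Vale.Agent.P147F.Geo

/-! Weights of block sequences, pruning, the turning bound. -/

namespace Vale.Agent.P147F

open MeasureTheory Vale.Agent.P147
open scoped ENNReal Classical

variable {d : ℕ} {μ : Measure (St d → ℝ)} [IsProbabilityMeasure μ] {ℓ : Fin d → ℝ} {e : St d}

omit [IsProbabilityMeasure μ] in
lemma bw_of_blk {b : Pa d} (h : Blk ℓ b) : bw μ ℓ b = w μ b := if_pos h
omit [IsProbabilityMeasure μ] in
lemma blk_of_bw {b : Pa d} (h : bw μ ℓ b ≠ 0) : Blk ℓ b := by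
  by_contra hb; exact h (if_neg hb)
omit [IsProbabilityMeasure μ] in
lemma sup_bw {bs : List (Pa d)} (h : Sup (bw μ ℓ) bs) : ∀ b ∈ bs, Blk ℓ b :=
  fun b hb => blk_of_bw (h b hb)
lemma bw_ne_zero (hμ : Elliptic μ) {b : Pa d} (h : Blk ℓ b) : bw μ ℓ b ≠ 0 := by
  rw [bw_of_blk h]; exact w_ne_zero hμ b
lemma w_rec {a r : Pa d} (ha : Rec ℓ a) (hr : Stay ℓ r) : w μ (a ++ r) = w μ a * w μ r :=
  w_append (ha.disjoint hr)
lemma w_flatten {bs : List (Pa d)} (h : ∀ b ∈ bs, Blk ℓ b) {r : Pa d} (hr : Stay ℓ r) :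
    w μ (bs.flatten ++ r) = wt (bw μ ℓ) bs * w μ r := by
  induction bs with
  | nil => simp
  | cons b l ih =>
    have hl : ∀ c ∈ l, Blk ℓ c := fun c hc => h c (by simp [hc])
    rw [List.flatten_cons, List.append_assoc, w_rec (h b (by simp)).2.1.rec
      ((bridge_flatten hl).stay.append hr), ih hl, wt_cons, bw_of_blk (h b (by simp)), mul_assoc]
lemma w_flatten' {bs : List (Pa d)} (h : ∀ b ∈ bs, Blk ℓ b) :
    w μ bs.flatten = wt (bw μ ℓ) bs := by simpa using w_flatten (μ := μ) h stay_nil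
lemma al_le_one : al μ ℓ ≤ 1 := by
  refine (iInf_le _ 0).trans ?_
  rw [tsum_eq_single []]
  · split_ifs <;> simp
  · intro l hl
    rw [if_neg fun h => hl (List.length_eq_zero_iff.1 h.1)]
lemma ext_w (hμ : Elliptic μ) {A : Pa d → Prop} (hA : PF A) (a : Pa d) :
    ∑' l, ind (A l ∧ Pf a l) * w μ l ≤ w μ a := by
  simp only [ind_mul]
  refine (ext_le_w hμ (B := fun l => l = a) (hA.mono fun l h => h.1)
    fun l ⟨_, r, h⟩ => ⟨a, r, rfl, h⟩).trans (le_of_eq ?_)
  rw [tsum_eq_single a fun l hl => by simp [hl]]; simp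
/-- a family of paths which is recognisable from its continuations staying above their start -/
lemma fam_le (hμ : Elliptic μ) {ι : Type*} (A : ι → Prop) (p : ι → Pa d) (c : ι → ℝ≥0∞) (a : Pa d)
    (hw : ∀ i r, A i → Stay ℓ r → c i * w μ r ≤ w μ (p i ++ r))
    (hinj : ∀ i j r r', A i → A j → Stay ℓ r → Stay ℓ r' → p i ++ r = p j ++ r' → i = j)
    (ha : ∀ i, A i → Pf a (p i)) : al μ ℓ * ∑' i, ind (A i) * c i ≤ w μ a := by
  rw [ENNReal.tsum_eq_iSup_sum, ENNReal.mul_iSup]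
  refine iSup_le fun s => ?_
  set n := s.sup fun i => (p i).length
  let Bx : ι × Pa d → Prop := fun x => A x.1 ∧ (p x.1 ++ x.2).length = n ∧ Stay ℓ x.2
  calc _ ≤ ∑' x : ι × Pa d, ind (Bx x) * w μ (p x.1 ++ x.2) := by
        rw [ENNReal.tsum_prod', Finset.mul_sum]
        refine le_trans (Finset.sum_le_sum fun i hi => ?_) (ENNReal.sum_le_tsum s)
        rw [mul_left_comm]
        refine ind_mul_le fun hA => ?_
        have hn : (p i).length ≤ n := Finset.le_sup (f := fun i => (p i).length) hi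
        refine (mul_le_mul_left (iInf_le _ (n - (p i).length)) _).trans ?_
        rw [← ENNReal.tsum_mul_right]
        refine ENNReal.tsum_le_tsum fun r => ?_
        split_ifs with hr
        · rw [ind_pos (show Bx (i, r) from ⟨hA, by simp [hr.1, hn], hr.2⟩), one_mul, mul_comm]
          exact hw i r hA hr.2
        · simp
    _ ≤ ∑' l, ind (∃ x, Bx x ∧ p x.1 ++ x.2 = l) * w μ l :=
        tsum_ind_inj Bx (fun x => p x.1 ++ x.2) (fun x y hx hy h => by
          have h1 := hinj _ _ _ _ hx.1 hy.1 hx.2.2 hy.2.2 h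
          refine Prod.ext h1 ?_
          simp only [h1] at h
          exact List.append_cancel_left h) _
    _ ≤ ∑' l, ind (l.length = n ∧ Pf a l) * w μ l := tsum_ind_mono (by
          rintro l ⟨x, hx, rfl⟩
          exact ⟨hx.2.1, (ha _ hx.1).trans (pf_append _ _)⟩) _
    _ ≤ _ := ext_w hμ (fun b r h1 h2 => by
          rw [List.length_append, h1] at h2
          exact List.length_eq_zero_iff.1 (by omega)) a
omit [IsProbabilityMeasure μ] in
lemma Ex_bw_le (k : ℕ) (p : List (Pa d) → Prop) : Ex (bw μ ℓ) k (fun bs => ind (p bs)) ≤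
    ∑' bs, ind (bs.length = k ∧ (∀ b ∈ bs, Blk ℓ b) ∧ p bs) * wt (bw μ ℓ) bs := by
  rw [Ex_eq_tsum]
  refine ENNReal.tsum_le_tsum fun bs => ?_
  by_cases h0 : pw (bw μ ℓ) k bs = 0
  · simp [h0]
  obtain ⟨h1, h2⟩ := pw_ne_zero.1 h0
  rw [pw, if_pos h1, mul_comm]
  exact mul_le_mul_left (ind_mono fun h => ⟨h1, sup_bw h2, h⟩) _
lemma lemW (hμ : Elliptic μ) (k : ℕ) (a : Pa d) :
    al μ ℓ * Ex (bw μ ℓ) k (fun bs => ind (Pf a bs.flatten)) ≤ w μ a := by
  refine (mul_le_mul_right (Ex_bw_le k _) _).trans (fam_le hμ _ List.flatten _ a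
    (fun bs r h hr => (w_flatten h.2.1 hr).ge) (fun bs cs r r' h h' hr hr' he =>
      blks_unique (h.1.trans h'.1.symm) h.2.1 h'.2.1 hr hr' he) fun bs h => h.2.2)
lemma prune_loss (hμ : Elliptic μ) (n : ℕ) (θ : ℝ≥0∞) (C : List (Pa d) → Prop) :
    Ex (bw μ ℓ) n (fun s => ind (¬prune μ ℓ n θ C s)) ≤
      Ex (bw μ ℓ) n (fun s => ind (¬C s)) + θ := by
  let R : Pa d → Prop := fun a => conf (bw μ ℓ) n C a < θ * w μ a
  calc _ ≤ Ex (bw μ ℓ) n fun s => ind (¬C s) + ∑' a, ind (First R a) * ind (C s ∧ Pf a s.flatten) := by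
        refine Ex_mono' fun s => ind_le fun h => ?_
        by_cases hC : C s
        · simp only [prune, hC, true_and, not_forall, not_le] at h
          obtain ⟨a, ha, hR⟩ := h
          obtain ⟨b, hb, h1, h2⟩ := exists_first_pf (R := R) ⟨a, ha, hR⟩
          refine le_add_left (le_trans ?_ (ENNReal.le_tsum b))
          rw [ind_pos (show First R b from ⟨h1, h2⟩), ind_pos ⟨hC, hb⟩, one_mul]
        · rw [ind_pos hC]; exact le_self_add
    _ ≤ _ := by
        rw [Ex_add, Ex_tsum]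
        refine add_le_add_right ?_ _
        calc _ ≤ ∑' a, θ * (if First R a then w μ a else 0) := by
              refine ENNReal.tsum_le_tsum fun a => ?_
              rw [Ex_mul_left]
              refine ind_mul_le fun h => ?_
              rw [if_pos h]; exact h.1.le
          _ ≤ θ := by
              rw [ENNReal.tsum_mul_left]
              exact mul_le_of_le_one_right' (L0w hμ fun a r ha hr => hr.2 a r rfl ha.1)
omit [IsProbabilityMeasure μ] in
lemma sup_pw {n : ℕ} {ss : List (List (Pa d))} (h : Sup (pw (bw μ ℓ) n) ss) :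
    ∀ s ∈ ss, s.length = n ∧ ∀ b ∈ s, Blk ℓ b := fun s hs =>
  ⟨(pw_ne_zero.1 (h s hs)).1, sup_bw (pw_ne_zero.1 (h s hs)).2⟩
lemma Ex_not_all {B : Type*} {π : B → ℝ≥0∞} (hs : ∑' b, π b = 1) (n k : ℕ) (C : List B → Prop) :
    Ex (pw π n) k (fun ss => ind (¬∀ s ∈ ss, C s)) ≤ k * Ex π n fun s => ind (¬C s) := by
  rw [Ex_eq_tsum n]
  refine le_trans (Ex_mono' fun ss => ind_mono fun h => ?_) (Ex_exists_mem (tsum_pw hs n) k _)
  simpa using h
lemma half_le {a b : ℝ≥0∞} (h : a + b = 1) (hb : b ≤ 2⁻¹) : 1 ≤ 2 * a := by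
  have h1 : 2⁻¹ + 2⁻¹ ≤ a + 2⁻¹ := by
    rw [ENNReal.inv_two_add_inv_two, ← h]; exact add_le_add_right hb _
  have h2 := (ENNReal.add_le_add_iff_right (by simp)).1 h1
  calc (1 : ℝ≥0∞) = 2 * 2⁻¹ := (ENNReal.mul_inv_cancel (by simp) (by simp)).symm
    _ ≤ _ := mul_le_mul_right h2 _
lemma Segs.bridge {n k : ℕ} {C : List (Pa d) → Prop} {ss : List (List (Pa d))}
    (h : Segs ℓ n k C ss) : Bridge ℓ ss.flatten.flatten :=
  bridge_flatten2 fun s hs => (h.2 s hs).2.1
lemma Pre.stay {n k : ℕ} {C : List (Pa d) → Prop} {a : Pa d} (h : Pre ℓ n k C a) : Stay ℓ a := by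
  obtain ⟨ss, hs, ha⟩ := h
  exact hs.bridge.stay.pf ha
lemma Pre.pf {n k : ℕ} {C : List (Pa d) → Prop} {a b : Pa d} (h : Pre ℓ n k C a) (hb : Pf b a) :
    Pre ℓ n k C b := by
  obtain ⟨ss, hs, ha⟩ := h
  exact ⟨ss, hs, hb.trans ha⟩
lemma Segs.tail {n k : ℕ} {C : List (Pa d) → Prop} {s : List (Pa d)} {ss : List (List (Pa d))}
    (h : Segs ℓ n (k + 1) C (s :: ss)) : Segs ℓ n k C ss :=
  ⟨by simpa using h.1, fun t ht => h.2 t (by simp [ht])⟩
lemma pf_append_cases {B : Type*} {a s t : List B} (h : Pf a (s ++ t)) :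
    Pf a s ∨ ∃ a', a = s ++ a' ∧ Pf a' t := by
  obtain ⟨r, h⟩ := h
  rcases List.append_eq_append_iff.1 h with ⟨u, rfl, rfl⟩ | ⟨u, rfl, -⟩
  · exact Or.inr ⟨u, rfl, pf_append _ _⟩
  · exact Or.inl (pf_append _ _)
lemma conf_le (hs : ∑' b, bw μ ℓ b = 1) {n k : ℕ} {θ : ℝ≥0∞} {C : List (Pa d) → Prop}
    (hθ : θ ≤ 1) (hk : k * Ex (bw μ ℓ) n (fun s => ind (¬C s)) ≤ 2⁻¹) {a : Pa d}
    (ha : Pre ℓ n k (prune μ ℓ n θ C) a) :
    θ * w μ a ≤ 2 * Ex (pw (bw μ ℓ) n) k fun ss =>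
      ind ((∀ s ∈ ss, C s) ∧ Pf a ss.flatten.flatten) := by
  induction k generalizing a with
  | zero =>
    obtain ⟨ss, hss, r, ha⟩ := ha
    obtain rfl := List.length_eq_zero_iff.1 hss.1
    obtain rfl : a = [] := (List.append_eq_nil_iff.1 ha.symm).1
    rw [Ex_zero, ind_pos ⟨by simp, pf_nil _⟩, w_nil, mul_one, mul_one]
    exact hθ.trans one_le_two
  | succ k ih =>
    have hk' : k * Ex (bw μ ℓ) n (fun s => ind (¬C s)) ≤ 2⁻¹ :=
      le_trans (mul_le_mul_left (by exact_mod_cast Nat.le_succ k) _) hk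
    obtain ⟨ss, hss, ha⟩ := ha
    obtain ⟨s, ss, rfl⟩ := List.exists_cons_of_length_eq_add_one hss.1
    obtain ⟨h1, h2, h3⟩ := hss.2 s (by simp)
    rw [List.flatten_cons, List.flatten_append] at ha
    rw [Ex_succ]
    rcases pf_append_cases ha with ha | ⟨a', rfl, ha'⟩
    · have h4 := half_le (Ex_ind_add_not (tsum_pw hs n) k fun ss => ∀ s ∈ ss, C s)
        ((Ex_not_all hs n k C).trans hk')
      refine (h3.2 a ha).trans ((le_mul_of_one_le_right' h4).trans ?_)
      rw [mul_left_comm, conf, Ex_eq_tsum n, ← ENNReal.tsum_mul_right]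
      refine mul_le_mul_right (ENNReal.tsum_le_tsum fun t => ?_) _
      rw [mul_assoc, ← Ex_mul_left]
      refine mul_le_mul_right (Ex_mono' fun tt => ?_) _
      rw [← ind_and]
      refine ind_mono fun h => ⟨by simpa using ⟨h.1.1, h.2⟩, h.1.2.trans ?_⟩
      rw [List.flatten_cons, List.flatten_append]
      exact pf_append _ _
    · have h4 : Pre ℓ n k (prune μ ℓ n θ C) a' := ⟨ss, hss.tail, ha'⟩
      rw [w_flatten h2 h4.stay, mul_left_comm]
      refine (mul_le_mul_right (ih hk' h4) _).trans ?_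
      rw [mul_left_comm]
      refine mul_le_mul_right (le_trans ?_ (ENNReal.le_tsum s)) _
      rw [pw, if_pos h1]
      refine mul_le_mul_right (Ex_mono' fun tt => ind_mono fun ⟨h, r, hr⟩ =>
        ⟨by simpa using ⟨h3.1, h⟩, r, ?_⟩) _
      rw [List.flatten_cons, List.flatten_append, hr, List.append_assoc]
lemma Segs.ht_le {n k T : ℕ} {lo hi : ℝ} {C : List (Pa d) → Prop} (c : Cap ℓ lo hi T C)
    {ss : List (List (Pa d))} (h : Segs ℓ n k C ss) : k * lo ≤ ht ℓ ss.flatten.flatten ∧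
      ht ℓ ss.flatten.flatten ≤ k * hi ∧ ss.flatten.flatten.length ≤ k * T := by
  induction ss generalizing k with
  | nil => obtain rfl : 0 = k := h.1; simp
  | cons s ss ih =>
    obtain rfl : ss.length + 1 = k := h.1
    obtain ⟨h1, h2, h3⟩ := ih h.tail
    obtain ⟨h4, h5, h6⟩ := c s (h.2 s (by simp)).2.2
    rw [List.flatten_cons, List.flatten_append, ht_append, List.length_append, Nat.succ_mul]
    push_cast
    exact ⟨by linarith, by linarith, by omega⟩
lemma Pre.low {n k T : ℕ} {lo hi : ℝ} {C : List (Pa d) → Prop} (c : Cap ℓ lo hi T C)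
    {a : Pa d} (h : Pre ℓ n k C a) {x z : V d} (hz : z ∈ ran x a) :
    dot ℓ z ≤ dot ℓ (x + disp a) + max hi 0 := by
  induction k generalizing a x with
  | zero =>
    obtain ⟨ss, hss, r, ha⟩ := h
    obtain rfl := List.length_eq_zero_iff.1 hss.1
    obtain rfl : a = [] := (List.append_eq_nil_iff.1 ha.symm).1
    simp only [ran, disp_nil, add_zero, dep_nil, Finset.mem_insert, Finset.notMem_empty,
      or_false] at hz
    simp [hz]
  | succ k ih =>
    have h0 := h.stay.ht_nonneg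
    obtain ⟨ss, hss, ha⟩ := h
    obtain ⟨s, ss, rfl⟩ := List.exists_cons_of_length_eq_add_one hss.1
    obtain ⟨h1, h2, h3⟩ := hss.2 s (by simp)
    rw [List.flatten_cons, List.flatten_append] at ha
    have h5 := le_max_left hi 0
    have h6 := le_max_right hi 0
    rcases pf_append_cases ha with ha | ⟨a', rfl, ha'⟩
    · have := ((bridge_flatten h2).le (ran_mono ha hz)).2
      rw [dot_add]
      linarith [(c s h3).2.1, show ht ℓ a = dot ℓ (disp a) from rfl]
    · have h4 : Pre ℓ n k C a' := ⟨ss, hss.tail, ha'⟩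
      rw [ran_append, Finset.mem_union] at hz
      rcases hz with hz | hz
      · have := ((bridge_flatten h2).lt hz).2
        have h7 := h4.stay.ht_nonneg
        rw [dot_add, ← ht, ht_append]
        linarith
      · simpa [add_assoc] using ih h4 hz
lemma preOk {n I J T j0 : ℕ} {lo hi : ℝ} {CX CY : List (Pa d) → Prop} (cX : Cap ℓ lo hi T CX)
    (cY : Cap (-ℓ) lo hi T CY) (hj : hi ≤ j0) :
    PreOk ℓ j0 (I * T) (Pre ℓ n I CX) (Pre (-ℓ) n J CY) := by
  refine ⟨fun a r h => h.pf (pf_append _ _), fun a r h => h.pf (pf_append _ _), ?_,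
    fun a h => h.stay, fun y b h h0 z hz => ?_⟩
  · rintro a ⟨ss, hs, ha⟩
    exact ha.length_le.trans (hs.ht_le cX).2.2
  · have := h.low cY hz
    rw [neg_dot, neg_dot] at this
    have h2 : max hi 0 ≤ j0 := max_le hj (Nat.cast_nonneg _)
    linarith
lemma tip_aux {g t ρ : Pa d} (h : Rec ℓ (g ++ t)) (hρ : Stay (-ℓ) (t ++ ρ)) : t = [] := by
  by_contra h0
  have h1 := h _ (mem_dep_append g h0)
  have h2 := stay_iff.1 hρ t (pf_append _ _)
  rw [ht_neg] at h2
  rw [zero_add, ← ht, ht_append] at h1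
  linarith
theorem turn_le (hμ : Elliptic μ) (N K : ℕ) :
    al μ (-ℓ) * ∑ M ∈ Finset.range N, E2 (bw μ ℓ) (bw μ (-ℓ)) M K (fun bs cs =>
      ind (Disjoint (dep 0 bs.flatten) (dep (disp bs.flatten) cs.flatten) ∧
        ht ℓ bs.flatten + ht ℓ cs.flatten < 0)) ≤ 1 := by
  let A : List (Pa d) × List (Pa d) → Prop := fun x => (∀ b ∈ x.1, Blk ℓ b) ∧ x.2.length = K ∧
    (∀ b ∈ x.2, Blk (-ℓ) b) ∧ Disjoint (dep 0 x.1.flatten) (dep (disp x.1.flatten) x.2.flatten) ∧
      ht ℓ x.1.flatten + ht ℓ x.2.flatten < 0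
  have h := fam_le (ℓ := -ℓ) hμ A (fun x => x.1.flatten ++ x.2.flatten)
    (fun x => wt (bw μ ℓ) x.1 * wt (bw μ (-ℓ)) x.2) [] ?_ ?_ fun _ _ => pf_nil _
  · rw [w_nil] at h
    refine le_trans (mul_le_mul_right ?_ _) h
    rw [ENNReal.tsum_prod']
    simp only [E2, Ex_eq_tsum (π := bw μ ℓ)]
    rw [← Summable.tsum_finsetSum fun _ _ => ENNReal.summable]
    refine ENNReal.tsum_le_tsum fun bs => ?_
    rw [← Finset.sum_mul]
    have h1 : ∑ M ∈ Finset.range N, pw (bw μ ℓ) M bs ≤ wt (bw μ ℓ) bs := by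
      simp only [pw, Finset.sum_ite_eq]
      split_ifs <;> simp
    refine (mul_le_mul_left h1 _).trans ?_
    by_cases h0 : wt (bw μ ℓ) bs = 0
    · simp [h0]
    refine (mul_le_mul_right (Ex_bw_le K _) _).trans ?_
    rw [← ENNReal.tsum_mul_left]
    refine ENNReal.tsum_le_tsum fun cs => ?_
    rw [mul_left_comm]
    exact mul_le_mul_left (ind_mono fun h => ⟨sup_bw (wt_ne_zero.1 h0), h⟩) _
  · rintro ⟨bs, cs⟩ r ⟨h1, -, h2, h3, h4⟩ hr
    refine le_of_eq ?_
    simp only at h1 h2 h3 h4 ⊢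
    rw [List.append_assoc, w_append, w_flatten h2 hr, w_flatten' h1, mul_assoc]
    rw [dep_append, Finset.disjoint_union_right]
    refine ⟨h3, Finset.disjoint_left.2 fun y hy hy' => ?_⟩
    have h5 := hr.le (dep_subset_ran _ _ hy')
    have h6 := ((bridge_flatten h1) y hy).1
    rw [neg_dot, neg_dot, dot_add] at h5
    unfold ht at h4
    linarith
  · rintro ⟨bs, cs⟩ ⟨bs', cs'⟩ r r' ⟨h1, h2, h3, -⟩ ⟨h1', h2', h3', -⟩ hr hr' h
    simp only [List.append_assoc] at h1 h2 h3 h1' h2' h3' h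
    have s1 := (bridge_flatten h3).stay.append hr
    have s2 := (bridge_flatten h3').stay.append hr'
    have h4 : bs.flatten = bs'.flatten := by
      rcases List.append_eq_append_iff.1 h with ⟨t, e1, e2⟩ | ⟨t, e1, e2⟩
      · rw [e1, tip_aux (t := t) (e1 ▸ (bridge_flatten h1').rec) (e2 ▸ s1), List.append_nil]
      · rw [e1, tip_aux (t := t) (e1 ▸ (bridge_flatten h1).rec) (e2 ▸ s2), List.append_nil]
    rw [h4] at h
    exact Prod.ext (blks_unique' h1 h1' h4)
      (blks_unique (h2.trans h2'.symm) h3 h3' hr hr' (List.append_cancel_left h))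

end Vale.Agent.P147F
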