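import Vale.Agent.P147F.Blk

/-! From the flux of segments to the flux of long trips. -/

namespace Vale.Agent.P147F

open MeasureTheory Vale.Agent.P147
open scoped ENNReal Classical

variable {d : ℕ} {μ : Measure (St d → ℝ)} {ℓ : Fin d → ℝ} {e : St d}

lemma sum_isB (L : List (Pa d)) (b0 : Pa d) (o r : ℕ) :
    (((L.drop o).take r).map (isB b0)).sum =
      (((Finset.range r).filter fun i => L[o + i]? = some b0).card : ℝ) := by
  induction r with
  | zero => simp
  | succ r ih =>
    rw [List.take_add_one, List.map_append, List.sum_append, ih, Finset.range_add_one,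
      Finset.filter_insert, List.getElem?_drop]
    split_ifs with h
    · rw [Finset.card_insert_of_notMem (by simp), h]; simp [isB]
    · cases h' : L[o + r]? with
      | none => simp
      | some b =>
        have : b ≠ b0 := fun hb => h (by rw [h', hb])
        simp [isB, this]

lemma ht_take_mono {L : List (Pa d)} (hL : ∀ b ∈ L, Blk ℓ b) {i j : ℕ} (h : i ≤ j) :
    ht ℓ (L.take i).flatten ≤ ht ℓ (L.take j).flatten := by
  obtain ⟨k, rfl⟩ := Nat.exists_eq_add_of_le h
  rw [List.take_add, List.flatten_append, ht_append]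
  exact le_add_of_nonneg_right (bridge_flatten fun b hb =>
    hL b (List.mem_of_mem_drop (List.mem_of_mem_take hb))).ht_nonneg
lemma pf_take_flatten (L : List (Pa d)) (i : ℕ) : Pf (L.take i).flatten L.flatten :=
  ⟨(L.drop i).flatten, by rw [← List.flatten_append, List.take_append_drop]⟩

lemma cnt_ge (hN : Nrm ℓ e) {L : List (Pa d)} (hL : ∀ b ∈ L, Blk (-ℓ) b) {o r : ℕ} {y : V d}
    {τ : Tg d} {D : Finset (V d)} (hD : τ.D = D.image fun z => z + vec (opp e))
    (h1 : dot ℓ y - ht (-ℓ) (L.take o).flatten ≤ -(τ.j0 + 1 : ℝ))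
    (h2 : -(τ.L : ℝ) ≤ dot ℓ y - ht (-ℓ) L.flatten) :
    ((Finset.range r).filter fun i => L[o + i]? = some [opp e] ∧
      tot disp (L.take (o + i)) ∈ D).card ≤ cnt ℓ τ y y L.flatten := by
  let lam : ℕ → ℝ := fun i => dot ℓ y - ht (-ℓ) (L.take (o + i)).flatten
  have mono : ∀ i j, i ≤ j → lam j ≤ lam i := fun i j h =>
    sub_le_sub_left (ht_take_mono hL (by omega)) _
  have tk : ∀ i, L[o + i]? = some [opp e] →
      (L.take (o + (i + 1))).flatten = (L.take (o + i)).flatten ++ [opp e] := fun i h => by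
    rw [← Nat.add_assoc, List.take_add_one, h]; simp
  have st : ∀ i, L[o + i]? = some [opp e] → lam (i + 1) = lam i - 1 := fun i h => by
    simp only [lam, tk i h, ht_append, ht_cons, ht_nil, hN.opp.2]; ring
  have up : ∀ i, lam i ≤ -(τ.j0 + 1 : ℝ) := fun i => (mono 0 i (Nat.zero_le _)).trans h1
  have j0 : (0 : ℝ) ≤ τ.j0 := Nat.cast_nonneg _
  refine Finset.card_le_card_of_injOn (fun i => ⌊1 - lam i⌋₊) (fun i hi => ?_) ?_
  · obtain ⟨-, h3, h4⟩ := Finset.mem_filter.1 hi
    have f1 := Nat.floor_le (a := 1 - lam i) (by linarith [up i])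
    have f2 := Nat.lt_floor_add_one (1 - lam i)
    have f3 : -(τ.L : ℝ) ≤ lam (i + 1) := h2.trans (sub_le_sub_left (by
      have := ht_take_mono hL (le_max_left (o + (i + 1)) L.length)
      rwa [List.take_of_length_le (le_max_right _ _)] at this) _)
    have f4 : ∀ a : Pa d, dot ℓ (y + disp a) = dot ℓ y - ht (-ℓ) a := fun a => by
      rw [dot_add, ht_neg, sub_neg_eq_add]; rfl
    have f5 := st i h3
    refine Finset.mem_coe.2 (Finset.mem_filter.2 ⟨Finset.mem_Ioc.2 ⟨?_, ?_⟩,
      _, pf_take_flatten L (o + (i + 1)), ⟨?_, fun z hz => ?_⟩, ?_⟩)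
    · exact_mod_cast (show (τ.j0 : ℝ) < ⌊1 - lam i⌋₊ by linarith [up i])
    · exact_mod_cast (show (⌊1 - lam i⌋₊ : ℝ) ≤ τ.L by linarith)
    · rw [f4]; change lam (i + 1) ≤ _; linarith
    · rw [tk i h3, dep_append, Finset.mem_union] at hz
      rcases hz with hz | hz
      · have := ((bridge_flatten fun b hb => hL b (List.mem_of_mem_take hb)).lt hz).2
        rw [neg_dot, neg_dot] at this
        have : lam i < dot ℓ z := by simp only [lam]; linarith
        linarith
      · simp only [dep_cons, dep_nil, Finset.mem_insert, Finset.notMem_empty, or_false] at hz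
        rw [hz, f4]; change _ < lam i; linarith
    · rw [hD, tk i h3]
      exact Finset.mem_image.2 ⟨_, h4, by simp [tot_disp]⟩
  · have key : ∀ i j, L[o + i]? = some [opp e] → i < j → ⌊1 - lam i⌋₊ < ⌊1 - lam j⌋₊ := by
      intro i j h hij
      have f1 := Nat.floor_le (a := 1 - lam i) (by linarith [up i])
      have f2 := Nat.lt_floor_add_one (1 - lam j)
      have f3 := mono (i + 1) j hij
      rw [st i h] at f3
      exact_mod_cast (show (⌊1 - lam i⌋₊ : ℝ) < ⌊1 - lam j⌋₊ by linarith)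
    intro i hi j hj h
    have hi' := (Finset.mem_filter.1 hi).2.1
    have hj' := (Finset.mem_filter.1 hj).2.1
    rcases lt_trichotomy i j with h' | h' | h'
    · exact absurd h (key i j hi' h').ne
    · exact h'
    · exact absurd h (key j i hj' h').ne'

lemma step1_det (hN : Nrm ℓ e) {n I J r T : ℕ} {lo hi u c : ℝ} {D : Finset (V d)} {τ : Tg d}
    {CX CY : List (Pa d) → Prop} (cX : Cap ℓ lo hi T CX) (cY : Cap (-ℓ) lo hi T CY)
    (h5 : u + hi ≤ I * lo) (h6 : (I + 2) * hi + τ.j0 + 1 ≤ J * lo) (h7 : (J + 1) * hi ≤ τ.L)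
    (hD : τ.D = D.image fun z => z + vec (opp e)) (hκ : (τ.κ : ℝ) ≤ c * r) (hJ : 1 ≤ J)
    {s t : List (Pa d)} {ss ts : List (List (Pa d))} {v : V d} (hs : ∀ b ∈ s, Blk ℓ b) (hs' : CX s)
    (hss : Segs ℓ n I CX ss) (hts : Segs (-ℓ) n (J + 1) CY (t :: ts))
    (hv : ¬Disjoint (ran 0 s.flatten) (ran v t.flatten))
    (b1 : ¬Bot ℓ u ss.flatten.flatten (disp ss.flatten.flatten + (v + disp t.flatten))
      ts.flatten.flatten)
    (b2 : ¬c * r < (((Finset.range r).filter fun i =>
      tot disp ((t ++ ts.flatten).take (J * n + i)) ∉ D).card : ℝ))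
    (b3 : ¬(((ts.flatten.drop (J * n - n)).take r).map (isB [opp e])).sum < 2 * c * r) :
    UEv ℓ u τ (disp ss.flatten.flatten + v) (ss ++ [s]).flatten.flatten
      (t :: ts).flatten.flatten := by
  obtain ⟨ht1, ht2, ht3⟩ := hts.2 t (by simp)
  obtain ⟨z, hz, hz'⟩ := Finset.not_disjoint_iff.1 hv
  have l1 := (bridge_flatten hs).le hz
  have l2 := (bridge_flatten ht2).le hz'
  simp only [neg_dot, dot_zero, zero_add] at l1 l2
  have l3 := (cX s hs').2.1
  have l4 := (cY t ht3).2.1
  obtain ⟨l5, l6, -⟩ := hss.ht_le cX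
  have l7 := hss.bridge.ht_nonneg
  have l8 : dot ℓ (disp ss.flatten.flatten + v) = ht ℓ ss.flatten.flatten + dot ℓ v := dot_add _ _ _
  have e1 : (ss ++ [s]).flatten.flatten = ss.flatten.flatten ++ s.flatten := by simp
  have e2 : (t :: ts).flatten.flatten = t.flatten ++ ts.flatten.flatten := by simp
  refine ⟨?_, ?_, ?_⟩
  · rw [e1, e2]
    refine Finset.not_disjoint_iff.2 ⟨disp ss.flatten.flatten + z, ran_suffix _ _ _ ?_,
      ran_mono (pf_append _ _) ?_⟩
    · rw [zero_add, add_mem_ran]; exact hz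
    · rw [mem_ran_shift] at hz' ⊢
      simpa using hz'
  · rintro ⟨a, ha, h1, h2⟩
    rw [e1] at ha
    rw [e2, ran_append, Finset.mem_union] at h2
    have h3 := h1 _ (end_mem_ran 0 a)
    rw [zero_add] at h3
    refine b1 ⟨a, ?_, h1, ?_⟩
    · refine (pf_append_cases ha).resolve_right ?_
      rintro ⟨a', rfl, -⟩
      have := h1 _ (mem_ran_pf (pf_append _ a'))
      rw [zero_add, ← ht] at this
      linarith
    · rw [← add_assoc]
      refine h2.resolve_left fun h => ?_
      have := ((bridge_flatten ht2).lt h).2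
      rw [neg_dot, neg_dot, l8] at this
      linarith
  · have hL : ∀ b ∈ (t :: ts).flatten, Blk (-ℓ) b := fun b hb => by
      obtain ⟨x, hx, hb⟩ := List.mem_flatten.1 hb
      exact (hts.2 x hx).2.1 b hb
    refine le_trans ?_ (cnt_ge hN hL (o := J * n) (r := r) hD ?_ ?_)
    · have e3 : ts.flatten.drop (J * n - n) = (t ++ ts.flatten).drop (J * n) := by
        rw [List.drop_append, List.drop_of_length_le (l := t) (by rw [ht1]; nlinarith), ht1,
          List.nil_append]
      rw [e3, sum_isB] at b3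
      rw [List.flatten_cons]
      have := Finset.card_le_card (s := (Finset.range r).filter fun i =>
          (t ++ ts.flatten)[J * n + i]? = some [opp e])
        (t := ((Finset.range r).filter fun i => (t ++ ts.flatten)[J * n + i]? = some [opp e] ∧
          tot disp ((t ++ ts.flatten).take (J * n + i)) ∈ D) ∪ (Finset.range r).filter fun i =>
          tot disp ((t ++ ts.flatten).take (J * n + i)) ∉ D) fun i hi => by
        simp only [Finset.mem_union, Finset.mem_filter] at hi ⊢
        tauto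
      have h2 := (Nat.cast_le (α := ℝ)).2 (this.trans (Finset.card_union_le _ _))
      rw [Nat.cast_add] at h2
      refine (Nat.cast_le (α := ℝ)).1 ?_
      linarith
    · obtain ⟨p, x, hp⟩ : ∃ p x, t :: ts = p ++ [x] :=
        ⟨_, _, (List.dropLast_append_getLast (by simp)).symm⟩
      rw [hp] at hts ⊢
      have h1 : Segs (-ℓ) n J CY p := ⟨by simpa using hts.1, fun y hy => hts.2 y (by simp [hy])⟩
      have h2 : p.flatten.length = J * n := by
        rw [List.length_flatten, List.sum_eq_card_nsmul _ n fun k hk => by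
          obtain ⟨y, hy, rfl⟩ := List.mem_map.1 hk
          exact (h1.2 y hy).1]
        simp [h1.1]
      rw [List.flatten_append, List.take_left' h2, l8]
      linarith [(h1.ht_le cY).1]
    · have := (hts.ht_le cY).2.1
      push_cast at this
      rw [l8]; linarith

theorem step1 (hN : Nrm ℓ e) (hX : ∑' b, bw μ ℓ b = 1) (hY : ∑' b, bw μ (-ℓ) b = 1)
    {n I J r T : ℕ} {lo hi u c : ℝ} {D : Finset (V d)} {τ : Tg d} {CX CY : List (Pa d) → Prop}
    (cX : Cap ℓ lo hi T CX) (cY : Cap (-ℓ) lo hi T CY)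
    (hG : ∀ t, CY t → Good (bw μ (-ℓ)) n J r c D t)
    (h1 : I * Ex (bw μ ℓ) n (fun s => ind (¬CX s)) ≤ 16⁻¹)
    (h2 : J * Ex (bw μ (-ℓ)) n (fun s => ind (¬CY s)) ≤ 16⁻¹)
    (h3 : Ex (bw μ (-ℓ)) r (fun l => ind ((l.map (isB [opp e])).sum < 2 * c * r)) ≤ 16⁻¹)
    (h4 : ∀ z : V d, E2 (bw μ ℓ) (bw μ (-ℓ)) (I * n) (J * n) (fun bs cs =>
      ind (Bot ℓ u bs.flatten (disp bs.flatten + z) cs.flatten)) ≤ 16⁻¹)
    (h5 : u + hi ≤ I * lo) (h6 : (I + 2) * hi + τ.j0 + 1 ≤ J * lo) (h7 : (J + 1) * hi ≤ τ.L)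
    (hD : τ.D = D.image fun z => z + vec (opp e)) (hκ : (τ.κ : ℝ) ≤ c * r) (hr : r ≤ n)
    (hJ : 1 ≤ J) : Fl μ ℓ n CX CY ≤ 2 * UU μ ℓ u τ n (I + 1) (J + 1) CX CY := by
  let G : V d → List (List (Pa d)) → List (List (Pa d)) → Prop := fun y ss ts =>
    (∀ s ∈ ss, CX s) ∧ (∀ t ∈ ts, CY t) ∧ UEv ℓ u τ y ss.flatten.flatten ts.flatten.flatten
  have hX' := tsum_pw hX n
  have hY' := tsum_pw hY n
  have e1 : UU μ ℓ u τ n (I + 1) (J + 1) CX CY = ∑' v : V d, E2 (bw μ ℓ) (bw μ (-ℓ)) n n fun s t =>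
      E2 (pw (bw μ ℓ) n) (pw (bw μ (-ℓ)) n) I J fun ss ts =>
        ind (G (disp ss.flatten.flatten + v) (ss ++ [s]) (t :: ts)) := by
    calc _ = Ex (pw (bw μ ℓ) n) I fun ss => ∑' y, Ex (bw μ ℓ) n fun s => Ex (bw μ (-ℓ)) n fun t =>
          Ex (pw (bw μ (-ℓ)) n) J fun ts => ind (G y (ss ++ [s]) (t :: ts)) := by
          rw [UU, Ex_tsum]
          refine tsum_congr fun y => ?_
          rw [E2, Ex_append]
          simp only [Ex_succ, Ex_zero, ← Ex_eq_tsum]
          rfl
      _ = Ex (pw (bw μ ℓ) n) I fun ss => ∑' v, Ex (bw μ ℓ) n fun s => Ex (bw μ (-ℓ)) n fun t =>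
          Ex (pw (bw μ (-ℓ)) n) J fun ts =>
            ind (G (disp ss.flatten.flatten + v) (ss ++ [s]) (t :: ts)) :=
          congrArg _ (funext fun ss => ((Equiv.addLeft (disp ss.flatten.flatten)).tsum_eq _).symm)
      _ = _ := by
          rw [Ex_tsum]
          refine tsum_congr fun v => ?_
          rw [Ex_comm]
          exact congrArg _ (funext fun s => Ex_comm _ _ _)
  rw [e1, Fl, ← ENNReal.tsum_mul_left]
  refine ENNReal.tsum_le_tsum fun v => ?_
  rw [← E2_mul_left]
  refine E2_mono fun s t s1 s2 t1 t2 => ind_le fun ⟨s3, t3, hv⟩ => ?_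
  refine half_le (b := E2 (pw (bw μ ℓ) n) (pw (bw μ (-ℓ)) n) I J fun ss ts =>
    ind (¬G (disp ss.flatten.flatten + v) (ss ++ [s]) (t :: ts))) ?_ ?_
  · rw [← E2_add]
    simp only [ind_add_not, E2, Ex_const hX', Ex_const hY']
  calc _ ≤ E2 (pw (bw μ ℓ) n) (pw (bw μ (-ℓ)) n) I J fun ss ts =>
        ind (¬∀ s ∈ ss, CX s) + (ind (¬∀ t ∈ ts, CY t) + (ind (Bot ℓ u ss.flatten.flatten
          (disp ss.flatten.flatten + (v + disp t.flatten)) ts.flatten.flatten) +
          (ind (c * r < (((Finset.range r).filter fun i =>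
            tot disp ((t ++ ts.flatten).take (J * n + i)) ∉ D).card : ℝ)) +
          ind ((((ts.flatten.drop (J * n - n)).take r).map (isB [opp e])).sum < 2 * c * r)))) := by
        refine E2_mono fun ss ts k1 k2 k3 k4 => ?_
        refine le_trans (ind_le_add fun h => ?_) (add_le_add_right ((ind_or_le _ _).trans
          (add_le_add_right ((ind_or_le _ _).trans (add_le_add_right (ind_or_le _ _) _)) _)) _)
        by_contra hc
        simp only [not_or, not_not] at hc
        obtain ⟨c1, c2, c3, c4, c5⟩ := hc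
        have c6 : ∀ x ∈ t :: ts, CY x := by simpa using ⟨t3, c2⟩
        refine h ⟨by simpa [or_imp, forall_and] using ⟨c1, s3⟩, c6,
          step1_det hN cX cY h5 h6 h7 hD hκ hJ (sup_bw s2) s3
            ⟨k1, fun x hx => ⟨(sup_pw k2 x hx).1, (sup_pw k2 x hx).2, c1 x hx⟩⟩
            ⟨by simp [k3], fun x hx => ?_⟩ hv c3 c4 c5⟩
        rcases List.mem_cons.1 hx with rfl | hx'
        · exact ⟨t1, sup_bw t2, t3⟩
        · exact ⟨(sup_pw k4 x hx').1, (sup_pw k4 x hx').2, c6 x hx⟩
    _ ≤ 16⁻¹ + (16⁻¹ + (16⁻¹ + (4⁻¹ + 16⁻¹))) := by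
        simp only [E2_add]
        refine add_le_add ?_ (add_le_add ?_ (add_le_add ?_ (add_le_add ?_ ?_)))
        · rw [E2_left hY']; exact (Ex_not_all hX n I CX).trans h1
        · rw [E2_right hX']; exact (Ex_not_all hY n J CY).trans h2
        · refine le_trans (le_of_eq ?_) (h4 (v + disp t.flatten))
          rw [E2, E2, ← Ex_pw]
          exact congrArg _ (funext fun ss => Ex_pw n J fun cs => ind (Bot ℓ u ss.flatten.flatten
            (disp ss.flatten.flatten + (v + disp t.flatten)) cs.flatten))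
        · rw [E2_right hX']
          exact (Ex_pw n J _).trans_le (hG t t3)
        · rw [E2_right hX', Ex_pw n J fun cs => ind ((((cs.drop (J * n - n)).take r).map
            (isB [opp e])).sum < 2 * c * r), Ex_window hY (k := J * n - n) (m := r)
            (by have : n ≤ J * n := Nat.le_mul_of_pos_left n hJ
                omega) fun l => ind ((l.map (isB [opp e])).sum < 2 * c * r)]
          exact h3
    _ ≤ 2⁻¹ := by
        refine (ENNReal.toReal_le_toReal (by simp) (by simp)).1 ?_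
        rw [ENNReal.toReal_add (by simp) (by simp), ENNReal.toReal_add (by simp) (by simp),
          ENNReal.toReal_add (by simp) (by simp), ENNReal.toReal_add (by simp) (by simp)]
        norm_num

end Vale.Agent.P147F
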