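import Vale.Agent.P147F.Geo

/-! The two quenched estimates. -/

namespace Vale.Agent.P147F

open MeasureTheory Vale.Agent.P147
open scoped ENNReal Classical

variable {d : ℕ} {ℓ : Fin d → ℝ} {e : St d} {ω : V d → St d → ℝ}

lemma Sto.sub (hω : Sto ω) : SubSt ω := fun x => (hω x).le
lemma pf_first_R (R : Pa d → Prop) : PF (First R) := fun a r ha hr => hr.2 a r rfl ha.1
lemma pf_minNot (PX : Pa d → Prop) : PF (MinNot PX) := fun a r ha hr => by
  by_contra h; exact ha.1 (hr.2 a r rfl h)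
lemma pf_firstE (τ : Tg d) (y : V d) : PF (FirstE ℓ τ y) := fun a r ha hr => hr.2 a r rfl ha.1
lemma pf_FPj (j : ℕ) (x : V d) : PF (FPj ℓ j x) :=
  (pf_first x fun z => dot ℓ z ≤ -(j : ℝ)).mono fun _ h => ⟨h.1, fun z hz => not_le.2 (h.2 z hz)⟩
lemma Reach.mono {u : ℝ} {a c : Pa d} (h : Reach ℓ u a) (hc : Pf a c) : Reach ℓ u c := by
  obtain ⟨x, hx, h⟩ := h
  exact ⟨x, ran_mono hc hx, h⟩
lemma ext_q (hω : SubSt ω) {A : Pa d → Prop} (hA : PF A) (x : V d) (a : Pa d) :
    ∑' l, ind (A l ∧ Pf a l) * q ω x l ≤ q ω x a := by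
  simp only [ind_mul]
  refine (ext_le hω (B := fun l => l = a) (hA.mono fun l h => h.1)
    (fun l ⟨_, r, h⟩ => ⟨a, r, rfl, h⟩) x).trans (le_of_eq ?_)
  rw [tsum_eq_single a fun l hl => by simp [hl]]; simp

lemma unfold_one (hω : Sto ω) {PX : Pa d → Prop} {N : ℕ} (cl : ∀ a r, PX (a ++ r) → PX a)
    (len : ∀ a, PX a → a.length ≤ N) (n : ℕ) (a : Pa d) (ha : PX a) (hn : N < a.length + n)
    (x : V d) : 1 ≤ ∑' r, ind (MinNot PX (a ++ r)) * q ω x r := by
  induction n generalizing a x with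
  | zero => exact absurd (len a ha) (by omega)
  | succ n ih =>
    rw [tsum_list_eq, ← hω x]
    refine le_add_left (Finset.sum_le_sum fun f _ => ?_)
    simp only [q_cons, mul_left_comm, ENNReal.tsum_mul_left]
    refine le_mul_of_one_le_right' ?_
    by_cases h : PX (a ++ [f])
    · simpa using ih (a ++ [f]) h (by simp; omega) (x + vec f)
    · refine le_trans (le_of_eq ?_) (ENNReal.le_tsum [])
      rw [ind_pos, q_nil, one_mul]
      refine ⟨h, fun b r hb hr => ?_⟩
      obtain ⟨r', g, rfl⟩ := (List.eq_nil_or_concat r).resolve_left hr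
      rw [List.concat_eq_append, ← List.append_assoc] at hb
      rw [(List.append_inj' hb rfl).1] at ha
      exact cl _ _ ha

lemma cnt_shift {τ : Tg d} {y x : V d} {b : Pa d} (r : Pa d)
    (h : ∀ z ∈ ran x b, -(τ.j0 : ℝ) ≤ dot ℓ z) :
    cnt ℓ τ y x (b ++ r) ≤ cnt ℓ τ y (x + disp b) r := by
  refine Finset.card_le_card fun j hj => ?_
  rw [Finset.mem_filter] at hj ⊢
  obtain ⟨h1, a, ha, h2, h3⟩ := hj
  have h4 : (τ.j0 : ℝ) < j := by exact_mod_cast (Finset.mem_Ioc.1 h1).1
  obtain ⟨t, ht⟩ := ha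
  rcases List.append_eq_append_iff.1 ht with ⟨p, rfl, rfl⟩ | ⟨p, rfl, -⟩
  · rw [disp_append, ← add_assoc] at h3
    refine ⟨h1, p, pf_append _ _, ⟨by simpa [add_assoc] using h2.1, fun z hz => h2.2 z ?_⟩, h3⟩
    rw [dep_append]; exact Finset.mem_union_right _ hz
  · have := h _ (mem_ran_pf (pf_append a p))
    linarith [h2.1]

lemma cnt_markov (hω : SubSt ω) {τ : Tg d} {y x : V d} {A : Pa d → Prop} (hA : PF A)
    (h : ∀ r, A r → τ.κ ≤ cnt ℓ τ y x r) :
    τ.κ * ∑' r, (if A r then q ω x r else 0) ≤ rho ω ℓ τ y x := by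
  calc _ ≤ ∑' r, ∑ j ∈ Finset.Ioc τ.j0 τ.L, ∑' p,
        ind (FPj ℓ j x p ∧ x + disp p - y ∈ τ.D) * (ind (A r ∧ Pf p r) * q ω x r) := by
        rw [← ENNReal.tsum_mul_left]
        refine ENNReal.tsum_le_tsum fun r => ?_
        split_ifs with hr
        · simp only [← mul_assoc, ENNReal.tsum_mul_right, ← Finset.sum_mul]
          refine mul_le_mul_left ((Nat.cast_le.2 (h r hr)).trans ?_) _
          rw [cnt, Finset.card_filter, Nat.cast_sum]
          refine Finset.sum_le_sum fun j _ => ?_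
          split_ifs with hj
          · obtain ⟨p, h1, h2⟩ := hj
            refine le_trans (le_of_eq ?_) (ENNReal.le_tsum p)
            rw [ind_pos h2, ind_pos ⟨hr, h1⟩]; simp
          · simp
        · simp
    _ ≤ _ := by
        rw [Summable.tsum_finsetSum fun _ _ => ENNReal.summable]
        refine Finset.sum_le_sum fun j _ => ?_
        rw [ENNReal.tsum_comm]
        refine ENNReal.tsum_le_tsum fun p => ?_
        rw [ENNReal.tsum_mul_left]
        exact ind_mul_le fun hp => by rw [if_pos hp]; exact ext_q hω hA x p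

lemma quench_one (hω : SubSt ω) {u : ℝ} {τ : Tg d} {N : ℕ} {PX PY : Pa d → Prop}
    (hP : PreOk ℓ τ.j0 N PX PY) (hκ : 1 ≤ τ.κ) (lam : ℝ≥0∞) (y : V d) (g : Pa d) :
    ∑' m, ind (∃ x : Pa d × Pa d, (C1 ℓ u τ PX PY y x.1 m ∧ MinNot PX (x.1 ++ x.2)) ∧
      x.1 ++ x.2 = g) * q ω y m ≤
      lam * ∑' b, ind (MinNot PX g ∧ FH ℓ u PY y g b) * q ω y b +
        ind (MinNot PX g ∧ ∃ c, Pf c g ∧ Rr ω ℓ u τ PX (τ.κ * lam) y c) := by
  have hA : PF fun m => ∃ x : Pa d × Pa d, (C1 ℓ u τ PX PY y x.1 m ∧ MinNot PX (x.1 ++ x.2)) ∧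
      x.1 ++ x.2 = g := (pf_firstE τ y).mono fun m ⟨_, h, _⟩ => h.1.2.2.2.2.2
  by_cases hM : MinNot PX g
  swap
  · rw [ENNReal.tsum_eq_zero.2 fun m => by
      rw [ind_neg fun ⟨x, h, hx⟩ => hM (hx ▸ h.2), zero_mul]]
    exact zero_le
  by_cases hR : ∃ c, Pf c g ∧ Rr ω ℓ u τ PX (τ.κ * lam) y c
  · rw [ind_pos ⟨hM, hR⟩]
    simp only [ind_mul]
    exact le_add_left (L0 hω hA y)
  refine le_add_right ?_
  simp only [ind_mul]
  refine (ext_le' ω (B := fun b => MinNot PX g ∧ FH ℓ u PY y g b) ?_ y (fun _ => lam) ?_).trans ?_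
  · rintro m ⟨⟨a, r⟩, ⟨⟨h1, h2, h3, h4, h5, -⟩, -⟩, rfl⟩
    simp only at h1 h2 h3 h4 hM ⊢
    have hr : r ≠ [] := fun h => hM.1 (by simpa [h] using h1)
    have h6 : disp a ∈ dep 0 (a ++ r) := by simpa using mem_dep_append (x := 0) a hr
    obtain ⟨b, t, rfl, h7, h8⟩ := exists_first y (fun z => z ∈ dep 0 (a ++ r)) m (by
      rcases Finset.mem_insert.1 h3 with h | h
      · exact Or.inl (h ▸ h6)
      · exact Or.inr ⟨_, h, h6⟩)
    refine ⟨b, t, ⟨hM, hP.clY _ _ h5, Finset.disjoint_right.2 h8, ?_⟩, rfl⟩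
    obtain ⟨c, r', h9, h10, h11⟩ := (mem_dep_iff' _ _ _).1 h7
    rw [zero_add] at h11
    refine ⟨c, r', h9, h10, h2.mono ?_, h11.symm⟩
    rcases List.append_eq_append_iff.1 h9 with ⟨p, rfl, -⟩ | ⟨p, rfl, -⟩
    · exact pf_append _ _
    · by_cases hp : p = []
      · simp [hp, pf_refl]
      · refine absurd (mem_ran_pf (x := y) (pf_append b t)) (Finset.disjoint_left.1 h4 ?_)
        rw [h11]
        simpa using mem_dep_append (x := 0) c hp
  · rintro b ⟨-, h1, -, c, r, rfl, hr, h2, h3⟩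
    have h4 := hM.2 c r rfl hr
    have h5 : rho ω ℓ τ y (disp c) ≤ τ.κ * lam :=
      (not_le.1 fun h => hR ⟨c, pf_append _ _, h4, h2, h⟩).le
    have h6 := hP.low y b h1 (by rw [← h3]; exact (hP.stay c h4).ht_nonneg)
    refine (ENNReal.mul_le_mul_iff_right (a := τ.κ) (by simp; omega) (by simp)).1
      (le_trans (cnt_markov hω (fun a t ha ht => hA (b ++ a) t ha (by simpa using ht)) ?_)
        (h3 ▸ h5))
    rintro t ⟨x, h, -⟩
    exact h.1.2.2.2.2.2.1.trans (cnt_shift t h6)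
  · rw [← ENNReal.tsum_mul_left]
    refine ENNReal.tsum_le_tsum fun b => ?_
    split_ifs <;> simp [mul_comm]

theorem quench (hω : Sto ω) {u : ℝ} {τ : Tg d} {N : ℕ}
    {PX PY : Pa d → Prop} (hP : PreOk ℓ τ.j0 N PX PY) (hκ : 1 ≤ τ.κ) (lam : ℝ≥0∞) (y : V d) :
    ∑' a, ∑' m, ind (C1 ℓ u τ PX PY y a m) * (q ω 0 a * q ω y m) ≤
      lam * ∑' a, ∑' b, ind (MinNot PX a ∧ FH ℓ u PY y a b) * (q ω 0 a * q ω y b) +
        ∑' a, ind (First (Rr ω ℓ u τ PX (τ.κ * lam) y) a) * q ω 0 a := by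
  calc _ ≤ ∑' m, ∑' x : Pa d × Pa d, ind (C1 ℓ u τ PX PY y x.1 m ∧ MinNot PX (x.1 ++ x.2)) *
        (q ω 0 (x.1 ++ x.2) * q ω y m) := by
        rw [ENNReal.tsum_comm]
        refine ENNReal.tsum_le_tsum fun m => ?_
        rw [ENNReal.tsum_prod']
        refine ENNReal.tsum_le_tsum fun a => ind_mul_le fun h => ?_
        refine (le_mul_of_one_le_right' (unfold_one hω hP.clX hP.len (N + 1) a h.1 (by omega)
          (0 + disp a))).trans (le_of_eq ?_)
        rw [← ENNReal.tsum_mul_left]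
        refine tsum_congr fun r => ?_
        simp only [ind_and, ind_pos h, q_append]
        ring
    _ ≤ ∑' m, ∑' g, ind (∃ x : Pa d × Pa d, (C1 ℓ u τ PX PY y x.1 m ∧ MinNot PX (x.1 ++ x.2)) ∧
          x.1 ++ x.2 = g) * (q ω 0 g * q ω y m) := by
        refine ENNReal.tsum_le_tsum fun m => tsum_ind_inj _ (fun x : Pa d × Pa d => x.1 ++ x.2)
          ?_ fun g => q ω 0 g * q ω y m
        have key : ∀ a t : Pa d, C1 ℓ u τ PX PY y a m → C1 ℓ u τ PX PY y (a ++ t) m → t = [] := by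
          intro a t h h'
          by_contra h0
          exact Finset.disjoint_left.1 h'.2.2.2.1 (by simpa using mem_dep_append (x := 0) a h0)
            h.2.2.1
        rintro ⟨a, r⟩ ⟨b, t⟩ ⟨h, -⟩ ⟨h', -⟩ he
        have : a = b := PF.unique (A := fun a => C1 ℓ u τ PX PY y a m) key h h' he
        subst this
        exact Prod.ext rfl (List.append_cancel_left he)
    _ ≤ ∑' g, q ω 0 g * (lam * ∑' b, ind (MinNot PX g ∧ FH ℓ u PY y g b) * q ω y b +
        ind (MinNot PX g ∧ ∃ c, Pf c g ∧ Rr ω ℓ u τ PX (τ.κ * lam) y c)) := by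
        rw [ENNReal.tsum_comm]
        refine ENNReal.tsum_le_tsum fun g => ?_
        simp only [mul_left_comm _ (q ω 0 g), ENNReal.tsum_mul_left]
        exact mul_le_mul_right (quench_one hω.sub hP hκ lam y g) _
    _ ≤ _ := by
        simp only [mul_add, ENNReal.tsum_add]
        refine add_le_add (le_of_eq ?_) ?_
        · rw [← ENNReal.tsum_mul_left]
          refine tsum_congr fun g => ?_
          rw [mul_left_comm, ← ENNReal.tsum_mul_left]
          simp only [mul_left_comm (q ω 0 g)]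
        · simp only [mul_comm (q ω 0 _), ind_mul]
          refine ext_le hω.sub ((pf_minNot PX).mono fun g h => h.1) (fun g h => ?_) 0
          obtain ⟨a, ⟨r, hr⟩, h1, h2⟩ := exists_first_pf h.2
          exact ⟨a, r, ⟨h1, h2⟩, hr⟩

lemma tsum_ind_sub_mem (x : V d) (D : Finset (V d)) : ∑' y, ind (x - y ∈ D) = D.card := by
  rw [← (Equiv.subLeft x).tsum_eq]
  simp only [Equiv.subLeft_apply, sub_sub_cancel]
  rw [tsum_eq_sum (s := D) fun z hz => ind_neg hz,
    Finset.sum_congr rfl fun z hz => ind_pos hz]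
  simp

theorem maxi (hω : SubSt ω) {u : ℝ} {τ : Tg d} {PX : Pa d → Prop}
    (hP : ∀ a, PX a → Stay ℓ a) (c : ℝ≥0∞) :
    c * ∑' y, ∑' a, ind (First (Rr ω ℓ u τ PX c y) a) * q ω 0 a ≤
      τ.L * τ.D.card * ∑' l, if Turn ℓ u l then q ω 0 l else 0 := by
  let T : ℕ → Pa d → Prop := fun j l => FPj ℓ j 0 l ∧ ∃ b r, Turn ℓ u b ∧ l = b ++ r
  calc _ ≤ ∑' y, ∑ j ∈ Finset.Ioc τ.j0 τ.L, ∑' l, ind (T j l ∧ disp l - y ∈ τ.D) * q ω 0 l := by
        rw [← ENNReal.tsum_mul_left]
        refine ENNReal.tsum_le_tsum fun y => ?_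
        calc _ ≤ ∑' a, ∑ j ∈ Finset.Ioc τ.j0 τ.L, ∑' p, ind (First (Rr ω ℓ u τ PX c y) a ∧
              FPj ℓ j (disp a) p ∧ disp a + disp p - y ∈ τ.D) * q ω 0 (a ++ p) := by
              rw [← ENNReal.tsum_mul_left]
              refine ENNReal.tsum_le_tsum fun a => ?_
              rw [mul_left_comm]
              refine ind_mul_le fun h => (mul_le_mul_left h.1.2.2 _).trans (le_of_eq ?_)
              rw [rho, Finset.sum_mul]
              refine Finset.sum_congr rfl fun j _ => ?_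
              rw [← ENNReal.tsum_mul_right]
              refine tsum_congr fun p => ?_
              rw [ind_and, ind_pos h, one_mul, ind_mul, q_append, zero_add]
              split_ifs <;> simp [mul_comm]
          _ ≤ _ := by
              rw [Summable.tsum_finsetSum fun _ _ => ENNReal.summable]
              refine Finset.sum_le_sum fun j hj => ?_
              have hj0 : (0 : ℝ) < j := by
                have := (Finset.mem_Ioc.1 hj).1
                exact_mod_cast (by omega : 0 < j)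
              rw [← ENNReal.tsum_prod (f := fun a p => ind (First (Rr ω ℓ u τ PX c y) a ∧
                FPj ℓ j (disp a) p ∧ disp a + disp p - y ∈ τ.D) * q ω 0 (a ++ p))]
              refine (tsum_ind_inj _ (fun x : Pa d × Pa d => x.1 ++ x.2) ?_ (q ω 0)).trans
                (tsum_ind_mono ?_ _)
              · rintro ⟨a, r⟩ ⟨b, t⟩ ⟨h, -⟩ ⟨h', -⟩ he
                have : a = b := (pf_first_R _).unique h h' he
                subst this
                exact Prod.ext rfl (List.append_cancel_left he)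
              · rintro l ⟨⟨a, p⟩, ⟨⟨⟨h1, ⟨x, hx, h2⟩, -⟩, -⟩, h3, h4⟩, rfl⟩
                simp only at h1 hx h3 h4 ⊢
                have h5 := hP a h1
                refine ⟨⟨⟨by simpa using h3.1, fun z hz => ?_⟩, ?_⟩, by simpa using h4⟩
                · rw [dep_append, Finset.mem_union, zero_add] at hz
                  rcases hz with hz | hz
                  · linarith [h5 z (dep_subset_ran _ _ hz)]
                  · exact h3.2 z hz
                · obtain ⟨b, r, h6, h7, h8⟩ := exists_first 0 (fun z => dot ℓ z < 0) (a ++ p)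
                    (Or.inl (by have := h3.1; simp only [zero_add, disp_append]; linarith))
                  rw [zero_add] at h7
                  refine ⟨b, r, ⟨fun z hz => not_lt.1 (h8 z hz), ⟨x, ?_, h2⟩, h7⟩, h6⟩
                  have h9 : ¬Pf b a := fun h => absurd (stay_iff.1 h5 b h) (not_le.2 h7)
                  rcases List.append_eq_append_iff.1 h6 with ⟨t, rfl, -⟩ | ⟨t, rfl, -⟩
                  · exact ran_subset_dep _ _ (fun h => h9 (by simp [h, pf_refl])) hx
                  · exact absurd (pf_append _ _) h9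
    _ ≤ ∑ j ∈ Finset.Ioc τ.j0 τ.L, τ.D.card * ∑' l, if Turn ℓ u l then q ω 0 l else 0 := by
        rw [Summable.tsum_finsetSum fun _ _ => ENNReal.summable]
        refine Finset.sum_le_sum fun j _ => ?_
        rw [ENNReal.tsum_comm]
        simp only [ind_and (T j _), mul_comm (ind (T j _)), mul_assoc, ENNReal.tsum_mul_right,
          tsum_ind_sub_mem, ENNReal.tsum_mul_left]
        simp only [mul_comm (q ω 0 _), ind_mul]
        exact mul_le_mul_right (ext_le hω ((pf_FPj j 0).mono fun l h => h.1)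
          (fun l h => h.2) 0) _
    _ ≤ _ := by
        rw [Finset.sum_const, nsmul_eq_mul, mul_assoc, Nat.card_Ioc]
        exact mul_le_mul_left (Nat.cast_le.2 (Nat.sub_le _ _)) _

end Vale.Agent.P147F
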