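import Vale.Agent.P147F.Blk
import Vale.Agent.P147F.Quench

/-! The self-improving inequality for the flux. -/

namespace Vale.Agent.P147F

open MeasureTheory Vale.Agent.P147
open scoped ENNReal Classical

variable {d : ℕ} {μ : Measure (St d → ℝ)} [IsProbabilityMeasure μ] {ℓ : Fin d → ℝ} {e : St d}

/-- number of offsets at which two paths meet -/
noncomputable def mt (g l : Pa d) : ℝ≥0∞ := ∑' v : V d, ind (¬Disjoint (ran 0 g) (ran v l))

lemma mt_comm (g l : Pa d) : mt g l = mt l g := by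
  have key : ∀ g l : Pa d, mt g l ≤ mt l g := fun g l => by
    rw [mt, mt, ← (Equiv.neg (V d)).tsum_eq]
    refine ENNReal.tsum_le_tsum fun v => ind_mono fun h => ?_
    rw [Finset.not_disjoint_iff] at h ⊢
    obtain ⟨z, h1, h2⟩ := h
    rw [mem_ran_shift] at h2
    refine ⟨_, h2, ?_⟩
    rw [mem_ran_shift]
    simpa using h1
  exact le_antisymm (key g l) (key l g)
lemma mt_append (g a b : Pa d) : mt g (a ++ b) ≤ mt g a + mt g b := by
  rw [mt, mt, mt, ← (Equiv.addRight (disp a)).tsum_eq fun v => ind (¬Disjoint (ran 0 g) (ran v b)),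
    ← ENNReal.tsum_add]
  refine ENNReal.tsum_le_tsum fun v => ind_le_add fun h => ?_
  rw [ran_append, Finset.disjoint_union_right, not_and_or] at h
  exact h.imp (fun h h' => h (h'.mono_right (dep_subset_ran _ _))) id
lemma mt_le (g l : Pa d) : mt g l ≤ (g.length + 1) * (l.length + 1) := by
  calc _ ≤ ∑' v : V d, ∑ x ∈ ran 0 g, ∑ y ∈ ran 0 l, ind (v = x - y) := by
        refine ENNReal.tsum_le_tsum fun v => ?_
        refine le_trans (ind_mono fun h => ?_) ((ind_exists_le_sum _ _).trans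
          (Finset.sum_le_sum fun x _ => ind_exists_le_sum _ _))
        obtain ⟨z, h1, h2⟩ := Finset.not_disjoint_iff.1 h
        exact ⟨z, h1, _, (mem_ran_shift _ _ _).1 h2, by abel⟩
    _ = ∑ x ∈ ran 0 g, ∑ y ∈ ran 0 l, 1 := by
        rw [Summable.tsum_finsetSum fun _ _ => ENNReal.summable]
        refine Finset.sum_congr rfl fun x _ => ?_
        rw [Summable.tsum_finsetSum fun _ _ => ENNReal.summable]
        exact Finset.sum_congr rfl fun y _ => by simpa using tsum_ind_eq (x - y) fun _ => 1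
    _ ≤ _ := by
        simp only [Finset.sum_const, nsmul_eq_mul, mul_one]
        exact mul_le_mul' (by exact_mod_cast card_ran_le 0 g) (by exact_mod_cast card_ran_le 0 l)
omit [IsProbabilityMeasure μ] in
lemma Fl_eq (n : ℕ) (CX CY : List (Pa d) → Prop) : Fl μ ℓ n CX CY =
    E2 (bw μ ℓ) (bw μ (-ℓ)) n n fun s t => ind (CX s) * (ind (CY t) * mt s.flatten t.flatten) := by
  rw [Fl, ← E2_tsum]
  simp only [ind_and, ENNReal.tsum_mul_left, mt]
lemma Ex_sum_map {B : Type*} {π : B → ℝ≥0∞} (hπ : ∑' b, π b = 1) (k : ℕ) (f : B → ℝ≥0∞) :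
    Ex π k (fun l => (l.map f).sum) = k * ∑' b, π b * f b := by
  induction k with
  | zero => simp
  | succ k ih =>
    simp only [Ex_succ, List.map_cons, List.sum_cons, Ex_add, Ex_const hπ, ih, mul_add,
      ENNReal.tsum_add, ENNReal.tsum_mul_right, hπ, Nat.cast_succ, add_mul, one_mul, add_comm]
lemma mt_long {π : Pa d → ℝ≥0∞} (hπ : ∑' b, π b = 1) (n : ℕ) {K : ℕ} (hK : 1 ≤ K)
    (C : List (Pa d) → Prop) (g : Pa d) :
    Ex (pw π n) K (fun ts => ind (∀ t ∈ ts, C t) * mt g ts.flatten.flatten) ≤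
      K * Ex π n fun t => ind (C t) * mt g t.flatten := by
  rw [Ex_eq_tsum n, ← Ex_sum_map (tsum_pw hπ n)]
  refine Ex_mono fun ts h h' => ind_mul_le fun hC => ?_
  have h0 : ts ≠ [] := by rintro rfl; simp at h; omega
  clear h h'
  induction ts with
  | nil => exact absurd rfl h0
  | cons t ts ih =>
    rw [List.map_cons, List.sum_cons, ind_pos (hC t (by simp)), one_mul]
    by_cases h1 : ts = []
    · simp [h1]
    · rw [List.flatten_cons, List.flatten_append]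
      exact (mt_append _ _ _).trans (add_le_add_right (ih (fun s hs => hC s (by simp [hs])) h1) _)

omit [IsProbabilityMeasure μ] in
lemma segs_of_sup {n k : ℕ} {C : List (Pa d) → Prop} {ss : List (List (Pa d))} (h : ss.length = k)
    (h' : Sup (pw (bw μ ℓ) n) ss) (hC : ∀ s ∈ ss, C s) : Segs ℓ n k C ss :=
  ⟨h, fun s hs => ⟨(sup_pw h' s hs).1, (sup_pw h' s hs).2, hC s hs⟩⟩

lemma com_pt {u : ℝ} {τ : Tg d} {N : ℕ} {PX PY : Pa d → Prop} (hP : PreOk ℓ τ.j0 N PX PY)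
    (hκ : 1 ≤ τ.κ) {y : V d} {g l : Pa d} (hg : PX g) (hl : PY l) (h : UEv ℓ u τ y g l) :
    ∃ a m, C1 ℓ u τ PX PY y a m ∧ Pf a g ∧ Pf m l := by
  obtain ⟨h1, h2, h3⟩ := h
  obtain ⟨m, hm, h4, h5⟩ := exists_first_pf (R := fun m => τ.κ ≤ cnt ℓ τ y y m) ⟨l, pf_refl l, h3⟩
  obtain ⟨z, hz, hz'⟩ := Finset.not_disjoint_iff.1 h1
  have h6 : z ∈ ran y m := by
    obtain ⟨b, r, rfl, rfl⟩ := (mem_ran_iff _ _ _).1 hz'
    rcases hm.total (pf_append b r) with h | h
    · obtain ⟨j, hj⟩ := Finset.card_pos.1 (hκ.trans h4)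
      obtain ⟨h7, a, ha, h8, -⟩ := Finset.mem_filter.1 hj
      have h9 : (τ.j0 : ℝ) < j := by exact_mod_cast (Finset.mem_Ioc.1 h7).1
      have := hP.low y b (hP.clY _ _ hl) (hP.stay g hg _ hz) _ (mem_ran_pf (ha.trans h))
      linarith [h8.1]
    · exact mem_ran_pf h
  obtain ⟨c, r, hc, rfl⟩ := (mem_ran_iff _ _ _).1 hz
  rw [zero_add] at h6
  obtain ⟨a, ha, h7, h8⟩ := exists_first_pf (R := fun a => disp a ∈ ran y m) ⟨c, ⟨r, hc⟩, h6⟩
  refine ⟨a, m, ⟨?_, ?_, h7, Finset.disjoint_left.2 fun x hx hx' => ?_, ?_, h4, h5⟩, ha, hm⟩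
  · obtain ⟨t, rfl⟩ := ha; exact hP.clX _ _ hg
  · by_contra h9
    refine h2 ⟨a, ha, fun x hx => not_le.1 fun h => h9 ⟨x, hx, h⟩, ran_mono hm h7⟩
  · obtain ⟨b, t, h9, h10, rfl⟩ := (mem_dep_iff' _ _ _).1 hx
    exact h10 (h8 b t h9 (by simpa using hx'))
  · obtain ⟨t, rfl⟩ := hm; exact hP.clY _ _ hl

theorem com (hμ : Elliptic μ) {u : ℝ} {τ : Tg d} {n I J N : ℕ} {CX CY : List (Pa d) → Prop}
    (hP : PreOk ℓ τ.j0 N (Pre ℓ n I CX) (Pre (-ℓ) n J CY)) (hκ : 1 ≤ τ.κ) :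
    al μ ℓ * al μ (-ℓ) * UU μ ℓ u τ n I J CX CY ≤ ∑' y, ∑' a, ∑' m,
      ind (C1 ℓ u τ (Pre ℓ n I CX) (Pre (-ℓ) n J CY) y a m) * (w μ a * w μ m) := by
  rw [UU, ← ENNReal.tsum_mul_left]
  refine ENNReal.tsum_le_tsum fun y => ?_
  refine le_trans (mul_le_mul_right (E2_mono (G := fun ss ts => ∑' a, ∑' m,
    ind (C1 ℓ u τ (Pre ℓ n I CX) (Pre (-ℓ) n J CY) y a m) *
      (ind (Pf a ss.flatten.flatten) * ind (Pf m ts.flatten.flatten)))
    fun ss ts h1 h2 h3 h4 => ind_le ?_) _) ?_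
  · rintro ⟨hx, hy, h⟩
    obtain ⟨a, m, h5, h6, h7⟩ := com_pt hP hκ ⟨ss, segs_of_sup h1 h2 hx, pf_refl _⟩
      ⟨ts, segs_of_sup h3 h4 hy, pf_refl _⟩ h
    refine le_trans (le_trans (le_of_eq ?_) (ENNReal.le_tsum m)) (ENNReal.le_tsum a)
    rw [ind_pos h5, ind_pos h6, ind_pos h7]; simp
  · rw [E2_tsum, ← ENNReal.tsum_mul_left]
    refine ENNReal.tsum_le_tsum fun a => ?_
    rw [E2_tsum, ← ENNReal.tsum_mul_left]
    refine ENNReal.tsum_le_tsum fun m => ?_
    rw [E2_mul_left, E2_prod, Ex_pw n I fun bs => ind (Pf a bs.flatten),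
      Ex_pw n J fun bs => ind (Pf m bs.flatten), mul_left_comm, mul_mul_mul_comm]
    exact mul_le_mul_right (mul_le_mul' (lemW hμ _ a) (lemW hμ _ m)) _

/-- a family with at most one member on each long trip -/
lemma conf_sum (hs : ∑' b, bw μ ℓ b = 1) {n k : ℕ} {θ : ℝ≥0∞} {C : List (Pa d) → Prop}
    (hθ : θ ≤ 1) (hk : k * Ex (bw μ ℓ) n (fun s => ind (¬C s)) ≤ 2⁻¹) {A : Pa d → Prop}
    (hA : PF A) (hA' : ∀ a, A a → Pre ℓ n k (prune μ ℓ n θ C) a) :
    θ * ∑' a, ind (A a) * w μ a ≤ 2 * Ex (pw (bw μ ℓ) n) k fun ss =>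
      ind (∀ s ∈ ss, C s) * ind (∃ a, A a ∧ Pf a ss.flatten.flatten) := by
  calc _ ≤ ∑' a, 2 * Ex (pw (bw μ ℓ) n) k fun ss =>
        ind (∀ s ∈ ss, C s) * ind (A a ∧ Pf a ss.flatten.flatten) := by
        rw [← ENNReal.tsum_mul_left]
        refine ENNReal.tsum_le_tsum fun a => ?_
        rw [mul_left_comm]
        refine ind_mul_le fun h => (conf_le hs hθ hk (hA' a h)).trans (le_of_eq ?_)
        simp only [ind_and, ind_pos h, one_mul]
    _ ≤ _ := by
        rw [ENNReal.tsum_mul_left, ← Ex_tsum]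
        refine mul_le_mul_right (Ex_mono' fun ss => ?_) _
        rw [ENNReal.tsum_mul_left]
        exact mul_le_mul_right (tsum_ind_le fun a b ⟨ha, r, hr⟩ ⟨hb, t, ht⟩ =>
          hA.unique ha hb (hr.symm.trans ht)) _

theorem absorb (hμ : Elliptic μ) (hX : ∑' b, bw μ ℓ b = 1) (hY : ∑' b, bw μ (-ℓ) b = 1)
    {u : ℝ} {n I J : ℕ} {CX CY : List (Pa d) → Prop} (hI : 1 ≤ I) (hJ : 1 ≤ J)
    (h1 : I * Ex (bw μ ℓ) n (fun s => ind (¬CX s)) ≤ 2⁻¹)
    (h2 : J * Ex (bw μ (-ℓ)) n (fun s => ind (¬CY s)) ≤ 2⁻¹) {θ : ℝ≥0∞} (hθ : θ ≤ 1) :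
    θ ^ 2 * ∑' y, ∑' a, ∑' b, ind (MinNot (Pre ℓ n I (prune μ ℓ n θ CX)) a ∧
      FH ℓ u (Pre (-ℓ) n J (prune μ (-ℓ) n θ CY)) y a b) * (w μ a * w μ b) ≤
      4 * I * J * Fl μ ℓ n CX CY := by
  set PX := Pre ℓ n I (prune μ ℓ n θ CX)
  set PY := Pre (-ℓ) n J (prune μ (-ℓ) n θ CY)
  have k1 : ∀ y a, θ * ∑' b, ind (FH ℓ u PY y a b) * w μ b ≤ 2 * Ex (pw (bw μ (-ℓ)) n) J fun ts =>
      ind (∀ t ∈ ts, CY t) * ind (¬Disjoint (dep 0 a) (ran y ts.flatten.flatten)) := by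
    intro y a
    refine (conf_sum hY hθ h2 ?_ fun b h => h.1).trans (mul_le_mul_right (Ex_mono' fun ts =>
      mul_le_mul_right (ind_mono ?_) _) _)
    · rintro b t ⟨-, -, c, r, rfl, hr, -, hc⟩ h
      by_contra h0
      exact Finset.disjoint_left.1 h.2.1 (mem_dep_append c hr)
        (by rw [zero_add, hc]; exact mem_dep_append b h0)
    · rintro ⟨b, ⟨-, -, c, r, rfl, hr, -, hc⟩, h⟩
      exact Finset.not_disjoint_iff.2 ⟨_, mem_dep_append c hr,
        by rw [zero_add, hc]; exact mem_ran_pf h⟩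
  have k2 : ∀ S : Finset (V d), θ * ∑' a, ind (MinNot PX a ∧ ¬Disjoint (dep 0 a) S) * w μ a ≤
      2 * Ex (pw (bw μ ℓ) n) I fun ss =>
        ind (∀ s ∈ ss, CX s) * ind (¬Disjoint (ran 0 ss.flatten.flatten) S) := by
    intro S
    refine le_trans (mul_le_mul_right ?_ _) ((conf_sum hX hθ h1
      (A := fun c => PX c ∧ First (fun c => disp c ∈ S) c) ((pf_first_R _).mono fun c h => h.2)
      fun c h => h.1).trans (mul_le_mul_right (Ex_mono' fun ss =>
        mul_le_mul_right (ind_mono ?_) _) _))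
    · simp only [ind_mul]
      refine ext_le_w hμ ((pf_minNot PX).mono fun a h => h.1) fun a ⟨hM, h⟩ => ?_
      obtain ⟨z, hz, hS⟩ := Finset.not_disjoint_iff.1 h
      obtain ⟨c, r, rfl, hr, rfl⟩ := (mem_dep_iff' _ _ _).1 hz
      obtain ⟨b, ⟨t, rfl⟩, h3, h4⟩ := exists_first_pf (R := fun c => disp c ∈ S)
        ⟨c, pf_refl c, by simpa using hS⟩
      rw [List.append_assoc] at hM ⊢
      exact ⟨b, t ++ r, ⟨hM.2 b _ rfl (by simp [hr]), h3, h4⟩, rfl⟩
    · rintro ⟨c, ⟨-, h, -⟩, hc⟩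
      exact Finset.not_disjoint_iff.2 ⟨_, mem_ran_pf hc, by simpa using h⟩
  calc _ ≤ ∑' y, 2 * Ex (pw (bw μ (-ℓ)) n) J fun ts => ind (∀ t ∈ ts, CY t) *
        (θ * ∑' a, ind (MinNot PX a ∧ ¬Disjoint (dep 0 a) (ran y ts.flatten.flatten)) * w μ a) := by
        rw [← ENNReal.tsum_mul_left]
        refine ENNReal.tsum_le_tsum fun y => ?_
        simp only [← ENNReal.tsum_mul_left, Ex_tsum]
        refine ENNReal.tsum_le_tsum fun a => ?_
        calc _ = θ * ind (MinNot PX a) * w μ a * (θ * ∑' b, ind (FH ℓ u PY y a b) * w μ b) := by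
              simp only [← ENNReal.tsum_mul_left, ind_and]
              exact tsum_congr fun b => by ring
          _ ≤ _ := by
              refine (mul_le_mul_right (k1 y a) _).trans (le_of_eq ?_)
              rw [mul_left_comm, ← Ex_mul_left]
              simp only [ind_and]
              congr 2
              funext ts
              ring
    _ ≤ ∑' y, 2 * Ex (pw (bw μ (-ℓ)) n) J fun ts => ind (∀ t ∈ ts, CY t) *
        (2 * Ex (pw (bw μ ℓ) n) I fun ss => ind (∀ s ∈ ss, CX s) *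
          ind (¬Disjoint (ran 0 ss.flatten.flatten) (ran y ts.flatten.flatten))) :=
        ENNReal.tsum_le_tsum fun y => mul_le_mul_right (Ex_mono' fun ts =>
          mul_le_mul_right (k2 _) _) _
    _ = 2 * Ex (pw (bw μ (-ℓ)) n) J fun ts => ind (∀ t ∈ ts, CY t) *
        (2 * Ex (pw (bw μ ℓ) n) I fun ss => ind (∀ s ∈ ss, CX s) *
          mt ts.flatten.flatten ss.flatten.flatten) := by
        simp only [ENNReal.tsum_mul_left, ← Ex_tsum]
        congr 2; funext ts; congr 3; funext ss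
        rw [mt_comm]; rfl
    _ ≤ 2 * Ex (pw (bw μ (-ℓ)) n) J fun ts => ind (∀ t ∈ ts, CY t) *
        (2 * (I * Ex (bw μ ℓ) n fun s => ind (CX s) * mt ts.flatten.flatten s.flatten)) :=
        mul_le_mul_right (Ex_mono' fun ts => mul_le_mul_right (mul_le_mul_right
          (mt_long hX n hI CX _) _) _) _
    _ = 4 * I * Ex (bw μ ℓ) n fun s => ind (CX s) * Ex (pw (bw μ (-ℓ)) n) J fun ts =>
        ind (∀ t ∈ ts, CY t) * mt s.flatten ts.flatten.flatten := by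
        simp only [← Ex_mul_left]
        rw [Ex_comm]
        congr 1; funext s; congr 1; funext ts
        rw [mt_comm]; ring
    _ ≤ _ := by
        rw [Fl_eq, E2, mul_assoc (4 * (I : ℝ≥0∞)), ← Ex_mul_left n (J : ℝ≥0∞)]
        refine mul_le_mul_right (Ex_mono' fun s => ?_) _
        rw [Ex_mul_left, mul_left_comm]
        exact mul_le_mul_right (mt_long hY n hJ CY _) _

lemma ae_sto (hμ : Elliptic μ) : ∀ᵐ ω ∂env μ, Sto ω := by
  filter_upwards [ae_ell hμ] with ω h x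
  rw [← ENNReal.ofReal_sum_of_nonneg fun e _ => ((h x).1 e).le, (h x).2]
  simp

lemma tsum3_w (A : V d → Pa d → Pa d → Prop) (h : ∀ y a b, A y a b → Disjoint (dep 0 a) (dep y b)) :
    ∑' y, ∑' a, ∑' b, ind (A y a b) * (w μ a * w μ b) =
      ∫⁻ ω, ∑' y, ∑' a, ∑' b, ind (A y a b) * (q ω 0 a * q ω y b) ∂env μ := by
  have m1 : ∀ y a b, Measurable fun ω : V d → St d → ℝ => ind (A y a b) * (q ω 0 a * q ω y b) :=
    fun y a b => ((measurable_q 0 a).mul (measurable_q y b)).const_mul _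
  rw [lintegral_tsum fun y => (Measurable.tsum fun a =>
    Measurable.tsum fun b => m1 y a b).aemeasurable]
  refine tsum_congr fun y => ?_
  rw [lintegral_tsum fun a => (Measurable.tsum fun b => m1 y a b).aemeasurable]
  refine tsum_congr fun a => ?_
  rw [lintegral_tsum fun b => (m1 y a b).aemeasurable]
  refine tsum_congr fun b => ?_
  rw [lintegral_const_mul (f := fun ω => q ω 0 a * q ω y b) _
    ((measurable_q 0 a).mul (measurable_q y b))]
  by_cases hA : A y a b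
  · rw [indep2 (h y a b hA)]
  · simp [ind_neg hA]

omit [IsProbabilityMeasure μ] in
lemma Cap.prune {lo hi : ℝ} {T n : ℕ} {C : List (Pa d) → Prop} (c : Cap ℓ lo hi T C) (θ : ℝ≥0∞) :
    Cap ℓ lo hi T (prune μ ℓ n θ C) := fun s hs => c s hs.1

theorem step2 (hμ : Elliptic μ) (hX : ∑' b, bw μ ℓ b = 1) (hY : ∑' b, bw μ (-ℓ) b = 1)
    {u lo hi : ℝ} {τ : Tg d} {n I J T : ℕ} {CX CY : List (Pa d) → Prop}
    (cX : Cap ℓ lo hi T CX) (cY : Cap (-ℓ) lo hi T CY) (hj : hi ≤ τ.j0) (hκ : 1 ≤ τ.κ)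
    (hI : 1 ≤ I) (hJ : 1 ≤ J) (h1 : I * Ex (bw μ ℓ) n (fun s => ind (¬CX s)) ≤ 2⁻¹)
    (h2 : J * Ex (bw μ (-ℓ)) n (fun s => ind (¬CY s)) ≤ 2⁻¹) {θ : ℝ≥0∞} (hθ : θ ≤ 1)
    (lam : ℝ≥0∞) :
    θ ^ 2 * (τ.κ * lam) * (al μ ℓ * al μ (-ℓ) *
      UU μ ℓ u τ n I J (prune μ ℓ n θ CX) (prune μ (-ℓ) n θ CY)) ≤
      τ.κ * lam * lam * (4 * I * J * Fl μ ℓ n CX CY) + θ ^ 2 * (τ.L * τ.D.card * be μ ℓ u) := by
  have hP := preOk (n := n) (I := I) (J := J) (cX.prune (μ := μ) (n := n) θ)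
    (cY.prune (μ := μ) (n := n) θ) hj
  have k1 := com (u := u) hμ hP hκ
  have k2 := absorb (u := u) hμ hX hY hI hJ h1 h2 hθ
  set PX := Pre ℓ n I (prune μ ℓ n θ CX)
  set PY := Pre (-ℓ) n J (prune μ (-ℓ) n θ CY)
  have k3 : τ.κ * lam * ∑' y, ∑' a, ∑' m, ind (C1 ℓ u τ PX PY y a m) * (w μ a * w μ m) ≤
      τ.κ * lam * lam * ∑' y, ∑' a, ∑' b, ind (MinNot PX a ∧ FH ℓ u PY y a b) * (w μ a * w μ b) +
        τ.L * τ.D.card * be μ ℓ u := by
    have m1 : ∀ A : V d → Pa d → Pa d → Prop, Measurable fun ω : V d → St d → ℝ =>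
        ∑' y, ∑' a, ∑' b, ind (A y a b) * (q ω 0 a * q ω y b) := fun A =>
      Measurable.tsum fun y => Measurable.tsum fun a =>
        Measurable.tsum fun b => ((measurable_q 0 a).mul (measurable_q y b)).const_mul _
    have m2 : Measurable fun ω : V d → St d → ℝ => ∑' l, if Turn ℓ u l then q ω 0 l else 0 :=
      Measurable.tsum fun l => by
        split_ifs
        · exact measurable_q 0 l
        · exact measurable_const
    rw [tsum3_w _ fun y a m h => h.2.2.2.1.mono_right (dep_subset_ran _ _),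
      tsum3_w _ fun y a b h => h.2.2.1, be, tsum_w_eq _ 0, ← lintegral_const_mul _ (m1 _),
      ← lintegral_const_mul _ (m1 _), ← lintegral_const_mul _ m2,
      ← lintegral_add_left ((m1 _).const_mul _)]
    refine lintegral_mono_ae ((ae_sto hμ).mono fun ω hω => ?_)
    refine (mul_le_mul_right (ENNReal.tsum_le_tsum fun y => quench hω hP hκ lam y) _).trans ?_
    rw [ENNReal.tsum_add, ENNReal.tsum_mul_left, mul_add, ← mul_assoc]
    exact add_le_add_right (maxi hω.sub hP.stay _) _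
  calc _ ≤ θ ^ 2 * (τ.κ * lam * ∑' y, ∑' a, ∑' m,
        ind (C1 ℓ u τ PX PY y a m) * (w μ a * w μ m)) := by
        rw [mul_assoc]; exact mul_le_mul_right (mul_le_mul_right k1 _) _
    _ ≤ _ := by
        refine (mul_le_mul_right k3 _).trans ?_
        rw [mul_add, mul_left_comm]
        exact add_le_add_left (mul_le_mul_right k2 _) _

end Vale.Agent.P147F
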