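import Vale.Agent.P147F.Q
import Vale.Agent.P147F.Step1
import Vale.Agent.P147F.Step2

/-! Iteration of the self-improving inequality. -/

namespace Vale.Agent.P147F

open MeasureTheory Vale.Agent.P147
open scoped ENNReal Classical

variable {d : ℕ} {μ : Measure (St d → ℝ)} [IsProbabilityMeasure μ] {ℓ : Fin d → ℝ} {e : St d}

lemma chain_alg {θ α Q U F G : ℝ≥0∞} (h1 : θ ≠ 0) (h2 : θ ≠ ⊤) (h3 : α ≠ 0) (h4 : α ≠ ⊤)
    (h5 : Q ≠ 0) (h6 : Q ≠ ⊤) (h : ∀ lam : ℝ≥0∞,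
      θ ^ 2 * lam * (α * U) ≤ lam * lam * (4 * Q * F) + θ ^ 2 * G) :
    2 * U ≤ 8⁻¹ * F + 128 * Q * G / α ^ 2 / θ ^ 2 := by
  have q0 : 64 * Q ≠ 0 := mul_ne_zero (by simp) h5
  have q1 : 64 * Q ≠ ⊤ := ENNReal.mul_ne_top (by simp) h6
  have t0 : θ ^ 2 ≠ 0 := pow_ne_zero _ h1
  have t1 : θ ^ 2 ≠ ⊤ := ENNReal.pow_ne_top h2
  obtain ⟨lam, hl, l0, l1⟩ : ∃ lam : ℝ≥0∞, lam * (64 * Q) = θ ^ 2 * α ∧ lam ≠ 0 ∧ lam ≠ ⊤ :=
    ⟨θ ^ 2 * α / (64 * Q), ENNReal.div_mul_cancel q0 q1,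
      ENNReal.div_ne_zero.2 ⟨mul_ne_zero t0 h3, q1⟩,
      ENNReal.div_ne_top (ENNReal.mul_ne_top t1 h4) q0⟩
  obtain ⟨X, hX, hX'⟩ : ∃ X, 128 * Q * G / α ^ 2 / θ ^ 2 = X ∧ X * θ ^ 2 * α ^ 2 = 128 * Q * G :=
    ⟨_, rfl, by rw [ENNReal.div_mul_cancel t0 t1,
      ENNReal.div_mul_cancel (pow_ne_zero _ h3) (ENNReal.pow_ne_top h4)]⟩
  rw [hX]
  have e8 : (8 : ℝ≥0∞) * 8⁻¹ = 1 := ENNReal.mul_inv_cancel (by simp) (by simp)
  refine (ENNReal.mul_le_mul_iff_right (a := 64 * Q * (θ ^ 2 * lam * α))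
    (mul_ne_zero q0 (mul_ne_zero (mul_ne_zero t0 l0) h3))
    (ENNReal.mul_ne_top q1 (ENNReal.mul_ne_top (ENNReal.mul_ne_top t1 l1) h4))).1 ?_
  calc _ = 128 * Q * (θ ^ 2 * lam * (α * U)) := by ring
    _ ≤ 128 * Q * (lam * lam * (4 * Q * F) + θ ^ 2 * G) := mul_le_mul_right (h lam) _
    _ = 8 * 8⁻¹ * (8 * Q * lam * (lam * (64 * Q)) * F) + θ ^ 2 * (128 * Q * G) := by
        rw [e8]; ring
    _ = 64 * Q * (θ ^ 2 * lam * α) * (8⁻¹ * F) + θ ^ 2 * (θ ^ 2 * α) * α * X := by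
        rw [hl, ← hX']; ring
    _ = _ := by rw [← hl]; ring

lemma chain_iter {S : Type*} (F lx ly : S → ℝ≥0∞) (ok : S → Prop) (B E : ℝ≥0∞)
    (step : ∀ s θ, θ ≠ 0 → ok s → E * (lx s + θ) ≤ 1 → E * (ly s + θ) ≤ 1 →
      ∃ s', ok s' ∧ lx s' ≤ lx s + θ ∧ ly s' ≤ ly s + θ ∧ F s' ≤ 8⁻¹ * F s + B / θ ^ 2) (k : ℕ) :
    ∀ s θ, θ ≠ 0 → ok s → E * (lx s + 2 * θ) ≤ 1 → E * (ly s + 2 * θ) ≤ 1 →
      ∃ s', ok s' ∧ lx s' ≤ lx s + 2 * θ ∧ ly s' ≤ ly s + 2 * θ ∧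
        F s' ≤ 8⁻¹ ^ k * F s + 2 * (B / θ ^ 2) := by
  induction k with
  | zero => exact fun s θ _ h _ _ => ⟨s, h, le_self_add, le_self_add, by simp⟩
  | succ k ih =>
    intro s θ h0 hs h1 h2
    have e2 : 2 * (θ / 2) = θ := ENNReal.mul_div_cancel (by simp) (by simp)
    have l2 : θ ≤ 2 * θ := le_mul_of_one_le_left' one_le_two
    obtain ⟨s1, k1, k2, k3, k4⟩ := ih s (θ / 2) (ENNReal.div_ne_zero.2 ⟨h0, by simp⟩) hs
      (by rw [e2]; exact le_trans (by gcongr) h1) (by rw [e2]; exact le_trans (by gcongr) h2)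
    rw [e2] at k2 k3
    have k2' : lx s1 + θ ≤ lx s + 2 * θ := by rw [two_mul, ← add_assoc]; gcongr
    have k3' : ly s1 + θ ≤ ly s + 2 * θ := by rw [two_mul, ← add_assoc]; gcongr
    obtain ⟨s2, m1, m2, m3, m4⟩ := step s1 θ h0 k1 (le_trans (by gcongr) h1)
      (le_trans (by gcongr) h2)
    refine ⟨s2, m1, m2.trans k2', m3.trans k3', m4.trans ?_⟩
    have e3 : B / (θ / 2) ^ 2 = 4 * (B / θ ^ 2) := by
      rw [div_eq_mul_inv θ, mul_pow, div_eq_mul_inv, div_eq_mul_inv,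
        ENNReal.mul_inv (Or.inr (by simp)) (Or.inr (by simp)), ← ENNReal.inv_pow (a := 2), inv_inv]
      ring
    have e8 : (8 : ℝ≥0∞)⁻¹ * 8 = 1 := ENNReal.inv_mul_cancel (by simp) (by simp)
    calc _ ≤ 8⁻¹ * (8⁻¹ ^ k * F s + 2 * (B / (θ / 2) ^ 2)) + B / θ ^ 2 := by gcongr
      _ = 8⁻¹ ^ (k + 1) * F s + (8⁻¹ * 8 * (B / θ ^ 2) + B / θ ^ 2) := by rw [e3]; ring
      _ = _ := by rw [e8, one_mul, two_mul]

lemma good_le {π : Pa d → ℝ≥0∞} (hπ : ∑' b, π b = 1) {n J r : ℕ} {c : ℝ} (hc : 0 < c)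
    (hr : 1 ≤ r) (hrn : r ≤ n) {D : Finset (V d)} {η : ℝ≥0∞}
    (h : xi π disp (J * n) r (fun z => ind (z ∉ D)) ≤ η) :
    Ex π n (fun t => ind (¬Good π n J r c D t)) ≤ 4 / ENNReal.ofReal c * η := by
  have c0 : ENNReal.ofReal c ≠ 0 := by simpa using hc
  have r0 : (r : ℝ≥0∞) ≠ 0 := by simp; omega
  refine (ENNReal.mul_le_mul_iff_right (a := ENNReal.ofReal c * r) (mul_ne_zero c0 r0)
    (ENNReal.mul_ne_top (by simp) (by simp))).1 ?_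
  calc _ ≤ Ex π n fun t => 4 * Ex π (J * n) fun cs => ∑ i ∈ Finset.range r,
        ind (tot disp ((t ++ cs).take (J * n + i)) ∉ D) := by
        rw [← Ex_mul_left]
        refine Ex_mono' fun t => ?_
        rw [mul_comm]
        refine ind_mul_le fun hG => ?_
        have h1 := mul_le_mul_right (not_le.1 hG).le 4
        rw [ENNReal.mul_inv_cancel (by simp) (by simp)] at h1
        refine (le_mul_of_one_le_left' h1).trans ?_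
        rw [mul_assoc, ← Ex_mul_right]
        refine mul_le_mul_right (Ex_mono' fun cs => ind_mul_le fun h2 => ?_) _
        rw [← ENNReal.ofReal_natCast, ← ENNReal.ofReal_mul hc.le]
        refine (ENNReal.ofReal_le_ofReal h2.le).trans (le_of_eq ?_)
        rw [ENNReal.ofReal_natCast, Finset.card_filter, Nat.cast_sum]
        refine Finset.sum_congr rfl fun i _ => ?_
        split_ifs with h3
        · simp [ind_neg (not_not.2 h3)]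
        · simp [ind_pos h3]
    _ = 4 * (r * xi π disp (J * n) r fun z => ind (z ∉ D)) := by
        rw [Ex_mul_left, xi, ← mul_assoc (r : ℝ≥0∞), ENNReal.mul_inv_cancel r0 (by simp), one_mul,
          ← Ex_append n (J * n) fun l => ∑ i ∈ Finset.range r,
            ind (tot disp (l.take (J * n + i)) ∉ D), Ex_sum]
        congr 1
        refine Finset.sum_congr rfl fun i hi => Ex_take hπ ?_ fun l => ind (tot disp l ∉ D)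
        have := Finset.mem_range.1 hi
        omega
    _ ≤ 4 * (r * η) := by gcongr
    _ = 4 / ENNReal.ofReal c * ENNReal.ofReal c * (r * η) := by
        rw [ENNReal.div_mul_cancel c0 (by simp)]
    _ = _ := by ring

lemma exists_ofReal_le {θ : ℝ≥0∞} (h : θ ≠ 0) {a : ℝ} (ha : 0 < a) :
    ∃ δ : ℝ, 0 < δ ∧ δ ≤ a ∧ ENNReal.ofReal δ ≤ θ := by
  obtain ⟨x, hx, h1, h2⟩ := ENNReal.lt_iff_exists_real_btwn.1 (pos_iff_ne_zero.2 h)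
  exact ⟨min x a, lt_min (by simpa using h1) ha, min_le_right _ _,
    (ENNReal.ofReal_le_ofReal (min_le_left _ _)).trans h2.le⟩

lemma cap_exists {π : Pa d → ℝ≥0∞} (hπ : ∑' b, π b = 1) {m mn mx : ℝ} (hW : WL π (ht ℓ) m)
    (h0 : 0 < mn) (h1 : mn ≤ m) (h2 : m ≤ mx) {θ : ℝ≥0∞} (hθ : θ ≠ 0) :
    ∃ n0 : ℕ, ∀ n, n0 ≤ n → ∃ T0 : ℕ, ∀ T, T0 ≤ T → Ex π n (fun s => ind (¬(mn * n / 2 ≤
      ht ℓ s.flatten ∧ ht ℓ s.flatten ≤ 2 * mx * n ∧ s.flatten.length ≤ T))) ≤ θ := by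
  have h3 : θ / 2 ≠ 0 := ENNReal.div_ne_zero.2 ⟨hθ, by simp⟩
  obtain ⟨δ, d0, d1, d2⟩ := exists_ofReal_le h3 (half_pos h0)
  obtain ⟨n0, hn0⟩ := hW δ d0
  refine ⟨n0, fun n hn => ?_⟩
  obtain ⟨T0, hT⟩ := Ex_tail hπ n (fun s => s.flatten.length) h3
  refine ⟨T0, fun T hT' => ?_⟩
  rw [← ENNReal.add_halves θ]
  refine le_trans ?_ (add_le_add ((hn0 n hn).trans d2) hT)
  rw [← Ex_add]
  refine Ex_mono' fun s => ind_le_add fun h => ?_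
  by_contra hc
  simp only [not_or, not_lt, ← ht_flatten, abs_le] at hc
  have : (0 : ℝ) ≤ n := Nat.cast_nonneg n
  exact h ⟨by nlinarith [hc.1.1], by nlinarith [hc.1.2], hc.2.trans hT'⟩

omit [IsProbabilityMeasure μ] in
lemma Fl_le (hX : ∑' b, bw μ ℓ b = 1) (hY : ∑' b, bw μ (-ℓ) b = 1) {n T : ℕ} {lo hi : ℝ}
    {CX CY : List (Pa d) → Prop} (cX : Cap ℓ lo hi T CX) (cY : Cap (-ℓ) lo hi T CY) :
    Fl μ ℓ n CX CY ≤ (T + 1) * (T + 1) := by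
  rw [Fl_eq]
  refine E2_le hX hY fun s t _ _ _ _ => ind_mul_le fun h1 => ind_mul_le fun h2 =>
    (mt_le _ _).trans ?_
  have := (cX s h1).2.2
  have := (cY t h2).2.2
  gcongr

lemma one_step (hμ : Elliptic μ) (hN : Nrm ℓ e) (hX : Reg μ ℓ) (hY : Reg μ (-ℓ))
    {n I J r T A N : ℕ} {lo hi u c : ℝ} {D : Finset (V d)} {τ : Tg d}
    (h3 : Ex (bw μ (-ℓ)) r (fun l => ind ((l.map (isB [opp e])).sum < 2 * c * r)) ≤ 16⁻¹)
    (h4 : ∀ z : V d, E2 (bw μ ℓ) (bw μ (-ℓ)) (I * n) (J * n) (fun bs cs =>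
      ind (Bot ℓ u bs.flatten (disp bs.flatten + z) cs.flatten)) ≤ 16⁻¹)
    (h5 : u + hi ≤ I * lo) (h6 : (I + 2) * hi + τ.j0 + 1 ≤ J * lo) (h7 : (J + 1) * hi ≤ τ.L)
    (hD : τ.D = D.image fun z => z + vec (opp e)) (hκ : (τ.κ : ℝ) ≤ c * r) (hr : r ≤ n)
    (hJ : 1 ≤ J) (hj : hi ≤ τ.j0) (hκ1 : 1 ≤ τ.κ) (hA : τ.L ≤ A * τ.κ) (hDN : D.card ≤ N)
    {CX CY : List (Pa d) → Prop} (cX : Cap ℓ lo hi T CX) (cY : Cap (-ℓ) lo hi T CY)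
    (hG : ∀ t, CY t → Good (bw μ (-ℓ)) n J r c D t) {θ : ℝ≥0∞} (hθ : θ ≠ 0)
    (h1 : (16 * (I + J + 2) : ℕ) * (Ex (bw μ ℓ) n (fun s => ind (¬CX s)) + θ) ≤ 1)
    (h2 : (16 * (I + J + 2) : ℕ) * (Ex (bw μ (-ℓ)) n (fun s => ind (¬CY s)) + θ) ≤ 1) :
    Fl μ ℓ n (prune μ ℓ n θ CX) (prune μ (-ℓ) n θ CY) ≤ 8⁻¹ * Fl μ ℓ n CX CY +
      128 * ((I + 1 : ℕ) * (J + 1 : ℕ)) * (A * N * be μ ℓ u) / (al μ ℓ * al μ (-ℓ)) ^ 2 / θ ^ 2 := by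
  have key : ∀ (k : ℕ) (x y : ℝ≥0∞), k ≤ I + J + 2 → x ≤ y → (16 * (I + J + 2) : ℕ) * y ≤ 1 →
      k * x ≤ 16⁻¹ := fun k x y hk hx h => by
    rw [ENNReal.le_inv_iff_mul_le]
    refine le_trans ?_ h
    rw [mul_right_comm, Nat.cast_mul, mul_comm (k : ℝ≥0∞)]
    gcongr
    simp
  have l16 : (16 : ℝ≥0∞)⁻¹ ≤ 2⁻¹ := ENNReal.inv_le_inv.2 (by norm_num)
  have hθ1 : θ ≤ 1 := by
    have := key 1 θ _ (by omega) le_add_self h1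
    rw [Nat.cast_one, one_mul] at this
    exact this.trans (ENNReal.inv_le_one.2 (by norm_num))
  refine (step1 hN hX.sum hY.sum (cX.prune θ) (cY.prune θ) (fun t h => hG t h.1)
    (key I _ _ (by omega) (prune_loss hμ n θ CX) h1) (key J _ _ (by omega) (prune_loss hμ n θ CY) h2)
    h3 h4 h5 h6 h7 hD hκ hr hJ).trans (chain_alg hθ (ne_top_of_le_ne_top (by simp) hθ1)
      (mul_ne_zero hX.al_ne hY.al_ne) (ENNReal.mul_ne_top (ne_top_of_le_ne_top (by simp) al_le_one)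
      (ne_top_of_le_ne_top (by simp) al_le_one)) (by simp) (ENNReal.mul_ne_top (by simp) (by simp))
      fun lam => ?_)
  have k := step2 (u := u) hμ hX.sum hY.sum cX cY hj hκ1 (Nat.le_add_left 1 I) (Nat.le_add_left 1 J)
    ((key (I + 1) _ _ (by omega) le_self_add h1).trans l16)
    ((key (J + 1) _ _ (by omega) le_self_add h2).trans l16) hθ1 lam
  refine (ENNReal.mul_le_mul_iff_right (a := τ.κ) (by simp; omega) (by simp)).1 ?_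
  have k1 : (τ.L : ℝ≥0∞) ≤ A * τ.κ := by exact_mod_cast hA
  have k2 : (τ.D.card : ℝ≥0∞) ≤ N := by
    rw [hD]; exact_mod_cast Finset.card_image_le.trans hDN
  calc _ = _ := by ring
    _ ≤ _ := k
    _ ≤ τ.κ * lam * lam * (4 * (I + 1 : ℕ) * (J + 1 : ℕ) * Fl μ ℓ n CX CY) +
        θ ^ 2 * (A * τ.κ * N * be μ ℓ u) := by gcongr
    _ = _ := by ring

lemma fixed_n (hμ : Elliptic μ) (hN : Nrm ℓ e) (hX : Reg μ ℓ) (hY : Reg μ (-ℓ))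
    {n I J r T A N : ℕ} {lo hi u c : ℝ} {D : Finset (V d)} {τ : Tg d}
    (h3 : Ex (bw μ (-ℓ)) r (fun l => ind ((l.map (isB [opp e])).sum < 2 * c * r)) ≤ 16⁻¹)
    (h4 : ∀ z : V d, E2 (bw μ ℓ) (bw μ (-ℓ)) (I * n) (J * n) (fun bs cs =>
      ind (Bot ℓ u bs.flatten (disp bs.flatten + z) cs.flatten)) ≤ 16⁻¹)
    (h5 : u + hi ≤ I * lo) (h6 : (I + 2) * hi + τ.j0 + 1 ≤ J * lo) (h7 : (J + 1) * hi ≤ τ.L)
    (hD : τ.D = D.image fun z => z + vec (opp e)) (hκ : (τ.κ : ℝ) ≤ c * r) (hr : r ≤ n)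
    (hJ : 1 ≤ J) (hj : hi ≤ τ.j0) (hκ1 : 1 ≤ τ.κ) (hA : τ.L ≤ A * τ.κ) (hDN : D.card ≤ N)
    {θ x : ℝ≥0∞} (θ0 : θ ≠ 0) (c1 : Ex (bw μ ℓ) n (fun s => ind (¬(lo ≤ ht ℓ s.flatten ∧
      ht ℓ s.flatten ≤ hi ∧ s.flatten.length ≤ T))) ≤ θ)
    (c2 : Ex (bw μ (-ℓ)) n (fun s => ind (¬(lo ≤ ht (-ℓ) s.flatten ∧
      ht (-ℓ) s.flatten ≤ hi ∧ s.flatten.length ≤ T))) ≤ θ)
    (c3 : Ex (bw μ (-ℓ)) n (fun s => ind (¬Good (bw μ (-ℓ)) n J r c D s)) ≤ x)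
    (hE : (16 * (I + J + 2) : ℕ) * (x + 3 * θ) ≤ 1) {ε : ℝ≥0∞} (hε : ε ≠ 0) :
    ∃ CX CY : List (Pa d) → Prop, Ex (bw μ ℓ) n (fun s => ind (¬CX s)) ≤ 3 * θ ∧
      Ex (bw μ (-ℓ)) n (fun s => ind (¬CY s)) ≤ x + 3 * θ ∧ Fl μ ℓ n CX CY ≤ ε +
        2 * (128 * ((I + 1 : ℕ) * (J + 1 : ℕ)) * A / (al μ ℓ * al μ (-ℓ)) ^ 2 / θ ^ 2) *
          be μ ℓ u * N := by
  let cap : (Fin d → ℝ) → List (Pa d) → Prop := fun l s => lo ≤ ht l s.flatten ∧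
    ht l s.flatten ≤ hi ∧ s.flatten.length ≤ T
  have p1 : Ex (bw μ ℓ) n (fun s => ind (¬cap ℓ s)) + 2 * θ ≤ 3 * θ :=
    (add_le_add_left c1 _).trans (le_of_eq (by ring))
  have p2 : Ex (bw μ (-ℓ)) n (fun s => ind (¬(cap (-ℓ) s ∧ Good (bw μ (-ℓ)) n J r c D s))) + 2 * θ ≤
      x + 3 * θ := by
    refine (add_le_add_left (le_trans (Ex_mono' fun s => ind_le_add not_and_or.1) ?_) _).trans
      (le_of_eq (show θ + x + 2 * θ = _ by ring))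
    rw [Ex_add]
    exact add_le_add c2 c3
  obtain ⟨k, hk⟩ := ENNReal.exists_inv_two_pow_lt (a := ε / ((T + 1) * (T + 1)))
    (ENNReal.div_ne_zero.2 ⟨hε, by finiteness⟩)
  obtain ⟨⟨CX, CY⟩, -, q1, q2, q3⟩ := chain_iter
    (S := (List (Pa d) → Prop) × (List (Pa d) → Prop)) (fun s => Fl μ ℓ n s.1 s.2)
    (fun s => Ex (bw μ ℓ) n fun x => ind (¬s.1 x)) (fun s => Ex (bw μ (-ℓ)) n fun x => ind (¬s.2 x))
    (fun s => Cap ℓ lo hi T s.1 ∧ Cap (-ℓ) lo hi T s.2 ∧ ∀ t, s.2 t → Good (bw μ (-ℓ)) n J r c D t)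
    (128 * ((I + 1 : ℕ) * (J + 1 : ℕ)) * (A * N * be μ ℓ u) / (al μ ℓ * al μ (-ℓ)) ^ 2)
    (16 * (I + J + 2) : ℕ) (fun s t t0 hs h1 h2 => ⟨(prune μ ℓ n t s.1, prune μ (-ℓ) n t s.2),
      ⟨hs.1.prune t, hs.2.1.prune t, fun x hx => hs.2.2 x hx.1⟩, prune_loss hμ n t _,
      prune_loss hμ n t _, one_step hμ hN hX hY h3 h4 h5 h6 h7 hD hκ hr hJ hj hκ1 hA hDN
        hs.1 hs.2.1 hs.2.2 t0 h1 h2⟩) k
    (cap ℓ, fun s => cap (-ℓ) s ∧ Good (bw μ (-ℓ)) n J r c D s) θ θ0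
    ⟨fun s h => h, fun s h => h.1, fun s h => h.2⟩
    ((mul_le_mul_right (p1.trans le_add_self) _).trans hE) ((mul_le_mul_right p2 _).trans hE)
  refine ⟨CX, CY, q1.trans p1, q2.trans p2, q3.trans (add_le_add ?_ (le_of_eq ?_))⟩
  · refine le_trans (mul_le_mul' (le_trans ?_ hk.le) (Fl_le hX.sum hY.sum (fun s h => h)
      fun s h => h.1)) (by rw [mul_comm]; exact ENNReal.mul_div_le)
    exact pow_le_pow_left' (ENNReal.inv_le_inv.2 (by norm_num)) k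
  · simp only [div_eq_mul_inv]; ring

lemma chain_num {mn mx c u : ℝ} {I J A Js n r : ℕ} (m0 : 0 < mn) (m5 : 0 < mx) (c0 : 0 < c)
    (hI : 8 * mx ≤ I * mn) (hJ : 4 * (I + 5) * mx ≤ J * mn) (hA : (J + 2) * 16 * mx * Js ≤ A * c)
    (r3 : n ≤ 4 * Js * r) (r4 : 1 ≤ c * r) (hi1 : |u| + 1 ≤ 2 * mx * n) :
    u + 2 * mx * n ≤ I * (mn * n / 2) ∧
      (I + 2) * (2 * mx * n) + (⌈2 * mx * n⌉₊ : ℝ) + 1 ≤ J * (mn * n / 2) ∧
      1 ≤ ⌊c * r⌋₊ ∧ ⌈(J + 1) * (2 * mx * n)⌉₊ ≤ A * ⌊c * r⌋₊ := by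
  have n0 : (0 : ℝ) ≤ n := Nat.cast_nonneg n
  have u1 := le_abs_self u
  have u2 := abs_nonneg u
  have κ1 : 1 ≤ ⌊c * r⌋₊ := Nat.le_floor (by simpa using r4)
  refine ⟨by nlinarith [mul_le_mul_of_nonneg_right hI n0], ?_, κ1, Nat.ceil_le.2 ?_⟩
  · have := Nat.ceil_lt_add_one (a := 2 * mx * n) (by positivity)
    nlinarith [mul_le_mul_of_nonneg_right hJ n0]
  · have h1 := Nat.lt_floor_add_one (c * r)
    have h2 : (1 : ℝ) ≤ ⌊c * r⌋₊ := by exact_mod_cast κ1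
    have h3 : (n : ℝ) ≤ 4 * Js * r := by exact_mod_cast r3
    push_cast
    refine le_of_mul_le_mul_left ?_ c0
    calc c * ((J + 1) * (2 * mx * n)) ≤ c * ((J + 2) * (2 * mx * (4 * Js * r))) := by
          gcongr; linarith
      _ = (J + 2) * 16 * mx * Js * (c * r / 2) := by ring
      _ ≤ A * c * ⌊c * r⌋₊ := by gcongr; linarith
      _ = _ := by ring

lemma exists_theta {E ε : ℝ≥0∞} (E1 : E ≠ ⊤) (E0 : E ≠ 0) (hε : ε ≠ 0) :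
    ∃ θ : ℝ≥0∞, θ ≠ 0 ∧ 3 * θ ≤ ε ∧ 2 * E * (3 * θ) ≤ 1 := by
  refine ⟨min (ε / 3) (6 * E)⁻¹, (lt_min (ENNReal.div_pos hε (by simp)) (ENNReal.inv_pos.2
    (ENNReal.mul_ne_top (by simp) E1))).ne',
    (mul_le_mul_right (min_le_left _ _) _).trans ENNReal.mul_div_le, ?_⟩
  calc _ ≤ 2 * E * (3 * (6 * E)⁻¹) := by gcongr; exact min_le_right _ _
    _ = 6 * E * (6 * E)⁻¹ := by ring
    _ ≤ 1 := ENNReal.mul_inv_le_one _

theorem flOk (hd : 3 ≤ d) (hμ : Elliptic μ) (hN : Nrm ℓ e) (hX : Reg μ ℓ) (hY : Reg μ (-ℓ)) :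
    ∃ (J : ℕ) (C : ℝ≥0∞), C ≠ ⊤ ∧ FlOk μ ℓ J C := by
  obtain ⟨mn, mx, m0, m1, m2, m3, m4⟩ : ∃ mn mx : ℝ, 0 < mn ∧ mn ≤ mh μ ℓ ∧ mh μ ℓ ≤ mx ∧
      mn ≤ mh μ (-ℓ) ∧ mh μ (-ℓ) ≤ mx := ⟨min _ _, max _ _, lt_min (mh_pos hμ hN hX)
        (mh_pos hμ hN.opp hY), min_le_left _ _, le_max_left _ _, min_le_right _ _, le_max_right _ _⟩
  have m5 : 0 < mx := by linarith
  obtain ⟨c, c0, hc⟩ : ∃ c : ℝ, 0 < c ∧ (bw μ (-ℓ) [opp e]).toReal = 4 * c := by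
    refine ⟨(bw μ (-ℓ) [opp e]).toReal / 4, div_pos (ENNReal.toReal_pos (bw_ne_zero hμ
      (blk_single (by rw [hN.opp.2]; exact one_pos))) (ne_top_of_le_ne_top ENNReal.one_ne_top ?_))
      (by norm_num), by ring⟩
    rw [← hY.sum]; exact ENNReal.le_tsum _
  obtain ⟨I, hI⟩ := exists_nat_ge (8 * mx / mn)
  obtain ⟨J, hJ⟩ := exists_nat_ge (4 * (I + 5) * mx / mn)
  rw [div_le_iff₀ m0] at hI hJ
  have I1 : 1 ≤ I := Nat.pos_of_ne_zero fun h => by simp [h] at hI; linarith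
  have J1 : 1 ≤ J := Nat.pos_of_ne_zero fun h => by
    have : 0 < 4 * ((I : ℝ) + 5) * mx := by positivity
    simp [h] at hJ; linarith
  obtain ⟨E, hE⟩ : ∃ E : ℝ≥0∞, E = ((16 * (I + J + 2) : ℕ) : ℝ≥0∞) := ⟨_, rfl⟩
  have E1 : E ≠ ⊤ := hE ▸ ENNReal.natCast_ne_top _
  have E3 : 1 ≤ E := by rw [hE]; exact_mod_cast (by omega)
  have c1 : 4 / ENNReal.ofReal c ≠ ⊤ := ENNReal.div_ne_top (by simp) (by simpa using c0)
  refine ⟨J, 2 * E * (4 / ENNReal.ofReal c), ENNReal.mul_ne_top (ENNReal.mul_ne_top (by simp) E1) c1,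
    fun η ε Js hη hC hε hJs => ?_⟩
  obtain ⟨θ, θ0, θ1, θ2⟩ := exists_theta E1 (zero_lt_one.trans_le E3).ne' hε
  obtain ⟨A, hA⟩ := exists_nat_ge ((J + 2) * 16 * mx * Js / c)
  rw [div_le_iff₀ c0] at hA
  have ε2 : ε / 2 ≠ 0 := ENNReal.div_ne_zero.2 ⟨hε, by simp⟩
  have K1 : 2 * (128 * ((I + 1 : ℕ) * (J + 1 : ℕ)) * A / (al μ ℓ * al μ (-ℓ)) ^ 2 / θ ^ 2) ≠ ⊤ :=
    ENNReal.mul_ne_top (by simp) (ENNReal.div_ne_top (ENNReal.div_ne_top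
      (by finiteness) (pow_ne_zero _ (mul_ne_zero hX.al_ne hY.al_ne))) (pow_ne_zero _ θ0))
  obtain ⟨u, -, hu⟩ := hX.be_le _ (ENNReal.div_ne_zero.2 ⟨ε2, K1⟩)
  obtain ⟨n1, hn1⟩ := cap_exists hX.sum (wl_ht hN hX) m0 m1 m2 θ0
  obtain ⟨n2, hn2⟩ := cap_exists hY.sum (wl_ht hN.opp hY) m0 m3 m4 θ0
  obtain ⟨δ, d0, d1, d2⟩ := exists_ofReal_le (θ := 16⁻¹) (by simp) c0
  obtain ⟨n3, hn3⟩ := wl_isB hY.sum [opp e] δ d0
  obtain ⟨n4, hn4⟩ := exists_nat_ge (1 / c)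
  obtain ⟨n5, hn5⟩ := bot_small hd hμ hN hX hY u J (ε := 16⁻¹) (by simp)
  obtain ⟨n6, hn6⟩ := exists_nat_ge ((|u| + 1) / (2 * mx))
  rw [div_le_iff₀ c0] at hn4
  rw [div_le_iff₀ (by linarith)] at hn6
  refine ⟨n1 + n2 + n5 + n6 + (n3 + n4 + 1) * (2 * Js), fun n hn D N N1 hDN hxi => ?_⟩
  obtain ⟨T1, hT1⟩ := hn1 n (by omega)
  obtain ⟨T2, hT2⟩ := hn2 n (by omega)
  have r1 : n3 + n4 + 1 ≤ n / (2 * Js) := (Nat.le_div_iff_mul_le (by omega)).2 (by omega)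
  have r2 : n / (2 * Js) ≤ n := Nat.div_le_self _ _
  have r3 : n < 2 * Js * (n / (2 * Js) + 1) := Nat.lt_mul_div_succ n (by omega)
  generalize n / (2 * Js) = r at hxi r1 r2 r3
  have r4 : 1 ≤ c * r := hn4.trans (by rw [mul_comm c]; gcongr; omega)
  have r5 : (0 : ℝ) < r := by exact_mod_cast (by omega)
  have nI : n ≤ I * n := Nat.le_mul_of_pos_left n I1
  obtain ⟨k1, k2, k3, k4⟩ := chain_num (u := u) (n := n) m0 m5 c0 hI hJ hA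
    (r3.le.trans (by rw [show 4 * Js * r = 2 * Js * (r + r) by ring]; gcongr; omega)) r4
    (hn6.trans (by rw [mul_comm _ (n : ℝ)]; gcongr; omega))
  obtain ⟨CX, CY, q1, q2, q3⟩ := fixed_n (τ := ⟨⌈2 * mx * n⌉₊, ⌈(J + 1) * (2 * mx * n)⌉₊,
    D.image fun z => z + vec (opp e), ⌊c * r⌋₊⟩) hμ hN hX hY
    (le_trans (Ex_mono' fun l => ind_mono fun h => by
      have := mul_le_mul_of_nonneg_right d1 r5.le
      rw [hc, lt_abs]; right; linarith) ((hn3 r (by omega)).trans d2))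
    (hn5 _ (by omega) _ (Nat.mul_le_mul_left _ nI)) k1 k2 (Nat.le_ceil _) rfl
    (Nat.floor_le (by linarith)) r2 J1 (Nat.le_ceil _) k3 k4 hDN θ0 (hT1 _ (Nat.le_add_right _ T2))
    (hT2 _ (Nat.le_add_left _ _)) (good_le hY.sum c0 (by omega) r2 hxi) (by
      rw [← hE]
      refine (ENNReal.mul_le_mul_iff_right (a := 2) (by simp) (by simp)).1 ?_
      rw [← mul_assoc, mul_add, ← mul_assoc, mul_one]
      exact (add_le_add hC θ2).trans one_add_one_eq_two.le) ε2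
  refine ⟨CX, CY, q1.trans θ1, q2.trans (add_le_add (mul_le_mul_left
    (le_mul_of_one_le_left' (one_le_mul one_le_two E3)) _) θ1), q3.trans ?_⟩
  have N1' : (1 : ℝ≥0∞) ≤ N := by exact_mod_cast N1
  conv_rhs => rw [← ENNReal.add_halves ε, add_mul]
  exact add_le_add (le_mul_of_one_le_right' N1')
    (mul_le_mul_left ((mul_le_mul_right hu _).trans ENNReal.mul_div_le) _)

end Vale.Agent.P147F
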