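import Vale.Agent.P147F.Geo

/-! Existence of the annealed law. -/

namespace Vale.Agent.P147F

open MeasureTheory Vale.Agent.P147
open scoped ENNReal Classical

variable {d : ℕ} {μ : Measure (St d → ℝ)} [IsProbabilityMeasure μ] {ℓ : Fin d → ℝ} {e : St d}

namespace ExistAux

lemma seg_succ (s : ℕ → St d) (n : ℕ) : redSeg s 0 (n + 1) = redSeg s 0 n ++ [s n] := by
  rw [red_seg_add, zero_add]; rfl

lemma seg_congr {s t : ℕ → St d} {n : ℕ} (h : ∀ i < n, s i = t i) :
    redSeg s 0 n = redSeg t 0 n := by
  induction n with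
  | zero => rfl
  | succ n ih => rw [seg_succ, seg_succ, ih fun i hi => h i (by omega), h n (by omega)]

lemma sum_w (hμ : Elliptic μ) (l : Pa d) : ∑ f, w μ (l ++ [f]) = w μ l := by
  unfold w
  rw [← lintegral_finsetSum _ fun f _ => measurable_q 0 _]
  refine lintegral_congr_ae ((ae_ell hμ).mono fun ω h => ?_)
  simp only [q_append, q_cons, q_nil, mul_one, ← Finset.mul_sum]
  rw [← ENNReal.ofReal_sum_of_nonneg fun f _ => ((h _).1 f).le, (h _).2]
  simp

/-- the law of the next step -/
noncomputable def nu (μ : Measure (St d → ℝ)) (l : Pa d) : Measure (St d) :=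
  ∑ f, (w μ (l ++ [f]) / w μ l) • Measure.dirac f

omit [IsProbabilityMeasure μ] in
lemma nu_single (l : Pa d) (f : St d) : nu μ l {f} = w μ (l ++ [f]) / w μ l := by
  simp [nu, Measure.dirac_apply', Set.indicator_apply]

lemma w_ne_top (hμ : Elliptic μ) (l : Pa d) : w μ l ≠ ⊤ :=
  ne_top_of_le_ne_top ENNReal.one_ne_top (w_le_one hμ l)

lemma nu_prob (hμ : Elliptic μ) (l : Pa d) : IsProbabilityMeasure (nu μ l) := ⟨by
  simp only [nu, Measure.finsetSum_apply, Measure.smul_apply, measure_univ, smul_eq_mul, mul_one,
    div_eq_mul_inv, ← Finset.sum_mul]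
  rw [sum_w hμ, ENNReal.mul_inv_cancel (w_ne_zero hμ l) (w_ne_top hμ l)]⟩

/-- the history -/
def hist (ξ : Pa d → St d) : ℕ → Pa d
  | 0 => []
  | n + 1 => hist ξ n ++ [ξ (hist ξ n)]

def walk (ξ : Pa d → St d) (n : ℕ) : St d := ξ (hist ξ n)

lemma hist_eq (ξ : Pa d → St d) (n : ℕ) : hist ξ n = redSeg (walk ξ) 0 n := by
  induction n with
  | zero => rfl
  | succ n ih => rw [seg_succ, ← ih]; rfl

lemma walk_iff (ξ : Pa d → St d) (t : ℕ → St d) (n : ℕ) :
    (∀ i < n, walk ξ i = t i) ↔ ∀ i < n, ξ (redSeg t 0 i) = t i := by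
  constructor
  · intro h i hi
    rw [← seg_congr (s := walk ξ) fun j hj => h j (hj.trans hi), ← hist_eq]
    exact h i hi
  · intro h i
    induction i using Nat.strong_induction_on with
    | _ i ih =>
      intro hi
      rw [walk, hist_eq, seg_congr fun j hj => ih j hj (hj.trans hi)]
      exact h i hi

lemma measurable_walk : Measurable (walk (d := d)) := by
  letI : MeasurableSpace (Pa d) := ⊤
  have h1 : Measurable fun p : (Pa d → St d) × Pa d => p.1 p.2 :=
    measurable_from_prod_countable_left fun l => measurable_pi_apply l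
  have h2 : Measurable fun p : Pa d × St d => p.1 ++ [p.2] := measurable_of_countable _
  have h3 : ∀ n, Measurable fun ξ : Pa d → St d => hist ξ n := fun n => by
    induction n with
    | zero => exact measurable_const
    | succ n ih => exact h2.comp (ih.prodMk (h1.comp (measurable_id.prodMk ih)))
  exact measurable_pi_lambda _ fun n => h1.comp (measurable_id.prodMk (h3 n))

end ExistAux

open ExistAux in
theorem exists_annealed (hμ : Elliptic μ) : ∃ P, IsAnnealed μ P := by
  have := nu_prob hμ
  refine ⟨(Measure.infinitePi (nu μ)).map walk,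
    Measure.isProbabilityMeasure_map measurable_walk.aemeasurable, fun n t => ?_⟩
  have h1 : MeasurableSet {s : ℕ → St d | ∀ i < n, s i = t i} := by
    simp only [Set.setOf_forall]
    exact MeasurableSet.iInter fun i => MeasurableSet.iInter fun _ =>
      measurableSet_eq_fun (measurable_pi_apply i) measurable_const
  have h2 : walk ⁻¹' {s : ℕ → St d | ∀ i < n, s i = t i} =
      Set.pi ((Finset.range n).image (redSeg t 0) : Finset (Pa d)) fun l => {t l.length} := by
    ext ξ
    simp [walk_iff, red_length]
  have h3 : ∏ i ∈ Finset.range n, nu μ (redSeg t 0 i) {t (redSeg t 0 i).length} =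
      w μ (redSeg t 0 n) := by
    clear h1 h2
    induction n with
    | zero => simp [redSeg]
    | succ n ih =>
      rw [Finset.prod_range_succ, ih, nu_single, red_length, ← seg_succ,
        ENNReal.mul_div_cancel (w_ne_zero hμ _) (w_ne_top hμ _)]
  rw [Measure.map_apply measurable_walk h1, h2,
    Measure.infinitePi_pi _ fun l _ => measurableSet_singleton _, Finset.prod_image
      fun i _ j _ h => by simpa [red_length] using congrArg List.length h, h3, w, env]
  refine lintegral_congr fun ω => ?_
  have := red_q ω t 0 n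
  rw [red_pos_zero] at this
  simpa using this

end Vale.Agent.P147F
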