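import Vale.Agent.P147F.Geo

/-! From the flux bounds to the hazard of a pair of windows. -/

namespace Vale.Agent.P147F

open MeasureTheory Vale.Agent.P147
open scoped ENNReal Classical

variable {d : ℕ} {μ : Measure (St d → ℝ)} [IsProbabilityMeasure μ] {ℓ : Fin d → ℝ} {e : St d}

/-- law of the displacement after a uniform number in `[M, M + r)` of blocks -/
noncomputable def hazNu (X : Leg d) (M r : ℕ) (z : V d) : ℝ≥0∞ :=
  xi X.π X.a M r fun y => ind (y = z)

lemma haz_xi (X : Leg d) (M r : ℕ) (F : V d → ℝ≥0∞) :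
    xi X.π X.a M r F = ∑' z, hazNu X M r z * F z := by
  have h : ∀ y, F y = ∑' z, ind (y = z) * F z := fun y => by
    rw [tsum_eq_single y fun z hz => by rw [ind_neg (Ne.symm hz), zero_mul], ind_pos rfl, one_mul]
  unfold hazNu xi
  simp only [mul_assoc, ENNReal.tsum_mul_left, Finset.sum_mul]
  rw [Summable.tsum_finsetSum fun _ _ => ENNReal.summable]
  congr 1
  refine Finset.sum_congr rfl fun i _ => ?_
  simp only [← Ex_mul_right]
  rw [← Ex_tsum]
  exact congrArg _ (funext fun l => h _)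

lemma haz_avg {r : ℕ} (hr : 1 ≤ r) (c : ℝ≥0∞) :
    (r : ℝ≥0∞)⁻¹ * ∑ _i ∈ Finset.range r, c = c := by
  rw [Finset.sum_const, Finset.card_range, nsmul_eq_mul, ← mul_assoc,
    ENNReal.inv_mul_cancel (by simp; omega) (ENNReal.natCast_ne_top r), one_mul]

lemma haz_nu_sum {X : Leg d} (hX : ∑' b, X.π b = 1) (M : ℕ) {r : ℕ} (hr : 1 ≤ r) :
    ∑' z, hazNu X M r z = 1 := by
  have := haz_xi X M r fun _ => 1
  simp only [mul_one] at this
  rw [← this, xi]
  simp only [Ex_const hX]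
  exact haz_avg hr 1

/-- the scale `N` of a probability weight at level `η` -/
lemma haz_scale {ν : V d → ℝ≥0∞} (hν : ∑' z, ν z = 1) {η : ℝ≥0∞} (h0 : η ≠ 0) (h1 : η < 1) :
    ∃ (N : ℕ) (D : Finset (V d)), 1 ≤ N ∧ D.card ≤ N ∧ ∑' z, ν z * ind (z ∉ D) ≤ η ∧
      η ≤ ∑' z, ν z * ind (N * ν z ≤ 2) := by
  have hle : ∀ z, ν z ≤ 1 := fun z => hν ▸ ENNReal.le_tsum z
  have hex : ∃ N : ℕ, ∑' z, ν z * ind (N * ν z ≤ 1) ≤ η := by
    have hg : ∀ z, ∃ g : ℕ, ν z ≠ 0 → 1 < g * ν z := fun z => by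
      by_cases hz : ν z = 0
      · exact ⟨0, fun h => absurd hz h⟩
      · obtain ⟨g, hg⟩ := ENNReal.exists_nat_mul_gt hz ENNReal.one_ne_top
        exact ⟨g, fun _ => hg⟩
    choose g hg using hg
    obtain ⟨ρ, hρ⟩ := tsum_tail (f := ν) (by rw [hν]; simp) g h0
    refine ⟨ρ, le_trans (ENNReal.tsum_le_tsum fun z => ?_) hρ⟩
    by_cases hz : ν z = 0
    · simp [hz]
    refine mul_le_mul_right (ind_mono fun h => ?_) _
    by_contra hlt
    have : (g z : ℝ≥0∞) ≤ ρ := by exact_mod_cast not_lt.1 hlt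
    exact absurd ((hg z hz).trans_le (mul_le_mul_left this _)) (not_lt.2 h)
  have hN := Nat.find_spec hex
  have hmin := fun k => Nat.find_min hex (m := k)
  set N := Nat.find hex
  have hN1 : 1 ≤ N := by
    by_contra hlt
    have h00 : N = 0 := by omega
    rw [h00] at hN
    simp only [Nat.cast_zero, zero_mul, zero_le, ind_true, mul_one, hν] at hN
    exact absurd h1 (not_lt.2 hN)
  have hcard : ∀ D : Finset (V d), (∀ z ∈ D, 1 < N * ν z) → D.card ≤ N := by
    intro D hD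
    have : (D.card : ℝ≥0∞) ≤ N := by
      calc (D.card : ℝ≥0∞) = ∑ _z ∈ D, (1 : ℝ≥0∞) := by simp
        _ ≤ ∑ z ∈ D, N * ν z := Finset.sum_le_sum fun z hz => (hD z hz).le
        _ ≤ ∑' z, N * ν z := ENNReal.sum_le_tsum D
        _ = N := by rw [ENNReal.tsum_mul_left, hν, mul_one]
    exact_mod_cast this
  have hfin : {z | 1 < N * ν z}.Finite := by
    by_contra hinf
    obtain ⟨D, hD, hc⟩ := Set.Infinite.exists_subset_card_eq hinf (N + 1)
    have := hcard D fun z hz => hD hz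
    omega
  refine ⟨N, hfin.toFinset, hN1, hcard _ fun z hz => hfin.mem_toFinset.1 hz, ?_, ?_⟩
  · refine le_trans (ENNReal.tsum_le_tsum fun z => mul_le_mul_right (ind_mono fun h => ?_) _) hN
    exact not_lt.1 fun h' => h (hfin.mem_toFinset.2 h')
  · refine (not_le.1 (hmin (N - 1) (by omega))).le.trans
      (ENNReal.tsum_le_tsum fun z => mul_le_mul_right (ind_mono fun h => ?_) _)
    have : (N : ℝ≥0∞) = ((N - 1 : ℕ) : ℝ≥0∞) + 1 := by
      rw [← Nat.cast_succ]; congr 1; omega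
    rw [this, add_mul, one_mul, ← one_add_one_eq_two]
    exact add_le_add h (hle z)

lemma haz_step {ν : V d → ℝ≥0∞} (hν : ∑' z, ν z = 1) {η ε b : ℝ≥0∞} {N : ℕ} (hN : 1 ≤ N)
    (hη : η ≤ ∑' z, ν z * ind (N * ν z ≤ 2)) {G : V d → ℝ≥0∞} (hb : ∀ z, G z ≤ b)
    (hS : ∑' z, G z ≤ ε * N) : ∑' z, ν z * G z ≤ (1 - η) * b + 2 * ε := by
  have h1 : ∑' z, ν z * ind (¬(N * ν z ≤ 2)) ≤ 1 - η := by
    have h : ∑' z, ν z * ind (N * ν z ≤ 2) + ∑' z, ν z * ind (¬(N * ν z ≤ 2)) = 1 := by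
      rw [← ENNReal.tsum_add]
      simp only [← mul_add, ind_add_not, mul_one, hν]
    have hη1 : η ≤ 1 := hη.trans (h ▸ le_self_add)
    refine ENNReal.le_sub_of_add_le_left (ne_top_of_le_ne_top ENNReal.one_ne_top hη1) ?_
    exact (add_le_add_left hη _).trans h.le
  have h2 : ∑' z, ind (N * ν z ≤ 2) * (ν z * G z) ≤ 2 * ε := by
    have hN0 : (N : ℝ≥0∞) ≠ 0 := by simp; omega
    rw [← ENNReal.mul_le_mul_iff_right hN0 (ENNReal.natCast_ne_top N), ← ENNReal.tsum_mul_left]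
    calc _ ≤ ∑' z, 2 * G z := by
          refine ENNReal.tsum_le_tsum fun z => ?_
          rw [mul_left_comm, ← mul_assoc (N : ℝ≥0∞)]
          exact ind_mul_le fun h => mul_le_mul_left h _
      _ ≤ 2 * (ε * N) := by rw [ENNReal.tsum_mul_left]; exact mul_le_mul_right hS _
      _ = _ := by ring
  calc _ ≤ ∑' z, (ν z * ind (¬(N * ν z ≤ 2)) * b + ind (N * ν z ≤ 2) * (ν z * G z)) := by
        refine ENNReal.tsum_le_tsum fun z => ?_
        by_cases h : N * ν z ≤ 2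
        · rw [ind_pos h, one_mul]; exact le_add_self
        · rw [ind_pos h, mul_one]; exact (mul_le_mul_right (hb z) _).trans le_self_add
    _ ≤ _ := by
        rw [ENNReal.tsum_add, ENNReal.tsum_mul_right]
        exact add_le_add (mul_le_mul_left h1 _) h2

lemma haz_smooth {ν : V d → ℝ≥0∞} (hν : ∑' z, ν z = 1) {η ε : ℝ≥0∞} {N : ℕ} (hN : 1 ≤ N)
    (hη : η ≤ ∑' z, ν z * ind (N * ν z ≤ 2)) {F : V d → ℝ≥0∞} (hb : ∀ z, F z ≤ 1)
    (hS : ∑' z, F z ≤ ε * N) (k : ℕ) :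
    ∀ x, Ex ν k (fun zs => F (x + zs.sum)) ≤ (1 - η) ^ k + 2 * k * ε := by
  induction k with
  | zero => intro x; simpa using hb x
  | succ k ih =>
    intro x
    rw [Ex_succ]
    simp only [List.sum_cons, ← add_assoc]
    refine (haz_step hν hN hη (G := fun z => Ex ν k fun zs => F (x + z + zs.sum))
      (fun z => ih (x + z)) (ε := ε) ?_).trans ?_
    · rw [← Ex_tsum]
      refine Ex_le hν fun zs _ _ => le_trans (le_of_eq ?_) hS
      rw [← (Equiv.addLeft (x + zs.sum)).tsum_eq F]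
      exact tsum_congr fun z => by simp only [Equiv.coe_addLeft]; congr 1; abel
    · rw [mul_add, ← pow_succ', add_assoc]
      refine add_le_add_right ?_ _
      calc (1 - η) * (2 * k * ε) + 2 * ε ≤ 2 * k * ε + 2 * ε :=
            add_le_add_left (mul_le_of_le_one_left' tsub_le_self) _
        _ = _ := by push_cast; ring

lemma haz_cover {X : Leg d} (hX : ∑' b, X.π b = 1) {M r n w : ℕ} (hr : 1 ≤ r)
    {Φ : Finset (V d) → ℝ≥0∞} (hΦ : Monotone Φ) (k : ℕ) : ∀ (g : ℕ) (x : V d),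
      k * (M + r) ≤ g → g + w ≤ k * M + n →
      Ex X.π g (fun p => Ex X.π w fun s => Φ (X.sites (x + tot X.a p) s)) ≤
        Ex (hazNu X M r) k fun zs => Ex X.π n fun s => Φ (X.sites (x + zs.sum) s) := by
  induction k with
  | zero =>
    intro g x _ h
    obtain ⟨j, rfl⟩ : ∃ j, n = g + (w + j) := ⟨n - (g + w), by omega⟩
    rw [Ex_zero, Ex_append]
    refine Ex_mono' fun p => ?_
    rw [Ex_append]
    refine Ex_mono' fun s => le_Ex hX fun u _ _ => hΦ ?_
    rw [List.sum_nil, add_zero, Leg.sites_append, Leg.sites_append]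
    exact Finset.subset_union_left.trans Finset.subset_union_right
  | succ k ih =>
    intro g x h1 h2
    rw [Ex_succ]
    simp only [List.sum_cons, ← add_assoc]
    rw [← haz_xi X M r fun z => Ex (hazNu X M r) k fun zs =>
      Ex X.π n fun s => Φ (X.sites (x + z + zs.sum) s), xi]
    refine (haz_avg hr _).symm.le.trans (mul_le_mul_right (Finset.sum_le_sum fun i hi => ?_) _)
    have hi' := Finset.mem_range.1 hi
    rw [Nat.succ_mul] at h1 h2
    obtain ⟨g', rfl⟩ : ∃ g', g = M + i + g' := ⟨g - (M + i), by omega⟩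
    rw [Ex_append]
    refine Ex_mono' fun p => ?_
    simp only [tot_append, ← add_assoc]
    exact ih g' _ (by omega) (by omega)

lemma haz_shift (X Y : Leg d) (u a b : V d) (s t : List (Pa d)) :
    Disjoint (X.sites (u + a) s) (Y.sites (u + b) t) ↔ Disjoint (X.sites a s) (Y.sites b t) := by
  simp only [Finset.disjoint_left]
  constructor
  · intro h z h1 h2
    exact h ((X.mem_sites_shift u a z s).2 h1) ((Y.mem_sites_shift u b z t).2 h2)
  · intro h z h1 h2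
    rw [show z = u + (z - u) by abel] at h1 h2
    exact h ((X.mem_sites_shift u a _ s).1 h1) ((Y.mem_sites_shift u b _ t).1 h2)

lemma haz_flux (X Y : Leg d) (n : ℕ) (CX CY : List (Pa d) → Prop) (u : V d) :
    ∑' v : V d, E2 X.π Y.π n n (fun s t =>
      ind (CX s ∧ CY t ∧ ¬Disjoint (X.sites u s) (Y.sites v t))) = LFl X Y n CX CY := by
  rw [LFl, ← (Equiv.addLeft u).tsum_eq]
  refine tsum_congr fun v => ?_
  have := haz_shift X Y u 0 v
  simp only [add_zero] at this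
  simp only [Equiv.coe_addLeft, this]

lemma haz_cover2 {X Y : Leg d} (hX : ∑' b, X.π b = 1) (hY : ∑' b, Y.π b = 1)
    {M1 M2 r n k wX wY : ℕ} (hr : 1 ≤ r) (h1 : k * r + wX ≤ n) (h2 : k * r + wY ≤ n) (x y : V d) :
    E2 X.π Y.π (k * (M2 + r)) (k * (M1 + r)) (fun p p' => E2 X.π Y.π wX wY fun s t =>
        ind (¬Disjoint (X.sites (x + tot X.a p) s) (Y.sites (y + tot Y.a p') t))) ≤
      E2 (hazNu X M2 r) (hazNu Y M1 r) k k fun zs zs' => E2 X.π Y.π n n fun s t =>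
        ind (¬Disjoint (X.sites (x + zs.sum) s) (Y.sites (y + zs'.sum) t)) := by
  unfold E2
  calc _ ≤ Ex X.π (k * (M2 + r)) fun p => Ex X.π wX fun s => Ex (hazNu Y M1 r) k fun zs' =>
          Ex Y.π n fun t =>
            ind (¬Disjoint (X.sites (x + tot X.a p) s) (Y.sites (y + zs'.sum) t)) := by
        refine Ex_mono' fun p => ?_
        rw [Ex_comm]
        refine Ex_mono' fun s => ?_
        exact haz_cover hY hr (Φ := fun B => ind (¬Disjoint (X.sites (x + tot X.a p) s) B))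
          (fun B B' h => ind_mono fun hB hB' => hB (hB'.mono_right h)) k _ y le_rfl
          (by rw [Nat.mul_add]; omega)
    _ ≤ Ex (hazNu X M2 r) k fun zs => Ex X.π n fun s => Ex (hazNu Y M1 r) k fun zs' =>
          Ex Y.π n fun t => ind (¬Disjoint (X.sites (x + zs.sum) s) (Y.sites (y + zs'.sum) t)) :=
        haz_cover hX hr (Φ := fun A => Ex (hazNu Y M1 r) k fun zs' =>
          Ex Y.π n fun t => ind (¬Disjoint A (Y.sites (y + zs'.sum) t)))
          (fun A A' h => Ex_mono' fun _ => Ex_mono' fun _ =>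
            ind_mono fun hA hA' => hA (hA'.mono_left h)) k _ x le_rfl
          (by rw [Nat.mul_add]; omega)
    _ = _ := congrArg _ (funext fun zs => Ex_comm _ _ _)

lemma haz_five (m a b a' b' : Prop) : ind m ≤ ind (a ∧ b ∧ m) + ind (b' ∧ a' ∧ m) + ind (¬a) +
    ind (¬b') + ind (¬a') * ind (¬b) := by
  by_cases hm : m <;> by_cases ha : a <;> by_cases hb : b <;> by_cases ha' : a' <;>
    by_cases hb' : b' <;> simp [hm, ha, hb, ha', hb']

theorem hazOk {X Y : Leg d} (hX : ∑' b, X.π b = 1) (hY : ∑' b, Y.π b = 1) {J1 J2 : ℕ}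
    {C1 C2 : ℝ≥0∞} (h1 : FluxOk X Y J1 C1) (h2 : FluxOk Y X J2 C2) :
    HazOk X Y (max J1 J2 + 1) (max C1 C2) := by
  intro η ε Js hη0 hη1 hC hε hJs
  obtain ⟨δ, hδ0, hδ1, hδ⟩ : ∃ δ : ℝ≥0∞, δ ≠ 0 ∧ δ ≤ 1 ∧ (4 * Js + 5) * δ ≤ ε := by
    refine ⟨min 1 (ε / (4 * Js + 5)), ?_, min_le_left _ _,
      (mul_le_mul_right (min_le_right _ _) _).trans ENNReal.mul_div_le⟩
    have : ε / (4 * Js + 5) ≠ 0 := ENNReal.div_ne_zero.2 ⟨hε, by finiteness⟩
    simp [min_eq_iff, this]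
  have hC1 : C1 * η ≤ max C1 C2 * η := mul_le_mul_left (le_max_left _ _) _
  have hC2 : C2 * η ≤ max C1 C2 * η := mul_le_mul_left (le_max_right _ _) _
  obtain ⟨n1, hn1⟩ := h1 η δ Js hη0 (hC1.trans hC) hδ0 hJs
  obtain ⟨n2, hn2⟩ := h2 η δ Js hη0 (hC2.trans hC) hδ0 hJs
  refine ⟨max (max n1 n2) (2 * Js), fun n hn x y gX gY wX wY hgX hgY hwX hwY => ?_⟩
  have hr : 1 ≤ n / (2 * Js) := (Nat.one_le_div_iff (by omega)).2 (le_of_max_le_right hn)
  have hr2 : Js * (n / (2 * Js)) * 2 ≤ n := by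
    have := Nat.mul_div_le n (2 * Js)
    calc _ = 2 * Js * (n / (2 * Js)) := by ring
      _ ≤ n := this
  have hr3 : n / (2 * Js) ≤ n := Nat.div_le_self _ _
  set r := n / (2 * Js) with hrdef
  have hνX := haz_nu_sum hX (J2 * n) hr
  have hνY := haz_nu_sum hY (J1 * n) hr
  obtain ⟨NY, DY, hNY, hDY, hY1, hY2⟩ := haz_scale hνY hη0 hη1
  obtain ⟨NX, DX, hNX, hDX, hX1, hX2⟩ := haz_scale hνX hη0 hη1
  obtain ⟨CX, CY, hCX, hCY, hF⟩ := hn1 n (le_of_max_le_left (le_of_max_le_left hn)) DY NY hNY hDY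
    (by rw [haz_xi]; exact hY1)
  obtain ⟨CY', CX', hCY', hCX', hF'⟩ := hn2 n (le_of_max_le_right (le_of_max_le_left hn)) DX NX
    hNX hDX (by rw [haz_xi]; exact hX1)
  have hg : ∀ J, J ≤ max J1 J2 → Js * (J * n + r) ≤ Js * (max J1 J2 + 1) * n := fun J hJ => by
    rw [Nat.mul_assoc, Nat.succ_mul]
    exact Nat.mul_le_mul_left _ (Nat.add_le_add (Nat.mul_le_mul_right _ hJ) hr3)
  obtain ⟨g0, rfl⟩ : ∃ g0, gX = g0 + Js * (J2 * n + r) :=
    ⟨gX - Js * (J2 * n + r), by have := hg J2 (le_max_right _ _); omega⟩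
  obtain ⟨g1, rfl⟩ : ∃ g1, gY = g1 + Js * (J1 * n + r) :=
    ⟨gY - Js * (J1 * n + r), by have := hg J1 (le_max_left _ _); omega⟩
  rw [E2_append]
  refine E2_le hX hY fun p0 p1 _ _ _ _ => ?_
  simp only [tot_append, ← add_assoc]
  refine (haz_cover2 hX hY hr (n := n) (by omega) (by omega) _ _).trans ?_
  generalize x + tot X.a p0 = x'
  generalize y + tot Y.a p1 = y'
  let G1 : V d → V d → ℝ≥0∞ := fun u v => E2 X.π Y.π n n fun s t =>
    ind (CX s ∧ CY t ∧ ¬Disjoint (X.sites u s) (Y.sites v t))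
  let G2 : V d → V d → ℝ≥0∞ := fun v u => E2 Y.π X.π n n fun t s =>
    ind (CY' t ∧ CX' s ∧ ¬Disjoint (Y.sites v t) (X.sites u s))
  have hsplit : ∀ u v, E2 X.π Y.π n n (fun s t => ind (¬Disjoint (X.sites u s) (Y.sites v t))) ≤
      G1 u v + G2 v u + (δ + δ + (max C1 C2 * η + δ) * (max C1 C2 * η + δ)) := by
    intro u v
    refine (E2_mono' fun s t => haz_five _ (CX s) (CY t) (CX' s) (CY' t)).trans ?_
    rw [E2_add, E2_add, E2_add, E2_add, E2_left hY, E2_right hX, E2_prod]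
    simp only [← add_assoc]
    refine add_le_add (add_le_add (add_le_add (add_le_add le_rfl (le_of_eq ?_)) hCX) hCY')
      (mul_le_mul' (hCX'.trans (add_le_add_left hC2 _)) (hCY.trans (add_le_add_left hC1 _)))
    rw [E2_swap]
    simp only [G2, disjoint_comm]
  have hG1 : ∀ u, Ex (hazNu Y (J1 * n) r) Js (fun zs => G1 u (y' + zs.sum)) ≤
      (1 - η) ^ Js + 2 * Js * δ := fun u =>
    haz_smooth hνY hNY hY2 (F := G1 u) (fun _ => E2_le hX hY fun _ _ _ _ _ _ => ind_le_one _)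
      ((haz_flux X Y n CX CY u).le.trans hF) Js y'
  have hG2 : ∀ v, Ex (hazNu X (J2 * n) r) Js (fun zs => G2 v (x' + zs.sum)) ≤
      (1 - η) ^ Js + 2 * Js * δ := fun v =>
    haz_smooth hνX hNX hX2 (F := G2 v) (fun _ => E2_le hY hX fun _ _ _ _ _ _ => ind_le_one _)
      ((haz_flux Y X n CY' CX' v).le.trans hF') Js x'
  refine (E2_mono' fun zs zs' => hsplit _ _).trans ?_
  rw [E2_add, E2_add, E2_swap Js Js fun zs zs' => G2 (y' + zs'.sum) (x' + zs.sum)]
  have hsq : (max C1 C2 * η + δ) * (max C1 C2 * η + δ) ≤ (max C1 C2 * η) ^ 2 + 3 * δ := by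
    calc _ = (max C1 C2 * η) ^ 2 + ((max C1 C2 * η) * δ + (max C1 C2 * η) * δ + δ * δ) := by ring
      _ ≤ (max C1 C2 * η) ^ 2 + (δ + δ + δ) :=
          add_le_add_right (add_le_add (add_le_add (mul_le_of_le_one_left' hC)
            (mul_le_of_le_one_left' hC)) (mul_le_of_le_one_left' hδ1)) _
      _ = _ := by ring
  calc _ ≤ ((1 - η) ^ Js + 2 * Js * δ) + ((1 - η) ^ Js + 2 * Js * δ) +
        (δ + δ + ((max C1 C2 * η) ^ 2 + 3 * δ)) :=
        add_le_add (add_le_add (Ex_le hνX fun _ _ _ => hG1 _) (Ex_le hνY fun _ _ _ => hG2 _))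
          (E2_le hνX hνY fun _ _ _ _ _ _ => add_le_add_right hsq _)
    _ = 2 * (1 - η) ^ Js + (max C1 C2 * η) ^ 2 + (4 * Js + 5) * δ := by ring
    _ ≤ _ := add_le_add_right hδ _

end Vale.Agent.P147F
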