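import Vale.Agent.P147F.Geo

/-! The multiscale lower bound for non-intersection. -/

namespace Vale.Agent.P147F

open MeasureTheory Vale.Agent.P147
open scoped ENNReal Classical

section generic

variable {B C : Type*} {π : B → ℝ≥0∞} {σ : C → ℝ≥0∞}

lemma E2_take_window (hπ : ∑' b, π b = 1) (hσ : ∑' b, σ b = 1) {k m N k' m' N' : ℕ}
    (h : k + m ≤ N) (h' : k' + m' ≤ N') (F : List B → List B → List C → List C → ℝ≥0∞) :
    E2 π σ N N' (fun l l' => F (l.take k) ((l.drop k).take m) (l'.take k') ((l'.drop k').take m')) =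
      E2 π σ k k' fun p p' => E2 π σ m m' fun s s' => F p s p' s' := by
  unfold E2
  simp only [Ex_take_window hσ h']
  rw [Ex_take_window hπ h fun a b => Ex σ k' fun p' => Ex σ m' (F a b p')]
  exact congrArg _ (funext fun p => Ex_comm _ _ _)

/-- total length after `i` stages -/
def oM (a : ℕ) (L : ℕ → ℕ) : ℕ → ℕ
  | 0 => a
  | i + 1 => oM a L i + L i

/-- all stages so far are good -/
def oH (L L' : ℕ → ℕ) (G : ℕ → List B → List C → Prop) (p0 : List B) (q0 : List C) :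
    ℕ → List B → List C → Prop
  | 0, p, q => p = p0 ∧ q = q0
  | i + 1, p, q => oH L L' G p0 q0 i (p.take (oM p0.length L i)) (q.take (oM q0.length L' i)) ∧
      G (i + 1) p q

/-- expectation on the event that all stages so far are good -/
noncomputable def oR (π : B → ℝ≥0∞) (σ : C → ℝ≥0∞) (L L' : ℕ → ℕ)
    (G : ℕ → List B → List C → Prop) (p0 : List B) (q0 : List C) (i : ℕ)
    (F : List B → List C → ℝ≥0∞) : ℝ≥0∞ :=
  E2 π σ (oM p0.length L i) (oM q0.length L' i) fun p q => ind (oH L L' G p0 q0 i p q) * F p q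

variable {L L' : ℕ → ℕ} {G : ℕ → List B → List C → Prop} {p0 : List B} {q0 : List C}

lemma oR_succ (i : ℕ) (F : List B → List C → ℝ≥0∞) :
    oR π σ L L' G p0 q0 (i + 1) F = oR π σ L L' G p0 q0 i fun p q =>
      E2 π σ (L i) (L' i) fun s t => ind (G (i + 1) (p ++ s) (q ++ t)) * F (p ++ s) (q ++ t) := by
  unfold oR
  rw [oM, oM, E2_append]
  refine Ex_congr fun p hp _ => Ex_congr fun q hq _ => ?_
  beta_reduce
  rw [← E2_mul_left]
  simp only [oH, ← hp, ← hq, List.take_left, ind_and, mul_assoc]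

lemma oR_mono {i : ℕ} {F F' : List B → List C → ℝ≥0∞}
    (h : ∀ p q, Sup π p → Sup σ q → oH L L' G p0 q0 i p q → F p q ≤ F' p q) :
    oR π σ L L' G p0 q0 i F ≤ oR π σ L L' G p0 q0 i F' := by
  refine E2_mono fun p q _ hp _ hq => ?_
  by_cases hH : oH L L' G p0 q0 i p q
  · exact mul_le_mul_right (h p q hp hq hH) _
  · simp [ind_neg hH]

lemma oR_add (i : ℕ) (F F' : List B → List C → ℝ≥0∞) :
    oR π σ L L' G p0 q0 i (fun p q => F p q + F' p q) =
      oR π σ L L' G p0 q0 i F + oR π σ L L' G p0 q0 i F' := by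
  simp only [oR, mul_add, E2_add]

lemma oR_const (i : ℕ) (c : ℝ≥0∞) :
    oR π σ L L' G p0 q0 i (fun _ _ => c) = oR π σ L L' G p0 q0 i (fun _ _ => 1) * c := by
  simp only [oR, mul_one, E2_mul_right]

lemma oR_le (i : ℕ) (F : List B → List C → ℝ≥0∞) :
    oR π σ L L' G p0 q0 i F ≤ E2 π σ (oM p0.length L i) (oM q0.length L' i) F :=
  E2_mono' fun _ _ => mul_le_of_le_one_left' (ind_le_one _)

lemma E2_ind_add_not (hπ : ∑' b, π b = 1) (hσ : ∑' b, σ b = 1) (k m : ℕ)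
    (P : List B → List C → Prop) :
    E2 π σ k m (fun s t => ind (P s t)) + E2 π σ k m (fun s t => ind (¬P s t)) = 1 := by
  rw [← E2_add]
  simp only [ind_add_not, E2, Ex_const hπ, Ex_const hσ]

lemma outer_real {x y : ℕ → ℝ} (h0 : 0 ≤ x 0) (h1 : x 0 ≤ x 1 + x 0 * 4⁻¹)
    (h2 : ∀ i, x (i + 1) ≤ y i + x i * 8⁻¹) (h3 : ∀ i, y i ≤ x (i + 2)) (i : ℕ) :
    (3 / 4) ^ (i + 2) * x 0 ≤ y i := by
  have key : ∀ i, (3 / 4) ^ i * x 0 ≤ x i ∧ 3 / 4 * x i ≤ x (i + 1) := by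
    intro i
    induction i with
    | zero => exact ⟨by simp, by linarith⟩
    | succ i ih =>
      have a : 0 ≤ (3 / 4 : ℝ) ^ i * x 0 := by positivity
      refine ⟨?_, by linarith [h2 i, h3 i, ih.1, ih.2]⟩
      rw [pow_succ]
      linarith [ih.1, ih.2]
  have a : 0 ≤ (3 / 4 : ℝ) ^ i * x 0 := by positivity
  rw [pow_add]
  linarith [h2 i, (key i).1, (key i).2]

/-- the abstract multiscale recursion -/
lemma outer_rec (hπ : ∑' b, π b = 1) (hσ : ∑' b, σ b = 1) (T : List B → List C → Prop)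
    (hp : Sup π p0) (hq : Sup σ q0) (hG : G 0 p0 q0) (hL : ∀ i, 2 ^ i ≤ L i)
    (h1 : E2 π σ (L 0) (L' 0) (fun s t => ind (¬G 1 (p0 ++ s) (q0 ++ t))) ≤ 4⁻¹)
    (h2 : ∀ i p q, Sup π p → Sup σ q → G i p q → E2 π σ (L i) (L' i) (fun s t =>
      E2 π σ (L (i + 1)) (L' (i + 1)) fun u v => ind (G (i + 1) (p ++ s) (q ++ t) ∧
        ¬(G (i + 2) (p ++ s ++ u) (q ++ t ++ v) ∧ T (p ++ s) (q ++ t ++ v)))) ≤ 8⁻¹)
    {A : ℝ≥0∞} (hA : A ≠ ⊤) : ∃ M K : ℕ, A ≤ M * E2 π σ M K fun s t => ind (T s t) := by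
  have hHG : ∀ i p q, oH L L' G p0 q0 i p q → G i p q := by
    intro i p q h
    cases i with
    | zero => rwa [h.1, h.2]
    | succ i => exact h.2
  set x : ℕ → ℝ≥0∞ := fun i => oR π σ L L' G p0 q0 i fun _ _ => 1 with hx
  set y : ℕ → ℝ≥0∞ := fun i => oR π σ L L' G p0 q0 (i + 1) fun p q =>
    E2 π σ (L (i + 1)) (L' (i + 1)) fun u v => ind (G (i + 2) (p ++ u) (q ++ v) ∧ T p (q ++ v))
    with hy
  have x1 : ∀ i, x i ≠ ⊤ := fun i => ne_top_of_le_ne_top ENNReal.one_ne_top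
    ((oR_le _ _).trans (E2_le hπ hσ fun _ _ _ _ _ _ => le_rfl))
  have x0 : x 0 ≠ 0 := by
    have : wt π p0 * (wt σ q0 * 1) ≤ x 0 := by
      refine le_trans (mul_le_mul_right ?_ _) (Ex_single p0 _)
      refine le_trans (mul_le_mul_right (le_of_eq ?_) _) (Ex_single q0 _)
      simp [oH]
    refine ne_of_gt (lt_of_lt_of_le (pos_iff_ne_zero.2 ?_) this)
    simp [wt_ne_zero.2 hp, wt_ne_zero.2 hq]
  have a3 : ∀ i, y i ≤ x (i + 2) := by
    intro i
    simp only [hx, hy]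
    rw [oR_succ (i + 1)]
    exact oR_mono fun p q _ _ _ => E2_mono' fun u v => by
      rw [mul_one]
      exact ind_mono And.left
  have y1 : ∀ i, y i ≠ ⊤ := fun i => ne_top_of_le_ne_top (x1 _) (a3 i)
  have a1 : x 0 ≤ x 1 + x 0 * 4⁻¹ := by
    simp only [hx]
    rw [oR_succ 0, ← oR_const, ← oR_add]
    refine oR_mono fun p q _ _ h => ?_
    simp only [mul_one, h.1, h.2]
    exact (E2_ind_add_not hπ hσ (L 0) (L' 0) fun s t => G 1 (p0 ++ s) (q0 ++ t)).ge.trans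
      (add_le_add le_rfl h1)
  have a2 : ∀ i, x (i + 1) ≤ y i + x i * 8⁻¹ := by
    intro i
    simp only [hx, hy]
    rw [← oR_const]
    refine le_trans (le_of_eq ?_) (add_le_add le_rfl (?_ : oR π σ L L' G p0 q0 (i + 1)
      (fun p q => E2 π σ (L (i + 1)) (L' (i + 1)) fun u v =>
        ind (¬(G (i + 2) (p ++ u) (q ++ v) ∧ T p (q ++ v)))) ≤ _))
    · rw [← oR_add]
      simp only [E2_ind_add_not hπ hσ]
    · rw [oR_succ]
      refine oR_mono fun p q hp hq h => le_trans (le_of_eq ?_) (h2 i p q hp hq (hHG _ _ _ h))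
      simp only [ind_and (G (i + 1) _ _), E2_mul_left]
  have a4 : ∀ i, y i ≤ E2 π σ (oM p0.length L (i + 1)) (oM q0.length L' (i + 1) + L' (i + 1))
      fun s t => ind (T s t) := by
    intro i
    refine (oR_le _ _).trans (Ex_mono' fun p => ?_)
    rw [Ex_append]
    refine Ex_mono' fun q => ?_
    rw [← E2_right hπ (L (i + 1))]
    exact E2_mono' fun u v => ind_mono And.right
  have a5 := outer_real (x := fun i => (x i).toReal) (y := fun i => (y i).toReal)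
    ENNReal.toReal_nonneg
    (by
      have := ENNReal.toReal_mono (by simp [x1, ENNReal.mul_eq_top]) a1
      rw [ENNReal.toReal_add (x1 _) (by simp [x1, ENNReal.mul_eq_top])] at this
      simpa using this)
    (fun i => by
      have := ENNReal.toReal_mono (by simp [x1, y1, ENNReal.mul_eq_top]) (a2 i)
      rw [ENNReal.toReal_add (y1 _) (by simp [x1, ENNReal.mul_eq_top])] at this
      simpa using this)
    (fun i => ENNReal.toReal_mono (x1 _) (a3 i))
  have x2 : 0 < (x 0).toReal := ENNReal.toReal_pos x0 (x1 0)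
  obtain ⟨i, hi⟩ := pow_unbounded_of_one_lt (A.toReal / (9 / 16 * (x 0).toReal))
    (show (1 : ℝ) < 3 / 2 by norm_num)
  refine ⟨_, _, le_trans ?_ (mul_le_mul_right (a4 i) _)⟩
  rw [← ENNReal.toReal_le_toReal hA (by simp [y1, ENNReal.mul_eq_top]), ENNReal.toReal_mul,
    ENNReal.toReal_natCast]
  have b1 : (2 : ℝ) ^ i ≤ (oM p0.length L (i + 1) : ℕ) := by
    exact_mod_cast (hL i).trans (Nat.le_add_left _ _)
  rw [div_lt_iff₀ (by positivity)] at hi
  refine hi.le.trans (le_trans (le_of_eq ?_) (mul_le_mul b1 (a5 i) (by positivity) (by positivity)))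
  rw [pow_add, show (3 / 2 : ℝ) = 2 * (3 / 4) by norm_num, mul_pow]
  ring

/-- depths at the ends of the windows are typical -/
lemma outer_typ (hπ : ∑' b, π b = 1) {f : B → ℝ} {m : ℝ} (hm : 0 < m) (h : WL π f m) (W : ℕ) :
    ∃ t0 : ℕ, ∀ t : ℕ, t0 ≤ t → ∀ (i W' : ℕ), W' ≤ W →
      Ex π (W' * (2 ^ i * ⌈t / m⌉₊)) (fun l => ind (∃ j ∈ Finset.range (W' + 1), 2 ^ i * (t : ℝ) / 8 <
        |((l.take (j * (2 ^ i * ⌈t / m⌉₊))).map f).sum - j * (2 ^ i * t)|)) ≤ 64⁻¹ := by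
  set δ : ℝ := min (m / (32 * (W + 1))) (1 / (64 * (W + 1))) with hδ
  have δ0 : 0 < δ := lt_min (by positivity) (by positivity)
  have δ1 : δ * (32 * (W + 1)) ≤ m := (le_div_iff₀ (by positivity)).1 (min_le_left _ _)
  have δ2 : δ * (64 * (W + 1)) ≤ 1 := (le_div_iff₀ (by positivity)).1 (min_le_right _ _)
  obtain ⟨k0, hk⟩ := h δ δ0
  refine ⟨⌈(k0 + 16 * (W + 1)) * m⌉₊, fun t ht i W' hW => ?_⟩
  have t1 : (k0 + 16 * (W + 1)) * m ≤ t := (Nat.le_ceil _).trans (by exact_mod_cast ht)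
  set a := ⌈t / m⌉₊ with ha
  have a1 : (t : ℝ) ≤ a * m := (div_le_iff₀ hm).1 (Nat.le_ceil _)
  have a2 : a * m ≤ t + m := by
    have := (Nat.ceil_lt_add_one (show 0 ≤ (t : ℝ) / m by positivity)).le
    rw [← ha, div_add_one hm.ne', le_div_iff₀ hm] at this
    exact this
  have k1 : (0 : ℝ) ≤ k0 * m := by positivity
  have k2 : (0 : ℝ) ≤ W * m := by positivity
  have a3 : k0 ≤ a := by
    have : (k0 : ℝ) * m ≤ a * m := by nlinarith
    exact_mod_cast le_of_mul_le_mul_right this hm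
  have P0 : (0 : ℝ) < 2 ^ i := by positivity
  refine (Ex_mono' fun l => ind_exists_le_sum _ _).trans ?_
  rw [Ex_sum]
  refine (Finset.sum_le_card_nsmul _ _ (ENNReal.ofReal δ) fun j hj => ?_).trans ?_
  · have hj' : j ≤ W' := Nat.lt_succ_iff.1 (Finset.mem_range.1 hj)
    rw [Ex_take hπ (Nat.mul_le_mul_right _ hj') fun l => ind (2 ^ i * (t : ℝ) / 8 <
      |(l.map f).sum - j * (2 ^ i * t)|)]
    rcases Nat.eq_zero_or_pos j with rfl | j0
    · simp only [zero_mul, Ex_zero, List.map_nil, List.sum_nil, Nat.cast_zero, sub_zero, abs_zero]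
      rw [ind_neg (not_lt.2 (by positivity))]
      exact zero_le
    · refine le_trans (Ex_mono' fun l => ind_mono fun hl => ?_) (hk (j * (2 ^ i * a)) (a3.trans
        ((Nat.le_mul_of_pos_left _ (by positivity)).trans (Nat.le_mul_of_pos_left _ j0))))
      have j1 : (j : ℝ) ≤ W := by exact_mod_cast hj'.trans hW
      have j2 : (0 : ℝ) ≤ j := by positivity
      push_cast
      have b1 : δ * j * a ≤ t / 16 := by
        have : δ * j * 32 ≤ m := by nlinarith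
        have : δ * j * 32 * a ≤ m * a := by gcongr
        nlinarith
      have b2 : j * (a * m - t) ≤ t / 16 := by
        have : j * (a * m - t) ≤ W * m := by gcongr; linarith
        nlinarith
      have b3 : 0 ≤ j * (a * m - t) := mul_nonneg j2 (by linarith)
      have b4 := mul_le_mul_of_nonneg_left b1 P0.le
      have b5 := mul_le_mul_of_nonneg_left b2 P0.le
      have b6 := mul_nonneg P0.le b3
      rcases lt_abs.1 hl with hl | hl
      · exact lt_abs.2 (Or.inl (by nlinarith))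
      · exact lt_abs.2 (Or.inr (by nlinarith))
  · rw [Finset.card_range, nsmul_eq_mul, ← ENNReal.ofReal_natCast, ← ENNReal.ofReal_mul (by positivity),
      show (64⁻¹ : ℝ≥0∞) = ENNReal.ofReal 64⁻¹ by simp [ENNReal.ofReal_inv_of_pos]]
    refine ENNReal.ofReal_le_ofReal ?_
    have : (W' : ℝ) ≤ W := by exact_mod_cast hW
    push_cast
    nlinarith

lemma outer_par {C : ℝ≥0∞} (hC : C ≠ ⊤) (c : ℕ) : ∃ (η ε : ℝ≥0∞) (Js : ℕ), η ≠ 0 ∧ η < 1 ∧
    C * η ≤ 1 ∧ ε ≠ 0 ∧ 1 ≤ Js ∧ (c * Js : ℕ) * (2 * (1 - η) ^ Js + (C * η) ^ 2 + ε) ≤ 16⁻¹ := by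
  obtain ⟨r, hr, rfl⟩ : ∃ r : ℝ, 0 ≤ r ∧ C = ENNReal.ofReal r :=
    ⟨_, ENNReal.toReal_nonneg, (ENNReal.ofReal_toReal hC).symm⟩
  obtain ⟨u, hu⟩ := exists_nat_ge (64 * (c + 1) * (3 + r ^ 2))
  have c0 : (0 : ℝ) ≤ c := by positivity
  have u1 : 3 + r ^ 2 ≤ u := by nlinarith [sq_nonneg r]
  have u2 : (2 : ℝ) ≤ u := by nlinarith [sq_nonneg r]
  have u0 : (0 : ℝ) < u := by linarith
  have e1 : 1 / (u : ℝ) ^ 2 < 1 := (div_lt_one (by positivity)).2 (by nlinarith)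
  have e0 : 0 < 1 / (u : ℝ) ^ 2 := by positivity
  refine ⟨ENNReal.ofReal (1 / u ^ 2), ENNReal.ofReal (1 / u ^ 4), 4 * u ^ 3,
    (ENNReal.ofReal_pos.2 e0).ne', ENNReal.ofReal_lt_one.2 e1, ?_,
    (ENNReal.ofReal_pos.2 (by positivity)).ne', ?_, ?_⟩
  · rw [← ENNReal.ofReal_mul hr, ENNReal.ofReal_le_one, mul_one_div, div_le_one (by positivity)]
    nlinarith [sq_nonneg (r - 1)]
  · have : 0 < u := by exact_mod_cast u0
    exact Nat.succ_le_of_lt (by positivity)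
  · have e2 : (1 - 1 / (u : ℝ) ^ 2) ^ (4 * u ^ 3) ≤ 1 / u ^ 4 := by
      refine (pow_le_pow_left₀ (by linarith) (Real.one_sub_le_exp_neg _) _).trans ?_
      rw [← Real.exp_nat_mul, show ((4 * u ^ 3 : ℕ) : ℝ) * -(1 / u ^ 2) = -((4 : ℕ) * u) by
        push_cast; field_simp, Real.exp_neg, Real.exp_nat_mul, one_div]
      refine inv_anti₀ (by positivity) (pow_le_pow_left₀ u0.le ?_ _)
      linarith [Real.add_one_le_exp (u : ℝ)]
    rw [← ENNReal.ofReal_one, ← ENNReal.ofReal_sub _ e0.le, ← ENNReal.ofReal_pow (by linarith),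
      ← ENNReal.ofReal_mul hr, ← ENNReal.ofReal_pow (by positivity), ← ENNReal.ofReal_ofNat 2,
      ← ENNReal.ofReal_mul (by norm_num), ← ENNReal.ofReal_add
      (mul_nonneg (by norm_num) (pow_nonneg (by linarith) _)) (by positivity), ← ENNReal.ofReal_add
      (add_nonneg (mul_nonneg (by norm_num) (pow_nonneg (by linarith) _)) (by positivity))
      (by positivity), ← ENNReal.ofReal_natCast, ← ENNReal.ofReal_mul (by positivity),
      show (16⁻¹ : ℝ≥0∞) = ENNReal.ofReal 16⁻¹ by simp [ENNReal.ofReal_inv_of_pos]]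
    refine ENNReal.ofReal_le_ofReal ?_
    calc _ ≤ ((c * (4 * u ^ 3) : ℕ) : ℝ) * (2 * (1 / u ^ 4) + (r * (1 / u ^ 2)) ^ 2 + 1 / u ^ 4) := by
          gcongr
      _ = 4 * c * (3 + r ^ 2) / u := by push_cast; field_simp; ring
      _ ≤ _ := by
          rw [div_le_iff₀ u0]
          nlinarith [sq_nonneg r]

lemma outer_ivt {P : ℕ → Prop} {a b : ℕ} (hab : a ≤ b) (ha : P a) :
    ∃ k, a ≤ k ∧ k ≤ b ∧ P k ∧ (¬P (k + 1) ∨ k = b) := by
  induction b, hab using Nat.le_induction with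
  | base => exact ⟨a, le_rfl, le_rfl, ha, Or.inr rfl⟩
  | succ b hab ih =>
    obtain ⟨k, h1, h2, h3, h4 | rfl⟩ := ih
    · exact ⟨k, h1, by omega, h3, Or.inl h4⟩
    · by_cases h : P (k + 1)
      · exact ⟨k + 1, by omega, le_rfl, h, Or.inr rfl⟩
      · exact ⟨k, h1, by omega, h3, Or.inl h⟩

end generic

variable {d : ℕ} {μ : Measure (St d → ℝ)} [IsProbabilityMeasure μ] {ℓ : Fin d → ℝ} {e : St d}

section legs

variable {X Y : Leg d} {mX mY : ℝ}

lemma Leg.Ok.tot_nonneg (hX : X.Ok ℓ mX) {l : List (Pa d)} (hl : Sup X.π l) :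
    0 ≤ dot ℓ (tot X.a l) := by
  rw [dot_tot]
  refine List.sum_nonneg fun x hx => ?_
  obtain ⟨b, hb, rfl⟩ := List.mem_map.1 hx
  exact hX.nn b (hl b hb)

lemma Leg.Ok.site_bounds (hX : X.Ok ℓ mX) {l : List (Pa d)} (hl : Sup X.π l) {x z : V d}
    (hz : z ∈ X.sites x l) : dot ℓ x ≤ dot ℓ z ∧ dot ℓ z ≤ dot ℓ x + dot ℓ (tot X.a l) := by
  induction l generalizing x with
  | nil => simp [Leg.sites_nil] at hz
  | cons b l ih =>
    obtain ⟨h1, h2⟩ := sup_cons.1 hl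
    have h3 := hX.tot_nonneg h2
    have h4 := hX.nn b h1
    rw [tot_cons, dot_add]
    rcases Finset.mem_union.1 hz with hz | hz
    · obtain ⟨u, hu, rfl⟩ := Finset.mem_image.1 hz
      have := hX.site b h1 u hu
      rw [dot_add]
      constructor <;> linarith [this.1, this.2]
    · have := ih h2 hz
      rw [dot_add] at this
      constructor <;> linarith [this.1, this.2]

lemma Leg.Ok.site_low (hX : X.Ok ℓ mX) {p l : List (Pa d)} (hl : Sup X.π l) {z : V d} (k : ℕ)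
    (hz : z ∈ X.sites 0 (p ++ l)) (hz' : z ∉ X.sites 0 (p ++ l.take k)) :
    dot ℓ (tot X.a p) + dot ℓ (tot X.a (l.take k)) ≤ dot ℓ z := by
  rw [← List.take_append_drop k l, ← List.append_assoc, Leg.sites_append, Finset.mem_union] at hz
  have := (hX.site_bounds (hl.drop k) (hz.resolve_left hz')).1
  rwa [zero_add, tot_append, dot_add] at this

lemma Leg.Ok.site_loc (hX : X.Ok ℓ mX) {p l : List (Pa d)} (hp : Sup X.π p) (hl : Sup X.π l)
    {z : V d} {k m : ℕ} (hz : z ∈ X.sites 0 (p ++ l))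
    (h1 : dot ℓ (tot X.a p) + dot ℓ (tot X.a (l.take k)) < dot ℓ z)
    (h2 : dot ℓ z < dot ℓ (tot X.a p) + dot ℓ (tot X.a (l.take (k + m))) ∨ l.length ≤ k + m) :
    z ∈ X.sites (tot X.a p + tot X.a (l.take k)) ((l.drop k).take m) := by
  have h3 : z ∈ X.sites 0 (p ++ l.take (k + m)) := by
    rcases h2 with h2 | h2
    · by_contra h
      exact absurd (hX.site_low hl _ hz h) (not_le.2 h2)
    · rwa [List.take_of_length_le h2]
  rw [List.take_add, ← List.append_assoc, Leg.sites_append, Finset.mem_union, zero_add,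
    tot_append] at h3
  refine h3.resolve_left fun h => ?_
  have := (hX.site_bounds (sup_append.2 ⟨hp, hl.take k⟩) h).2
  rw [dot_zero, zero_add, tot_append, dot_add] at this
  exact absurd this (not_le.2 h1)

/-- atypical depth at the end of some window -/
def oBad (X : Leg d) (ℓ : Fin d → ℝ) (W w : ℕ) (τ : ℝ) (l : List (Pa d)) : Prop :=
  ∃ j ∈ Finset.range (W + 1), τ / 8 < |((l.take (j * w)).map fun b => dot ℓ (X.a b)).sum - j * τ|

lemma oBad_not {W w : ℕ} {τ : ℝ} {l : List (Pa d)} (h : ¬oBad X ℓ W w τ l) {j : ℕ} (hj : j ≤ W) :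
    j * τ - τ / 8 ≤ dot ℓ (tot X.a (l.take (j * w))) ∧
      dot ℓ (tot X.a (l.take (j * w))) ≤ j * τ + τ / 8 := by
  have := abs_le.1 (not_lt.1 fun h' => h ⟨j, Finset.mem_range.2 (Nat.lt_succ_of_le hj), h'⟩)
  rw [dot_tot]
  constructor <;> linarith [this.1, this.2]

/-- the good event at depth scale `τ` -/
def oG (X Y : Leg d) (ℓ : Fin d → ℝ) (τ : ℝ) (p q : List (Pa d)) : Prop :=
  Disjoint (X.sites 0 p) (Y.sites 0 q) ∧ |dot ℓ (tot X.a p) - dot ℓ (tot Y.a q)| ≤ τ / 4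

lemma outer_det (hX : X.Ok ℓ mX) (hY : Y.Ok ℓ mY) {g wX wY : ℕ} {τ : ℝ} (hτ : 0 < τ)
    {p q l l' : List (Pa d)} (hp : Sup X.π p) (hq : Sup Y.π q) (hl : Sup X.π l) (hl' : Sup Y.π l')
    (e1 : l.length = 3 * (g + 1) * wX) (e2 : l'.length = 3 * (g + 1) * wY)
    (hd : |dot ℓ (tot X.a p) - dot ℓ (tot Y.a q)| ≤ τ / 4)
    (b1 : ¬oBad X ℓ (3 * (g + 1)) wX τ l) (b2 : ¬oBad Y ℓ (3 * (g + 1)) wY τ l')
    (h1 : Disjoint (X.sites 0 (p ++ l.take ((g + 1) * wX))) (Y.sites 0 (q ++ l'.take ((g + 1) * wY))))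
    (h2 : ¬Disjoint (X.sites 0 (p ++ l)) (Y.sites 0 (q ++ l'))) :
    ∃ k ∈ Finset.Ico g (3 * g + 2), ¬Disjoint
      (X.sites (tot X.a p + tot X.a (l.take (k * wX))) ((l.drop (k * wX)).take (2 * wX)))
      (Y.sites (tot Y.a q + tot Y.a (l'.take (k * wY))) ((l'.drop (k * wY)).take (2 * wY))) := by
  obtain ⟨z, z1, z2⟩ := Finset.not_disjoint_iff.1 h2
  obtain ⟨d1, d2⟩ := abs_le.1 hd
  obtain ⟨k, k1, k2, k3, k4⟩ := outer_ivt
    (P := fun k => dot ℓ (tot X.a p) + (k + 1 / 2) * τ ≤ dot ℓ z) (a := g) (b := 3 * g + 1)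
    (by omega) (by
      have c1 := (oBad_not b1 (j := g + 1) (by omega)).1
      have c2 := (oBad_not b2 (j := g + 1) (by omega)).1
      push_cast at c1 c2
      by_cases h : z ∈ X.sites 0 (p ++ l.take ((g + 1) * wX))
      · have := hY.site_low hl' _ z2 (Finset.disjoint_left.1 h1 h)
        linarith
      · have := hX.site_low hl _ z1 h
        linarith)
  have c1 := (oBad_not b1 (j := k) (by omega)).2
  have c2 := (oBad_not b2 (j := k) (by omega)).2
  have c3 := (oBad_not b1 (j := k + 2) (by omega)).1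
  have c4 := (oBad_not b2 (j := k + 2) (by omega)).1
  rw [add_mul] at c3 c4
  push_cast at c3 c4 k4
  refine ⟨k, Finset.mem_Ico.2 ⟨k1, by omega⟩, Finset.not_disjoint_iff.2 ⟨z,
    hX.site_loc hp hl z1 (by linarith) (k4.imp (fun h => by linarith [not_le.1 h]) ?_),
    hY.site_loc hq hl' z2 (by linarith) (k4.imp (fun h => by linarith [not_le.1 h]) ?_)⟩⟩
  · rintro rfl
    exact le_of_eq (by rw [e1]; ring)
  · rintro rfl
    exact le_of_eq (by rw [e2]; ring)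

lemma outer_two (hX : X.Ok ℓ mX) (hY : Y.Ok ℓ mY) {g wX wY : ℕ} {τ : ℝ} (hτ : 0 < τ) {h : ℝ≥0∞}
    (tX : Ex X.π (3 * (g + 1) * wX) (fun l => ind (oBad X ℓ (3 * (g + 1)) wX τ l)) ≤ 64⁻¹)
    (tY : Ex Y.π (3 * (g + 1) * wY) (fun l => ind (oBad Y ℓ (3 * (g + 1)) wY τ l)) ≤ 64⁻¹)
    (hz : ∀ (x y : V d) (k : ℕ), g ≤ k → E2 X.π Y.π (k * wX) (k * wY) (fun p p' =>
      E2 X.π Y.π (2 * wX) (2 * wY) fun s t =>
        ind (¬Disjoint (X.sites (x + tot X.a p) s) (Y.sites (y + tot Y.a p') t))) ≤ h)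
    (hh : (2 * g + 2 : ℕ) * h ≤ 16⁻¹) {p q : List (Pa d)} (hp : Sup X.π p) (hq : Sup Y.π q)
    (hG : oG X Y ℓ τ p q) :
    E2 X.π Y.π ((g + 1) * wX) ((g + 1) * wY) (fun s t =>
      E2 X.π Y.π ((g + 1) * (2 * wX)) ((g + 1) * (2 * wY)) fun u v =>
        ind (oG X Y ℓ (2 * τ) (p ++ s) (q ++ t) ∧ ¬(oG X Y ℓ (4 * τ) (p ++ s ++ u) (q ++ t ++ v) ∧
          Disjoint (X.sites 0 (p ++ s)) (Y.sites 0 (q ++ t ++ v)) ∧
            dot ℓ (tot X.a (p ++ s)) < dot ℓ (tot Y.a (q ++ t ++ v))))) ≤ 8⁻¹ := by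
  have eX : (g + 1) * wX + (g + 1) * (2 * wX) = 3 * (g + 1) * wX := by ring
  have eY : (g + 1) * wY + (g + 1) * (2 * wY) = 3 * (g + 1) * wY := by ring
  have key : E2 X.π Y.π (3 * (g + 1) * wX) (3 * (g + 1) * wY) (fun l l' =>
      (ind (oBad X ℓ (3 * (g + 1)) wX τ l) + ind (oBad Y ℓ (3 * (g + 1)) wY τ l')) +
      ∑ k ∈ Finset.Ico g (3 * g + 2), ind (¬Disjoint
        (X.sites (tot X.a p + tot X.a (l.take (k * wX))) ((l.drop (k * wX)).take (2 * wX)))
        (Y.sites (tot Y.a q + tot Y.a (l'.take (k * wY))) ((l'.drop (k * wY)).take (2 * wY))))) ≤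
      8⁻¹ := by
    rw [E2_add, E2_add, E2_left hY.sum, E2_right hX.sum, E2_sum]
    refine (add_le_add (add_le_add tX tY) ((Finset.sum_le_card_nsmul _ _ h fun k hk => ?_).trans
      (le_trans (le_of_eq ?_) hh))).trans ?_
    · obtain ⟨k1, k2⟩ := Finset.mem_Ico.1 hk
      rw [E2_take_window hX.sum hY.sum (by rw [← add_mul]; gcongr; omega)
        (by rw [← add_mul]; gcongr; omega) fun a s b t =>
          ind (¬Disjoint (X.sites (tot X.a p + tot X.a a) s) (Y.sites (tot Y.a q + tot Y.a b) t))]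
      exact hz _ _ k k1
    · rw [Nat.card_Ico, nsmul_eq_mul, show 3 * g + 2 - g = 2 * g + 2 by omega]
    · rw [← ENNReal.toReal_le_toReal (by simp) (by simp), ENNReal.toReal_add (by simp) (by simp),
        ENNReal.toReal_add (by simp) (by simp)]
      norm_num
  rw [← eX, ← eY, E2_append] at key
  refine le_trans (E2_mono fun s t s1 s2 t1 t2 => E2_mono fun u v u1 u2 v1 v2 => ind_le ?_) key
  rintro ⟨h1, h2⟩
  by_cases b1 : oBad X ℓ (3 * (g + 1)) wX τ (s ++ u)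
  · exact le_add_right (le_add_right (ind_pos b1).ge)
  by_cases b2 : oBad Y ℓ (3 * (g + 1)) wY τ (t ++ v)
  · exact le_add_right (le_add_left (ind_pos b2).ge)
  have e1 : (s ++ u).length = 3 * (g + 1) * wX := by rw [List.length_append, s1, u1, eX]
  have e2 : (t ++ v).length = 3 * (g + 1) * wY := by rw [List.length_append, t1, v1, eY]
  refine le_add_left (le_trans (ind_pos ?_).ge (ind_exists_le_sum _ _))
  refine outer_det hX hY hτ hp hq (sup_append.2 ⟨s2, u2⟩) (sup_append.2 ⟨t2, v2⟩) e1 e2 hG.2 b1 b2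
    (by simpa only [← s1, ← t1, List.take_left] using h1.1) fun h3 => h2 ?_
  rw [← List.append_assoc, ← List.append_assoc] at h3
  obtain ⟨c1, c2⟩ := oBad_not b1 le_rfl
  obtain ⟨c3, c4⟩ := oBad_not b2 le_rfl
  have c5 := (oBad_not b1 (j := g + 1) (by omega)).2
  obtain ⟨d1, d2⟩ := abs_le.1 hG.2
  rw [List.take_of_length_le e1.le] at c1 c2
  rw [List.take_of_length_le e2.le] at c3 c4
  rw [← s1, List.take_left] at c5
  push_cast at c1 c2 c3 c4 c5
  have g0 : 0 ≤ g * τ := by positivity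
  refine ⟨⟨h3, ?_⟩, h3.mono_left ?_, ?_⟩
  · rw [List.append_assoc, List.append_assoc, tot_append X.a p, tot_append Y.a q, dot_add, dot_add,
      abs_le]
    constructor <;> linarith
  · rw [X.sites_append 0 (p ++ s)]
    exact Finset.subset_union_left
  · rw [List.append_assoc, tot_append X.a p, tot_append Y.a q, dot_add, dot_add]
    linarith

lemma outer_tail (hX : X.Ok ℓ mX) (k : ℕ) : ∃ ρ : ℕ, ∀ ρ' : ℕ, ρ ≤ ρ' →
    Ex X.π k (fun s => ind (¬∀ z ∈ X.sites 0 s, ∀ i, |z i| ≤ ρ')) ≤ 64⁻¹ := by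
  obtain ⟨ρ, hρ⟩ := Ex_tail hX.sum k (fun s => (X.sites 0 s).sup fun z =>
    Finset.univ.sup fun i => (z i).natAbs) (ε := 64⁻¹) (by simp)
  refine ⟨ρ, fun ρ' h => le_trans (Ex_mono' fun s => ind_mono fun hs => ?_) hρ⟩
  by_contra hc
  refine hs fun z hz i => ?_
  have h1 := (Finset.le_sup (f := fun i => (z i).natAbs) (Finset.mem_univ i)).trans
    ((Finset.le_sup (f := fun z : V d => Finset.univ.sup fun i => (z i).natAbs) hz).trans
      ((not_lt.1 hc).trans h))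
  rw [Int.abs_eq_natAbs]
  exact_mod_cast h1

lemma outer_ratio {m m' t : ℝ} (hm : 0 < m) (hm' : 0 < m') (ht : m' ≤ t) {c : ℕ}
    (hc : 2 * m / m' ≤ c) : ⌈t / m'⌉₊ ≤ c * ⌈t / m⌉₊ := by
  refine Nat.ceil_le.2 ?_
  have h1 : t / m ≤ ⌈t / m⌉₊ := Nat.le_ceil _
  have h2 : 0 ≤ t / m := div_nonneg (by linarith) hm.le
  push_cast
  calc t / m' ≤ 2 * m / m' * (t / m) := by
        rw [show 2 * m / m' * (t / m) = 2 * (t / m') by field_simp]
        linarith [div_nonneg (show 0 ≤ t by linarith) hm'.le]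
    _ ≤ _ := by gcongr

end legs

theorem outer {X Y : Leg d} {mX mY : ℝ} (hX : X.Ok ℓ mX) (hY : Y.Ok ℓ mY) {J : ℕ} {C : ℝ≥0∞}
    (hC : C ≠ ⊤) (hH : HazOk X Y J C) (hB : BaseOk X Y ℓ) {A : ℝ≥0∞} (hA : A ≠ ⊤) :
    ∃ M K : ℕ, A ≤ M * E2 X.π Y.π M K fun s t =>
      ind (Disjoint (X.sites 0 s) (Y.sites 0 t) ∧ dot ℓ (tot X.a s) < dot ℓ (tot Y.a t)) := by
  have mX0 := hX.pos
  have mY0 := hY.pos
  obtain ⟨c, hc⟩ := exists_nat_ge (2 * mX / mY + 2 * mY / mX)
  obtain ⟨η, ε, Js, η0, η1, η2, ε0, J1, hpar⟩ := outer_par hC (2 * (J * (4 * (c + 1))) + 2)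
  obtain ⟨n0, hn⟩ := hH η ε Js η0 η1 η2 ε0 J1
  set g := Js * J * (4 * (c + 1)) with hg
  obtain ⟨tX, htX⟩ := outer_typ hX.sum mX0 hX.wl (3 * (g + 1))
  obtain ⟨tY, htY⟩ := outer_typ hY.sum mY0 hY.wl (3 * (g + 1))
  obtain ⟨t1, ht1⟩ := exists_nat_ge (n0 * mX + mX + mY + 4)
  set t := tX + tY + t1 with ht
  have t2 : n0 * mX + mX + mY + 4 ≤ t := ht1.trans (by exact_mod_cast Nat.le_add_left _ _)
  have n1 : 0 ≤ n0 * mX := by positivity
  have t0 : (0 : ℝ) < t := by linarith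
  replace htX := htX t (by omega)
  replace htY := htY t (by omega)
  have r1 : ⌈t / mY⌉₊ ≤ c * ⌈t / mX⌉₊ := outer_ratio mX0 mY0 (by linarith)
    (le_trans (le_add_of_nonneg_right (by positivity)) hc)
  have r2 : ⌈t / mX⌉₊ ≤ c * ⌈t / mY⌉₊ := outer_ratio mY0 mX0 (by linarith)
    (le_trans (le_add_of_nonneg_left (by positivity)) hc)
  have r3 : n0 ≤ ⌈t / mX⌉₊ := by
    have : (n0 : ℝ) ≤ t / mX := (le_div_iff₀ mX0).2 (by linarith)
    exact_mod_cast this.trans (Nat.le_ceil _)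
  have r4 : 0 < ⌈t / mX⌉₊ := Nat.ceil_pos.2 (by positivity)
  set aX := ⌈t / mX⌉₊ with haX
  set aY := ⌈t / mY⌉₊ with haY
  obtain ⟨ρX, hρX⟩ := outer_tail hX ((g + 1) * (2 ^ 0 * aX))
  obtain ⟨ρY, hρY⟩ := outer_tail hY ((g + 1) * (2 ^ 0 * aY))
  obtain ⟨p0, q0, hp, hq, hd, hdis⟩ := hB (ρX + ρY)
  refine outer_rec (L := fun i => (g + 1) * (2 ^ i * aX)) (L' := fun i => (g + 1) * (2 ^ i * aY))
    (G := fun i => oG X Y ℓ (2 ^ i * t)) hX.sum hY.sum _ hp hq ⟨?_, ?_⟩ (fun i => ?_) ?_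
    (fun i p q hp hq hG => ?_) hA
  · simpa using hdis [] [] sup_nil sup_nil (by simp [Leg.sites_nil]) (by simp [Leg.sites_nil])
  · rw [pow_zero]
    linarith
  · exact (Nat.le_mul_of_pos_right _ r4).trans (Nat.le_mul_of_pos_left _ (Nat.succ_pos _))
  · have key := add_le_add (add_le_add (hρX (ρX + ρY) (by omega)) (htX 0 (g + 1) (by omega)))
      (add_le_add (hρY (ρX + ρY) (by omega)) (htY 0 (g + 1) (by omega)))
    rw [← Ex_add, ← Ex_add, ← E2_left hY.sum _ ((g + 1) * (2 ^ 0 * aY)),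
      ← E2_right hX.sum ((g + 1) * (2 ^ 0 * aX)), ← E2_add] at key
    refine le_trans (E2_mono fun s u s1 s2 u1 u2 => ind_le fun h => ?_) (key.trans ?_)
    · by_cases a1 : ∀ z ∈ X.sites 0 s, ∀ i, |z i| ≤ (ρX + ρY : ℕ)
      swap
      · exact le_add_right (le_add_right (ind_pos a1).ge)
      by_cases a2 : ∀ z ∈ Y.sites 0 u, ∀ i, |z i| ≤ (ρX + ρY : ℕ)
      swap
      · exact le_add_left (le_add_right (ind_pos a2).ge)
      by_cases b1 : oBad X ℓ (g + 1) (2 ^ 0 * aX) (2 ^ 0 * t) s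
      · exact le_add_right (le_add_left (ind_pos b1).ge)
      by_cases b2 : oBad Y ℓ (g + 1) (2 ^ 0 * aY) (2 ^ 0 * t) u
      · exact le_add_left (le_add_left (ind_pos b2).ge)
      refine absurd ⟨hdis s u s2 u2 a1 a2, ?_⟩ h
      obtain ⟨c1, c2⟩ := oBad_not b1 le_rfl
      obtain ⟨c3, c4⟩ := oBad_not b2 le_rfl
      obtain ⟨d1, d2⟩ := abs_le.1 hd
      rw [List.take_of_length_le s1.le] at c1 c2
      rw [List.take_of_length_le u1.le] at c3 c4
      rw [tot_append, tot_append, dot_add, dot_add, abs_le]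
      rw [pow_zero, one_mul] at c1 c2 c3 c4
      constructor <;> linarith
    · rw [← ENNReal.toReal_le_toReal (by simp) (by simp), ENNReal.toReal_add (by simp) (by simp),
        ENNReal.toReal_add (by simp) (by simp)]
      norm_num
  · have P0 : 0 < 2 ^ i := by positivity
    have key := outer_two hX hY (g := g) (wX := 2 ^ i * aX) (wY := 2 ^ i * aY) (τ := 2 ^ i * t)
      (by positivity) (htX i _ le_rfl) (htY i _ le_rfl)
      (fun x y k hk => hn (4 * (2 ^ i * aX + 2 ^ i * aY)) (by nlinarith) x y _ _ _ _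
        (le_trans ?_ (Nat.mul_le_mul_right _ hk)) (le_trans ?_ (Nat.mul_le_mul_right _ hk))
        (by omega) (by omega))
      (le_trans (mul_le_mul_left (by
        exact_mod_cast (show 2 * g + 2 ≤ (2 * (J * (4 * (c + 1))) + 2) * Js by nlinarith)) _) hpar)
      hp hq hG
    · simpa only [pow_succ', mul_assoc, ← mul_assoc (2 : ℝ) 2, show (2 : ℝ) * 2 = 4 by norm_num]
        using key
    · rw [hg, mul_assoc (Js * J), mul_assoc 4]
      gcongr
      nlinarith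
    · rw [hg, mul_assoc (Js * J), mul_assoc 4]
      gcongr
      nlinarith

end Vale.Agent.P147F
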