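import Vale.Agent.P147F.Soft1
import Vale.Agent.P147F.Blk

/-! The regeneration structure and the sign-union law. -/

namespace Vale.Agent.P147F

open MeasureTheory Vale.Agent.P147
open scoped ENNReal Classical

variable {d : ℕ} {μ : Measure (St d → ℝ)} [IsProbabilityMeasure μ] {ℓ : Fin d → ℝ} {e : St d}

variable {P : Measure (ℕ → St d)}

namespace Soft2Aux

lemma mem_dep_seg (s : ℕ → St d) (a n : ℕ) (y : V d) :
    y ∈ dep 0 (redSeg s a n) ↔ ∃ i < n, y = pos s (a + i) - pos s a := by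
  rw [← add_mem_dep (pos s a)]
  constructor
  · intro h
    obtain ⟨i, hi, e⟩ := red_mem_dep s a n _ h
    exact ⟨i, hi, by rw [← e, add_sub_cancel_left]⟩
  · rintro ⟨i, hi, rfl⟩
    obtain ⟨k, rfl⟩ := Nat.exists_eq_add_of_lt hi
    rw [add_sub_cancel, add_assoc, red_seg_add, ← red_disp]
    exact mem_dep_append _ (by simp [redSeg])

lemma ht_seg (s : ℕ → St d) (a n : ℕ) :
    ht ℓ (redSeg s a n) = dot ℓ (pos s (a + n)) - dot ℓ (pos s a) := by
  rw [← red_disp, dot_add, ht, add_sub_cancel_left]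

lemma stay_seg {s : ℕ → St d} {a n : ℕ} :
    Stay ℓ (redSeg s a n) ↔ ∀ i ≤ n, dot ℓ (pos s a) ≤ dot ℓ (pos s (a + i)) := by
  simp only [Stay, ran, Finset.forall_mem_insert, mem_dep_seg, zero_add]
  rw [← ht, ht_seg, sub_nonneg]
  constructor
  · intro h i hi
    rcases hi.eq_or_lt with rfl | hi
    · exact h.1
    · simpa [dot_sub] using h.2 _ ⟨i, hi, rfl⟩
  · intro h
    refine ⟨h n le_rfl, ?_⟩
    rintro _ ⟨i, hi, rfl⟩
    simpa [dot_sub] using h i hi.le

lemma rec_seg {s : ℕ → St d} {n : ℕ} :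
    Rec ℓ (redSeg s 0 n) ↔ ∀ i < n, dot ℓ (pos s i) < dot ℓ (pos s n) := by
  simp only [Rec, mem_dep_seg, ht_seg, red_pos_zero, zero_add, sub_zero, dot_zero]
  exact ⟨fun h i hi => h _ ⟨i, hi, rfl⟩, by rintro h _ ⟨i, hi, rfl⟩; exact h i hi⟩

lemma stayAfter_iff {s : ℕ → St d} {a : ℕ} :
    s ∈ StayAfter ℓ a ↔ ∀ n, Stay ℓ (redSeg s a n) := by
  simp only [stay_seg]
  refine ⟨fun h n i _ => h _ (by omega), fun h m hm => ?_⟩
  obtain ⟨k, rfl⟩ := Nat.exists_eq_add_of_le hm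
  exact h k k le_rfl

lemma mem_cyl_append {s : ℕ → St d} {l r : Pa d} :
    s ∈ cyl (l ++ r) ↔ s ∈ cyl l ∧ redSeg s l.length r.length = r := by
  simp only [cyl, Set.mem_setOf_eq, List.length_append, red_seg_add, zero_add]
  exact ⟨fun h => List.append_inj h (red_length _ _ _), fun h => by rw [h.1, h.2]⟩

lemma inter_eq (l : Pa d) (A : Pa d → Prop) (n : ℕ) :
    cyl l ∩ {s | A (redSeg s l.length n)} =
      ⋃ r : Pa d, {s | (r.length = n ∧ A r) ∧ s ∈ cyl (l ++ r)} := by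
  ext s
  simp only [Set.mem_inter_iff, Set.mem_setOf_eq, Set.mem_iUnion, mem_cyl_append]
  constructor
  · rintro ⟨h1, h2⟩
    exact ⟨_, ⟨red_length _ _ _, h2⟩, h1, by rw [red_length]⟩
  · rintro ⟨r, ⟨rfl, h1⟩, h2, h3⟩
    exact ⟨h2, h3.symm ▸ h1⟩

lemma meas_and (p : Prop) {S : Set (ℕ → St d)} (hS : MeasurableSet S) :
    MeasurableSet {s | p ∧ s ∈ S} := by
  by_cases h : p <;> simp [h, hS]

lemma meas_inter (l : Pa d) (A : Pa d → Prop) (n : ℕ) :
    MeasurableSet (cyl l ∩ {s | A (redSeg s l.length n)}) := by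
  rw [inter_eq]
  exact MeasurableSet.iUnion fun r => meas_and _ (measurableSet_cyl _)

omit [IsProbabilityMeasure μ] in
lemma meas_dec (hP : IsAnnealed μ P) (l : Pa d) (A : Pa d → Prop) (n : ℕ) :
    P (cyl l ∩ {s | A (redSeg s l.length n)}) =
      ∑' r, if r.length = n ∧ A r then w μ (l ++ r) else 0 := by
  rw [inter_eq, measure_iUnion ?_ fun r => meas_and _ (measurableSet_cyl _)]
  · refine tsum_congr fun r => ?_
    split_ifs with h
    · simp only [h, and_self, true_and, Set.setOf_mem_eq, meas_cyl hP]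
    · simp only [h, false_and, Set.setOf_false, measure_empty]
  · intro r r' h
    refine Set.disjoint_left.2 fun s h1 h2 => h ?_
    rw [← (mem_cyl_append.1 h1.2).2, ← (mem_cyl_append.1 h2.2).2, h1.1.1, h2.1.1]

lemma meas_stayAfter (ℓ : Fin d → ℝ) (n : ℕ) : MeasurableSet (StayAfter ℓ n) := by
  simp only [StayAfter, Set.setOf_forall]
  exact MeasurableSet.iInter fun m => MeasurableSet.iInter fun _ =>
    measurableSet_le (measurable_level ℓ n) (measurable_level ℓ m)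

/-- the level is not bounded above -/
def Unb (ℓ : Fin d → ℝ) (s : ℕ → St d) : Prop := ∀ H : ℝ, ∃ n, H < dot ℓ (pos s n)

lemma Unb.exists_rec {s : ℕ → St d} (h : Unb ℓ s) (n : ℕ) :
    ∃ m, n ≤ m ∧ Rec ℓ (redSeg s 0 m) := by
  obtain ⟨j, -, hj⟩ := (Finset.range (n + 1)).exists_max_image (fun i => dot ℓ (pos s i))
    ⟨0, by simp⟩
  have hex := h (dot ℓ (pos s j))
  refine ⟨Nat.find hex, not_lt.1 fun hn => ?_, rec_seg.2 fun i hi => ?_⟩
  · exact absurd (Nat.find_spec hex) (not_lt.2 (hj _ (Finset.mem_range.2 (by omega))))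
  · exact (not_lt.1 (Nat.find_min hex hi)).trans_lt (Nat.find_spec hex)

lemma unb_of_stay (hμ : Elliptic μ) (hP : IsAnnealed μ P) (hN : Nrm ℓ e) :
    ∀ᵐ s ∂P, s ∈ StayAfter ℓ 0 → Unb ℓ s := by
  filter_upwards [slab hμ hP hN] with s hs h0
  by_contra hb
  simp only [Unb, not_forall, not_exists, not_lt] at hb
  obtain ⟨n, hn⟩ := (Filter.Tendsto.eventually_gt_atTop (hs hb) 0).exists
  have := h0 n (Nat.zero_le n)
  rw [neg_dot] at hn
  rw [red_pos_zero, dot_zero] at this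
  linarith

end Soft2Aux

open Soft2Aux

lemma restart (hμ : Elliptic μ) (hP : IsAnnealed μ P) {l : Pa d} (hl : Rec ℓ l) :
    P (cyl l ∩ StayAfter ℓ l.length) = w μ l * al μ ℓ := by
  have := hP.1
  have h1 : cyl l ∩ StayAfter ℓ l.length =
      ⋂ n : ℕ, cyl l ∩ {s | Stay ℓ (redSeg s l.length n)} := by
    ext s
    simp [stayAfter_iff, forall_and]
  rw [h1, Antitone.measure_iInter ?_ (fun n => (meas_inter l _ n).nullMeasurableSet)
    ⟨0, measure_ne_top _ _⟩, al, ENNReal.mul_iInf_of_ne (w_ne_zero hμ l)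
      (ne_top_of_le_ne_top ENNReal.one_ne_top (w_le_one hμ l))]
  · refine iInf_congr fun n => ?_
    rw [meas_dec hP, ← ENNReal.tsum_mul_left]
    refine tsum_congr fun r => ?_
    split_ifs with h
    · exact w_rec hl h.2
    · simp
  · intro m n hmn s hs
    exact ⟨hs.1, stay_seg.2 fun i hi => stay_seg.1 hs.2 i (hi.trans hmn)⟩
theorem al_ne_zero (hμ : Elliptic μ) (hP : IsAnnealed μ P) (h : P (Escape ℓ) ≠ 0) :
    al μ ℓ ≠ 0 := by
  obtain ⟨l, hl⟩ := red_exists_pos (pos_iff_ne_zero.2 h)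
    (fun l : Pa d => cyl l ∩ StayAfter ℓ l.length) fun s hs => by
      have h1 : Filter.Tendsto (fun n => dot ℓ (pos s n)) Filter.cofinite Filter.atTop := by
        rw [Nat.cofinite_eq_atTop]; exact hs
      obtain ⟨t, ht⟩ := h1.exists_forall_le
      exact ⟨redSeg s 0 t, by rw [cyl, Set.mem_setOf_eq, red_length],
        by rw [red_length]; exact fun m _ => ht m⟩
  refine fun h0 => hl (le_antisymm (h0 ▸ le_iInf fun n => ?_) zero_le)
  refine (measure_mono fun s hs => ?_).trans ((meas_dec hP l (Stay ℓ) n).le.trans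
    (ENNReal.tsum_le_tsum fun r => ?_))
  · exact ⟨hs.1, stayAfter_iff.1 hs.2 n⟩
  · split_ifs
    exacts [w_append_le_right hμ l r, le_rfl]

namespace Soft2Aux

lemma regen (hμ : Elliptic μ) (hP : IsAnnealed μ P) (h : al μ ℓ ≠ 0) :
    ∀ᵐ s ∂P, Unb ℓ s → ∀ n0, ∃ m, n0 ≤ m ∧ Rec ℓ (redSeg s 0 m) ∧ s ∈ StayAfter ℓ m := by
  have := hP.1
  have key : ∀ n0 : ℕ, ∀ᵐ s ∂P,
      (∀ n, ∃ m, n ≤ m ∧ (Rec ℓ (redSeg s 0 m) ∧ n0 ≤ (redSeg s 0 m).length)) →
        s ∈ {s | ∃ m, n0 ≤ m ∧ Rec ℓ (redSeg s 0 m) ∧ s ∈ StayAfter ℓ m} := fun n0 => by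
    refine trial (Tr := fun l => Rec ℓ l ∧ n0 ≤ l.length) ?_ h fun l hl => ?_
    · simp only [Set.setOf_exists]
      refine MeasurableSet.iUnion fun m => meas_and _ (MeasurableSet.inter ?_ (meas_stayAfter ℓ m))
      have := meas_inter [] (Rec ℓ) m
      rwa [show cyl ([] : Pa d) = Set.univ from Set.eq_univ_of_forall fun _ => rfl,
        Set.univ_inter] at this
    · rw [meas_cyl hP, mul_comm, ← restart hμ hP hl.1]
      refine measure_mono fun s hs => ⟨hs.1, l.length, hl.2, ?_, hs.2⟩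
      rw [show redSeg s 0 l.length = l from hs.1]
      exact hl.1
  filter_upwards [ae_all_iff.2 key] with s hs hu n0
  refine hs n0 fun n => ?_
  obtain ⟨m, h1, h2⟩ := hu.exists_rec (max n n0)
  exact ⟨m, (le_max_left _ _).trans h1, h2, by rw [red_length]; exact (le_max_right _ _).trans h1⟩

lemma meas_stay_zero (hμ : Elliptic μ) (hP : IsAnnealed μ P) : P (StayAfter ℓ 0) = al μ ℓ := by
  have := restart (ℓ := ℓ) hμ hP (l := []) fun y hy => by simp at hy
  simpa [cyl, redSeg] using this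

lemma exists_blk {s : ℕ → St d} (h0 : s ∈ StayAfter ℓ 0)
    (hex : ∃ m, 1 ≤ m ∧ Rec ℓ (redSeg s 0 m) ∧ s ∈ StayAfter ℓ m) :
    ∃ b, Blk ℓ b ∧ s ∈ cyl b ∩ StayAfter ℓ b.length := by
  obtain ⟨h1, h2, h3⟩ := Nat.find_spec hex
  refine ⟨redSeg s 0 (Nat.find hex), ⟨fun h => ?_, fun y hy => ⟨?_, h2 y hy⟩, ?_⟩,
    by rw [cyl, Set.mem_setOf_eq, red_length], by rwa [red_length]⟩
  · have := congrArg List.length h
    rw [red_length, List.length_nil] at this
    omega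
  · exact stayAfter_iff.1 h0 _ y (dep_subset_ran _ _ hy)
  · rintro a c hac ha hc ⟨hba, hbc⟩
    have la := List.length_pos_iff.2 ha
    have lc := List.length_pos_iff.2 hc
    have hl := congrArg List.length hac
    rw [red_length, List.length_append] at hl
    have h4 : s ∈ cyl (a ++ c) := by rw [cyl, Set.mem_setOf_eq, List.length_append, ← hl, hac]
    obtain ⟨h5, h6⟩ := mem_cyl_append.1 h4
    have h7 := hbc.stay
    rw [← h6, stay_seg] at h7
    refine Nat.find_min hex (show a.length < Nat.find hex by omega) ⟨la, ?_, fun j hj => ?_⟩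
    · rw [show redSeg s 0 a.length = a from h5]
      exact hba.rec
    · rcases le_total j (Nat.find hex) with h8 | h8
      · have := h7 (j - a.length) (by omega)
        rwa [show a.length + (j - a.length) = j by omega] at this
      · exact (h7 _ le_rfl).trans (hl ▸ h3 j h8)

lemma sum_bw (hμ : Elliptic μ) (hP : IsAnnealed μ P) (hN : Nrm ℓ e) (h : al μ ℓ ≠ 0) :
    ∑' l, bw μ ℓ l = 1 := by
  let S : Pa d → Set (ℕ → St d) := fun b => {s | Blk ℓ b ∧ s ∈ cyl b ∩ StayAfter ℓ b.length}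
  have h1 : ∀ b, P (S b) = bw μ ℓ b * al μ ℓ := fun b => by
    by_cases hb : Blk ℓ b
    · simp only [S, hb, true_and, Set.setOf_mem_eq]
      rw [restart hμ hP hb.2.1.rec, bw_of_blk hb]
    · simp [S, hb, bw]
  have h2 : P (⋃ b, S b) = ∑' b, P (S b) := by
    refine measure_iUnion (fun b b' hne => Set.disjoint_left.2 fun s hs hs' => hne ?_)
      fun b => meas_and _ ((measurableSet_cyl b).inter (meas_stayAfter ℓ _))
    refine blk_unique hs.1 hs'.1 (stayAfter_iff.1 hs.2.2 b'.length)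
      (stayAfter_iff.1 hs'.2.2 b.length) ?_
    have e1 := red_seg_add s 0 b.length b'.length
    have e2 := red_seg_add s 0 b'.length b.length
    rw [show redSeg s 0 b.length = b from hs.2.1, zero_add] at e1
    rw [show redSeg s 0 b'.length = b' from hs'.2.1, zero_add, add_comm] at e2
    exact e1.symm.trans e2
  have h3 : P (StayAfter ℓ 0) = P (⋃ b, S b) := by
    refine measure_congr ?_
    filter_upwards [unb_of_stay hμ hP hN, regen hμ hP h] with s hs hr
    refine propext ⟨fun h0 => Set.mem_iUnion.2 (exists_blk h0 (hr (hs h0) 1)), fun hu => ?_⟩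
    obtain ⟨b, hb, h4, h5⟩ := Set.mem_iUnion.1 hu
    refine stayAfter_iff.2 fun n => Stay.pf (l := redSeg s 0 (n + b.length))
      ?_ ⟨_, red_seg_add s 0 n _⟩
    rw [add_comm, red_seg_add, show redSeg s 0 b.length = b from h4, zero_add]
    exact hb.2.1.stay.append (stayAfter_iff.1 h5 n)
  rw [meas_stay_zero hμ hP, h2] at h3
  simp only [h1, ENNReal.tsum_mul_right] at h3
  have h4 : al μ ℓ ≠ ⊤ := ne_top_of_le_ne_top ENNReal.one_ne_top al_le_one
  exact (ENNReal.mul_left_inj h h4).1 (by rw [← h3, one_mul])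

end Soft2Aux

theorem reg_of_al (hμ : Elliptic μ) (hP : IsAnnealed μ P) (hN : Nrm ℓ e) (h : al μ ℓ ≠ 0) :
    Reg μ ℓ := by
  refine ⟨h, sum_bw hμ hP hN h, fun ε hε => ?_, fun r => ?_⟩
  · obtain ⟨ρ, hρ⟩ := tsum_tail (ne_top_of_le_ne_top ENNReal.one_ne_top
      (L0w hμ (pf_first 0 fun y => dot ℓ y < 0))) List.length hε
    refine ⟨ρ + 1, by positivity, le_trans (ENNReal.tsum_le_tsum fun l => ?_) hρ⟩
    by_cases hl : Turn ℓ (ρ + 1) l
    · obtain ⟨y, hy, h2⟩ := hl.2.1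
      obtain ⟨a, r, rfl, -, rfl⟩ := (mem_dep_iff' _ _ _).1 hy
      have h3 := (le_abs_self _).trans (hN.abs_ht_le a)
      rw [zero_add, ← ht] at h2
      have h4 : ρ + 1 ≤ a.length := by exact_mod_cast h2.trans h3
      rw [if_pos hl, if_pos ⟨by simpa [ht] using hl.2.2, fun y hy => not_lt.2 (hl.1 y hy)⟩,
        ind_pos (by rw [List.length_append]; omega), mul_one]
    · rw [if_neg hl]
      exact zero_le
  · rw [← meas_stay_zero hμ hP]
    refine le_trans (measure_mono_ae (t := {s | s ∈ StayAfter ℓ 0 ∧ Unb ℓ s})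
      ((unb_of_stay hμ hP hN).mono fun s hs h0 => ⟨h0, hs h0⟩))
      (red_cover hμ hP [] (FPass ℓ r) _ (fun l hl => if_pos hl) _ fun s hs => ⟨rfl, ?_⟩)
    have hex : ∃ n, (r : ℝ) ≤ dot ℓ (pos s n) := (hs.2 r).imp fun n hn => hn.le
    refine ⟨Nat.find hex, fun y hy => ⟨stayAfter_iff.1 hs.1 _ y (dep_subset_ran _ _ hy), ?_⟩, ?_⟩
    · obtain ⟨i, hi, rfl⟩ := (mem_dep_seg _ _ _ _).1 hy
      simpa [red_pos_zero] using Nat.find_min hex hi
    · simpa [ht_seg, red_pos_zero] using Nat.find_spec hex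
theorem sign_union (hμ : Elliptic μ) (hP : IsAnnealed μ P) (hN : Nrm ℓ e) (h : al μ ℓ ≠ 0) :
    ∀ᵐ s ∂P, s ∈ Escape ℓ ∨ s ∈ Escape (-ℓ) := by
  filter_upwards [regen hμ hP h, slab hμ hP hN] with s hr hs
  by_cases hu : Unb ℓ s
  · refine Or.inl (Filter.tendsto_atTop_atTop.2 fun b => ?_)
    obtain ⟨n, hn⟩ := hu b
    obtain ⟨m, h1, h2, h3⟩ := hr hu (n + 1)
    exact ⟨m, fun k hk => (hn.trans (rec_seg.1 h2 n h1)).le.trans (h3 k hk)⟩
  · simp only [Unb, not_forall, not_exists, not_lt] at hu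
    exact Or.inr (hs hu)
theorem exists_nrm (h : ℓ ≠ 0) : ∃ (ℓ' : Fin d → ℝ) (e : St d), Nrm ℓ' e ∧
    Escape ℓ' = Escape ℓ := by
  obtain ⟨j, hj⟩ := Function.ne_iff.1 h
  obtain ⟨i, -, hi⟩ := Finset.exists_max_image Finset.univ (fun i => |ℓ i|) ⟨j, Finset.mem_univ _⟩
  have h0 : 0 < |ℓ i| := (abs_pos.2 hj).trans_le (hi j (Finset.mem_univ _))
  refine ⟨|ℓ i|⁻¹ • ℓ, (i, decide (0 ≤ ℓ i)), ⟨fun f => ?_, ?_⟩, ?_⟩
  · have : |dot ℓ (vec f)| ≤ |ℓ i| := by
      rw [dot_vec]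
      split_ifs
      · exact hi _ (Finset.mem_univ _)
      · rw [abs_neg]; exact hi _ (Finset.mem_univ _)
    rw [smul_dot, abs_mul, abs_inv, abs_abs, inv_mul_le_iff₀ h0, mul_one]
    exact this
  · rw [smul_dot, dot_vec, inv_mul_eq_one₀ h0.ne']
    by_cases h1 : 0 ≤ ℓ i
    · simp [h1, abs_of_nonneg h1]
    · simp [h1, abs_of_neg (not_le.1 h1)]
  · ext s
    simp only [Escape, Set.mem_setOf_eq, smul_dot]
    exact Filter.tendsto_const_mul_atTop_of_pos (inv_pos.2 h0)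

end Vale.Agent.P147F
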