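import Vale.Agent.P147F.Chain
import Vale.Agent.P147F.Haz
import Vale.Agent.P147F.Outer
import Vale.Agent.P147F.Base
import Vale.Agent.P147F.Soft2
import Vale.Agent.P147F.Exist

/-! The two escape events cannot both be possible. -/

namespace Vale.Agent.P147F

open MeasureTheory Vale.Agent.P147
open scoped ENNReal Classical

variable {d : ℕ} {μ : Measure (St d → ℝ)} [IsProbabilityMeasure μ] {ℓ : Fin d → ℝ} {e : St d}

lemma tsum_meet (x : V d) (g l : Pa d) :
    ∑' v : V d, ind (¬Disjoint (dep x g) (dep (v - disp l) l)) ≤ mt g l := by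
  rw [mt, ← (Equiv.subRight (x + disp l)).tsum_eq fun v => ind (¬Disjoint (ran 0 g) (ran v l))]
  refine ENNReal.tsum_le_tsum fun v => ind_mono fun h => ?_
  rw [Finset.not_disjoint_iff] at h ⊢
  obtain ⟨z, h1, h2⟩ := h
  rw [mem_dep_shift] at h1 h2
  refine ⟨_, dep_subset_ran _ _ h1, ?_⟩
  rw [mem_ran_shift]
  refine dep_subset_ran _ _ ?_
  rwa [show z - x - Equiv.subRight (x + disp l) v = z - (v - disp l) by
    rw [Equiv.subRight_apply]; abel]
lemma tsum_meet' (x : V d) (g l : Pa d) :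
    ∑' v : V d, ind (¬Disjoint (dep x g) (dep v l)) ≤ mt g l := by
  rw [← (Equiv.subRight (disp l)).tsum_eq]
  exact tsum_meet x g l
omit [IsProbabilityMeasure μ] in
theorem fluxXY {J : ℕ} {C : ℝ≥0∞} (h : FlOk μ ℓ J C) : FluxOk (legX μ ℓ) (legY μ ℓ) J C := by
  intro η ε Js h1 h2 h3 h4
  obtain ⟨n0, hn0⟩ := h η ε Js h1 h2 h3 h4
  refine ⟨n0, fun n hn D N N1 hD hxi => ?_⟩
  obtain ⟨CX, CY, k1, k2, k3⟩ := hn0 n hn D N N1 hD hxi
  refine ⟨fun s => CX s.reverse, CY, (Ex_reverse n fun s => ind (¬CX s)).trans_le k1, k2,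
    le_trans ?_ k3⟩
  rw [Fl_eq, LFl, ← E2_tsum, E2, E2, ← Ex_reverse (π := bw μ ℓ)]
  refine Ex_mono' fun s => Ex_mono' fun t => ?_
  simp only [ind_and, ENNReal.tsum_mul_left, sitesX, sitesY]
  exact mul_le_mul_right (mul_le_mul_right (tsum_meet' _ _ _) _) _
omit [IsProbabilityMeasure μ] in
theorem fluxYX {J : ℕ} {C : ℝ≥0∞} (h : FlOk μ (-ℓ) J C) : FluxOk (legY μ ℓ) (legX μ ℓ) J C := by
  intro η ε Js h1 h2 h3 h4
  obtain ⟨n0, hn0⟩ := h η ε Js h1 h2 h3 h4
  refine ⟨n0, fun n hn D N N1 hD hxi => ?_⟩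
  obtain ⟨CX, CY, k1, k2, k3⟩ := hn0 n hn (D.image fun z => -z) N N1
    (Finset.card_image_le.trans hD) (by
      refine le_trans (le_of_eq ?_) hxi
      simp only [xi, legX, neg_neg, tot_neg]
      congr 1
      refine Finset.sum_congr rfl fun i _ => congrArg _ (funext fun l => ind_congr ?_)
      simp only [Finset.mem_image, neg_eq_iff_eq_neg, exists_eq_right])
  rw [Fl_eq] at k3
  rw [neg_neg] at k2 k3
  refine ⟨CX, fun s => CY s.reverse, k1, (Ex_reverse n fun s => ind (¬CY s)).trans_le k2,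
    le_trans ?_ k3⟩
  rw [LFl, ← E2_tsum, E2, E2]
  refine Ex_mono' fun s => ?_
  rw [← Ex_reverse (π := bw μ ℓ)]
  refine Ex_mono' fun t => ?_
  simp only [ind_and, ENNReal.tsum_mul_left, sitesX, sitesY]
  exact mul_le_mul_right (mul_le_mul_right (tsum_meet _ _ _) _) _
theorem core (hd : 3 ≤ d) (hμ : Elliptic μ) (hN : Nrm ℓ e) (hX : Reg μ ℓ) (hY : Reg μ (-ℓ)) :
    False := by
  obtain ⟨J1, C1, c1, h1⟩ := flOk hd hμ hN hX hY
  obtain ⟨J2, C2, c2, h2⟩ := flOk hd hμ hN.opp hY (by rwa [neg_neg])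
  have a1 : al μ (-ℓ) ≠ ⊤ := ne_top_of_le_ne_top (by simp) al_le_one
  obtain ⟨M, K, h⟩ := outer (legX_ok hμ hN hX) (legY_ok hμ hN hY) (by simp [c1, c2])
    (hazOk hX.sum hY.sum (fluxXY h1) (fluxYX h2)) (baseOk (by omega) hμ hN)
    (A := 2 * (al μ (-ℓ))⁻¹) (ENNReal.mul_ne_top (by simp) (ENNReal.inv_ne_top.2 hY.al_ne))
  have h3 := (mul_le_mul_right (h.trans ?_) (al μ (-ℓ))).trans (turn_le hμ M K)
  · rw [mul_left_comm, ENNReal.mul_inv_cancel hY.al_ne a1] at h3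
    simp at h3
  refine le_trans (le_of_eq (by rw [Finset.card_range, nsmul_eq_mul]))
    (Finset.card_nsmul_le_sum (Finset.range M) _ _ fun m hm => ?_)
  rw [E2, E2, ← Ex_reverse (π := bw μ ℓ) m,
    ← Ex_take hX.sum (Finset.mem_range.1 hm).le]
  refine Ex_mono fun s _ hs => Ex_mono' fun t => ind_mono fun ⟨k1, k2⟩ => ⟨?_, ?_⟩
  · rw [← List.take_append_drop m s, Leg.sites_append, Finset.disjoint_union_left, sitesX,
      sitesY] at k1
    refine Finset.disjoint_left.2 fun z h1 h2 => Finset.disjoint_left.1 k1.1 ?_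
      ((mem_dep_shift _ _ _).1 h2)
    rw [mem_dep_shift]
    simpa using h1
  · have k3 := ht_take_mono (sup_bw hs) (le_max_left m s.length)
    rw [List.take_of_length_le (le_max_right _ _)] at k3
    simp only [legX, legY, tot_neg, neg_dot, dot_neg, neg_neg, tot_disp] at k2
    rw [ht, ← tot_disp, tot_reverse, tot_disp]
    unfold ht at k3 ⊢
    linarith
theorem zero_one (hd : 3 ≤ d) (hμ : Elliptic μ) {P : Measure (ℕ → St d)} (hP : IsAnnealed μ P)
    (hℓ : ℓ ≠ 0) : P (Escape ℓ) = 0 ∨ P (Escape ℓ) = 1 := by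
  obtain ⟨ℓ', e, hN, h⟩ := exists_nrm hℓ
  rw [← h]
  have := hP.1
  by_contra hc
  rw [not_or] at hc
  have h1 := al_ne_zero hμ hP hc.1
  have h2 : P (Escape (-ℓ')) ≠ 0 := fun h0 => hc.2 (le_antisymm prob_le_one (by
    calc 1 = P Set.univ := measure_univ.symm
      _ ≤ P (Escape ℓ' ∪ Escape (-ℓ')) :=
        measure_mono_ae ((sign_union hμ hP hN h1).mono fun s hs _ => hs)
      _ ≤ P (Escape ℓ') + P (Escape (-ℓ')) := measure_union_le _ _
      _ = _ := by rw [h0, add_zero]))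
  exact core hd hμ hN (reg_of_al hμ hP hN h1) (reg_of_al hμ hP hN.opp (al_ne_zero hμ hP h2))

end Vale.Agent.P147F
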