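import Vale.Agent.P147.Red

/-! Definitions for the proof of the directional zero-one law. -/

namespace Vale.Agent.P147F

open MeasureTheory Vale.Agent.P147
open scoped ENNReal Classical

section generic
variable {B : Type*}

/-- indicator of a proposition -/
noncomputable def ind (p : Prop) : ℝ≥0∞ := if p then 1 else 0

/-- expectation over a list of `k` independent letters of weight `π` -/
noncomputable def Ex (π : B → ℝ≥0∞) : ℕ → (List B → ℝ≥0∞) → ℝ≥0∞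
  | 0, F => F []
  | k + 1, F => ∑' b, π b * Ex π k fun l => F (b :: l)

/-- two independent lists -/
noncomputable def E2 {C : Type*} (π : B → ℝ≥0∞) (σ : C → ℝ≥0∞) (k m : ℕ)
    (F : List B → List C → ℝ≥0∞) : ℝ≥0∞ := Ex π k fun l => Ex σ m fun t => F l t

/-- product weight of a list -/
noncomputable def wt (π : B → ℝ≥0∞) (l : List B) : ℝ≥0∞ := (l.map π).prod

/-- weight of segments of `n` letters -/
noncomputable def pw (π : B → ℝ≥0∞) (n : ℕ) (l : List B) : ℝ≥0∞ :=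
  if l.length = n then wt π l else 0

/-- all letters have positive weight -/
def Sup (π : B → ℝ≥0∞) (l : List B) : Prop := ∀ b ∈ l, π b ≠ 0

/-- `a` is an initial segment of `l` -/
def Pf (a l : List B) : Prop := ∃ r, l = a ++ r

/-- weak law of large numbers for `f` with mean `m` -/
def WL (π : B → ℝ≥0∞) (f : B → ℝ) (m : ℝ) : Prop :=
  ∀ δ : ℝ, 0 < δ → ∃ k0 : ℕ, ∀ k, k0 ≤ k →
    Ex π k (fun l => ind (δ * k < |(l.map f).sum - k * m|)) ≤ ENNReal.ofReal δ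

end generic

variable {d : ℕ}

/-- the opposite step -/
def opp (e : St d) : St d := (e.1, !e.2)

/-- normalised direction: every step changes the level by at most one, `e` by exactly one -/
def Nrm (ℓ : Fin d → ℝ) (e : St d) : Prop := (∀ f : St d, |dot ℓ (vec f)| ≤ 1) ∧ dot ℓ (vec e) = 1

/-- all sites of a path, the end point included -/
def ran (x : V d) (l : Pa d) : Finset (V d) := insert (x + disp l) (dep x l)

/-- height gained -/
def ht (ℓ : Fin d → ℝ) (l : Pa d) : ℝ := dot ℓ (disp l)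

def Stay (ℓ : Fin d → ℝ) (l : Pa d) : Prop := ∀ y ∈ ran 0 l, 0 ≤ dot ℓ y

/-- the end point is a strict record -/
def Rec (ℓ : Fin d → ℝ) (l : Pa d) : Prop := ∀ y ∈ dep 0 l, dot ℓ y < ht ℓ l

def Bridge (ℓ : Fin d → ℝ) (l : Pa d) : Prop := ∀ y ∈ dep 0 l, 0 ≤ dot ℓ y ∧ dot ℓ y < ht ℓ l

/-- irreducible bridge -/
def Blk (ℓ : Fin d → ℝ) (l : Pa d) : Prop :=
  l ≠ [] ∧ Bridge ℓ l ∧ ∀ a b, l = a ++ b → a ≠ [] → b ≠ [] → ¬(Bridge ℓ a ∧ Bridge ℓ b)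

/-- the law of a regeneration block -/
noncomputable def bw (μ : Measure (St d → ℝ)) (ℓ : Fin d → ℝ) (l : Pa d) : ℝ≥0∞ :=
  if Blk ℓ l then w μ l else 0

/-- probability of never going below the starting level -/
noncomputable def al (μ : Measure (St d → ℝ)) (ℓ : Fin d → ℝ) : ℝ≥0∞ :=
  ⨅ n : ℕ, ∑' l, if l.length = n ∧ Stay ℓ l then w μ l else 0

/-- the path reaches level `u` and is stopped when it first goes below level zero -/
def Turn (ℓ : Fin d → ℝ) (u : ℝ) (l : Pa d) : Prop :=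
  (∀ y ∈ dep 0 l, 0 ≤ dot ℓ y) ∧ (∃ y ∈ dep 0 l, u ≤ dot ℓ y) ∧ ht ℓ l < 0

noncomputable def be (μ : Measure (St d → ℝ)) (ℓ : Fin d → ℝ) (u : ℝ) : ℝ≥0∞ :=
  ∑' l, if Turn ℓ u l then w μ l else 0

/-- first passage over level `r` without going below zero -/
def FPass (ℓ : Fin d → ℝ) (r : ℕ) (l : Pa d) : Prop :=
  (∀ y ∈ dep 0 l, 0 ≤ dot ℓ y ∧ dot ℓ y < r) ∧ (r : ℝ) ≤ ht ℓ l

/-- the regeneration structure in direction `ℓ` -/
structure Reg (μ : Measure (St d → ℝ)) (ℓ : Fin d → ℝ) : Prop where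
  al_ne : al μ ℓ ≠ 0
  sum : ∑' l, bw μ ℓ l = 1
  be_le : ∀ ε : ℝ≥0∞, ε ≠ 0 → ∃ u : ℝ, 0 ≤ u ∧ be μ ℓ u ≤ ε
  fp : ∀ r : ℕ, al μ ℓ ≤ ∑' l, if FPass ℓ r l then w μ l else 0

/-- the cylinder of a finite path -/
def cyl (l : Pa d) : Set (ℕ → St d) := {s | redSeg s 0 l.length = l}

/-- the walk never goes below its level at time `n` after time `n` -/
def StayAfter (ℓ : Fin d → ℝ) (n : ℕ) : Set (ℕ → St d) :=
  {s | ∀ m, n ≤ m → dot ℓ (pos s n) ≤ dot ℓ (pos s m)}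

/-! ### classes of segments -/

/-- mass of the segments of class `C` whose path extends `a` -/
noncomputable def conf (π : Pa d → ℝ≥0∞) (n : ℕ) (C : List (Pa d) → Prop) (a : Pa d) : ℝ≥0∞ :=
  Ex π n fun s => ind (C s ∧ Pf a s.flatten)

/-- segments of `C` along which the confidence in `C` never drops below `θ` -/
def prune (μ : Measure (St d → ℝ)) (ℓ : Fin d → ℝ) (n : ℕ) (θ : ℝ≥0∞) (C : List (Pa d) → Prop)
    (s : List (Pa d)) : Prop :=
  C s ∧ ∀ a, Pf a s.flatten → θ * w μ a ≤ conf (bw μ ℓ) n C a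

/-- `k` segments of `n` blocks, all in the class `C` -/
def Segs (ℓ : Fin d → ℝ) (n k : ℕ) (C : List (Pa d) → Prop) (ss : List (List (Pa d))) : Prop :=
  ss.length = k ∧ ∀ s ∈ ss, s.length = n ∧ (∀ b ∈ s, Blk ℓ b) ∧ C s

/-- initial segments of concatenations of `k` segments of class `C` -/
def Pre (ℓ : Fin d → ℝ) (n k : ℕ) (C : List (Pa d) → Prop) (a : Pa d) : Prop :=
  ∃ ss, Segs ℓ n k C ss ∧ Pf a ss.flatten.flatten

/-- heights between `lo` and `hi`, duration at most `T` -/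
def Cap (ℓ : Fin d → ℝ) (lo hi : ℝ) (T : ℕ) (C : List (Pa d) → Prop) : Prop :=
  ∀ s, C s → lo ≤ ht ℓ s.flatten ∧ ht ℓ s.flatten ≤ hi ∧ s.flatten.length ≤ T

/-- the flux: expected number of offsets at which an up segment meets a down segment -/
noncomputable def Fl (μ : Measure (St d → ℝ)) (ℓ : Fin d → ℝ) (n : ℕ)
    (CX CY : List (Pa d) → Prop) : ℝ≥0∞ :=
  ∑' v : V d, E2 (bw μ ℓ) (bw μ (-ℓ)) n n fun s t =>
    ind (CX s ∧ CY t ∧ ¬Disjoint (ran 0 s.flatten) (ran v t.flatten))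

/-- first passage below level `-j` for a path started at `x` -/
def FPj (ℓ : Fin d → ℝ) (j : ℕ) (x : V d) (a : Pa d) : Prop :=
  dot ℓ (x + disp a) ≤ -(j : ℝ) ∧ ∀ z ∈ dep x a, -(j : ℝ) < dot ℓ z

/-- the data of the target event of the down walk -/
structure Tg (d : ℕ) where
  j0 : ℕ
  L : ℕ
  D : Finset (V d)
  κ : ℕ

/-- number of levels `-j` whose first passage point lies in `y + D` -/
noncomputable def cnt (ℓ : Fin d → ℝ) (τ : Tg d) (y x : V d) (l : Pa d) : ℕ :=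
  ((Finset.Ioc τ.j0 τ.L).filter fun j =>
    ∃ a, Pf a l ∧ FPj ℓ j x a ∧ x + disp a - y ∈ τ.D).card

/-- its quenched expectation -/
noncomputable def rho (ω : V d → St d → ℝ) (ℓ : Fin d → ℝ) (τ : Tg d) (y x : V d) : ℝ≥0∞ :=
  ∑ j ∈ Finset.Ioc τ.j0 τ.L, ∑' p, if FPj ℓ j x p ∧ x + disp p - y ∈ τ.D then q ω x p else 0

/-- the path from `y` is stopped when the count first reaches `κ` -/
def FirstE (ℓ : Fin d → ℝ) (τ : Tg d) (y : V d) (m : Pa d) : Prop :=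
  τ.κ ≤ cnt ℓ τ y y m ∧ ∀ a r, m = a ++ r → τ.κ ≤ cnt ℓ τ y y a → r = []

/-- the path from `y` visits a site visited by `g` before `g` reaches level `u` -/
def Bot (ℓ : Fin d → ℝ) (u : ℝ) (g : Pa d) (y : V d) (l : Pa d) : Prop :=
  ∃ a, Pf a g ∧ (∀ x ∈ ran 0 a, dot ℓ x < u) ∧ disp a ∈ ran y l

def UEv (ℓ : Fin d → ℝ) (u : ℝ) (τ : Tg d) (y : V d) (g l : Pa d) : Prop :=
  ¬Disjoint (ran 0 g) (ran y l) ∧ ¬Bot ℓ u g y l ∧ τ.κ ≤ cnt ℓ τ y y l

/-- flux of the long up and down trips -/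
noncomputable def UU (μ : Measure (St d → ℝ)) (ℓ : Fin d → ℝ) (u : ℝ) (τ : Tg d) (n I J : ℕ)
    (CX CY : List (Pa d) → Prop) : ℝ≥0∞ :=
  ∑' y : V d, E2 (pw (bw μ ℓ) n) (pw (bw μ (-ℓ)) n) I J fun ss ts =>
    ind ((∀ s ∈ ss, CX s) ∧ (∀ t ∈ ts, CY t) ∧
      UEv ℓ u τ y ss.flatten.flatten ts.flatten.flatten)

def Reach (ℓ : Fin d → ℝ) (u : ℝ) (a : Pa d) : Prop := ∃ x ∈ ran 0 a, u ≤ dot ℓ x

/-- launch configuration: `a` is the up path until its earliest site visited by `m` -/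
def C1 (ℓ : Fin d → ℝ) (u : ℝ) (τ : Tg d) (PX PY : Pa d → Prop) (y : V d) (a m : Pa d) : Prop :=
  PX a ∧ Reach ℓ u a ∧ disp a ∈ ran y m ∧ Disjoint (dep 0 a) (ran y m) ∧ PY m ∧ FirstE ℓ τ y m

/-- minimal paths outside `PX` -/
def MinNot (PX : Pa d → Prop) (a : Pa d) : Prop := ¬PX a ∧ ∀ b r, a = b ++ r → r ≠ [] → PX b

/-- `b` is the down path until it first hits the departure sites of `a` -/
def FH (ℓ : Fin d → ℝ) (u : ℝ) (PY : Pa d → Prop) (y : V d) (a b : Pa d) : Prop :=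
  PY b ∧ Disjoint (dep 0 a) (dep y b) ∧
    ∃ c r, a = c ++ r ∧ r ≠ [] ∧ Reach ℓ u c ∧ disp c = y + disp b

/-- the first time at which `R` holds -/
def First (R : Pa d → Prop) (a : Pa d) : Prop := R a ∧ ∀ b r, a = b ++ r → R b → r = []

/-- initial segments at whose end the quenched expected count is at least `c` -/
def Rr (ω : V d → St d → ℝ) (ℓ : Fin d → ℝ) (u : ℝ) (τ : Tg d) (PX : Pa d → Prop) (c : ℝ≥0∞)
    (y : V d) (a : Pa d) : Prop := PX a ∧ Reach ℓ u a ∧ c ≤ rho ω ℓ τ y (disp a)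

/-- stochastic environment -/
def Sto (ω : V d → St d → ℝ) : Prop := ∀ x, ∑ e, ENNReal.ofReal (ω x e) = 1

/-- the properties of the two families of initial segments used in the quenched estimates -/
structure PreOk (ℓ : Fin d → ℝ) (j0 N : ℕ) (PX PY : Pa d → Prop) : Prop where
  clX : ∀ a r, PX (a ++ r) → PX a
  clY : ∀ a r, PY (a ++ r) → PY a
  len : ∀ a, PX a → a.length ≤ N
  stay : ∀ a, PX a → Stay ℓ a
  low : ∀ y b, PY b → 0 ≤ dot ℓ (y + disp b) → ∀ z ∈ ran y b, -(j0 : ℝ) ≤ dot ℓ z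

/-! ### abstract legs -/

structure Leg (d : ℕ) where
  π : Pa d → ℝ≥0∞
  a : Pa d → V d
  S : Pa d → Finset (V d)

def tot (a : Pa d → V d) (l : List (Pa d)) : V d := (l.map a).sum

def Leg.sites (X : Leg d) : V d → List (Pa d) → Finset (V d)
  | _, [] => ∅
  | x, b :: l => (X.S b).image (fun z => x + z) ∪ X.sites (x + X.a b) l

/-- displacement after a uniform number in `[M, M + r)` of blocks -/
noncomputable def xi (π : Pa d → ℝ≥0∞) (a : Pa d → V d) (M r : ℕ) (F : V d → ℝ≥0∞) : ℝ≥0∞ :=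
  (r : ℝ≥0∞)⁻¹ * ∑ i ∈ Finset.range r, Ex π (M + i) fun l => F (tot a l)

/-- depth is `dot ℓ`, mean depth of a block is `m` -/
structure Leg.Ok (X : Leg d) (ℓ : Fin d → ℝ) (m : ℝ) : Prop where
  sum : ∑' b, X.π b = 1
  pos : 0 < m
  nn : ∀ b, X.π b ≠ 0 → 0 ≤ dot ℓ (X.a b)
  site : ∀ b, X.π b ≠ 0 → ∀ z ∈ X.S b, 0 ≤ dot ℓ z ∧ dot ℓ z ≤ dot ℓ (X.a b)
  wl : WL X.π (fun b => dot ℓ (X.a b)) m

noncomputable def LFl (X Y : Leg d) (n : ℕ) (CX CY : List (Pa d) → Prop) : ℝ≥0∞ :=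
  ∑' v : V d, E2 X.π Y.π n n fun s t =>
    ind (CX s ∧ CY t ∧ ¬Disjoint (X.sites 0 s) (Y.sites v t))

/-- the flux through segments of `Y` with typical displacement is small -/
def FluxOk (X Y : Leg d) (J : ℕ) (C : ℝ≥0∞) : Prop :=
  ∀ (η ε : ℝ≥0∞) (Js : ℕ), η ≠ 0 → C * η ≤ 1 → ε ≠ 0 → 1 ≤ Js → ∃ n0 : ℕ, ∀ n, n0 ≤ n →
    ∀ (D : Finset (V d)) (N : ℕ), 1 ≤ N → D.card ≤ N →
      xi Y.π Y.a (J * n) (n / (2 * Js)) (fun z => ind (z ∉ D)) ≤ η →
      ∃ CX CY : List (Pa d) → Prop, Ex X.π n (fun s => ind (¬CX s)) ≤ ε ∧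
        Ex Y.π n (fun t => ind (¬CY t)) ≤ C * η + ε ∧ LFl X Y n CX CY ≤ ε * N

/-- the hazard of one pair of windows -/
def HazOk (X Y : Leg d) (J : ℕ) (C : ℝ≥0∞) : Prop :=
  ∀ (η ε : ℝ≥0∞) (Js : ℕ), η ≠ 0 → η < 1 → C * η ≤ 1 → ε ≠ 0 → 1 ≤ Js → ∃ n0 : ℕ, ∀ n, n0 ≤ n →
    ∀ (x y : V d) (gX gY wX wY : ℕ), Js * J * n ≤ gX → Js * J * n ≤ gY → 2 * wX ≤ n →
      2 * wY ≤ n → E2 X.π Y.π gX gY (fun p p' => E2 X.π Y.π wX wY fun s t =>
        ind (¬Disjoint (X.sites (x + tot X.a p) s) (Y.sites (y + tot Y.a p') t))) ≤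
        2 * (1 - η) ^ Js + (C * η) ^ 2 + ε

/-- an initial configuration which separates the two legs -/
def BaseOk (X Y : Leg d) (ℓ : Fin d → ℝ) : Prop :=
  ∀ ρ : ℕ, ∃ p p' : List (Pa d), Sup X.π p ∧ Sup Y.π p' ∧
    |dot ℓ (tot X.a p) - dot ℓ (tot Y.a p')| ≤ 1 ∧ ∀ s t, Sup X.π s → Sup Y.π t →
      (∀ z ∈ X.sites 0 s, ∀ i, |z i| ≤ ρ) → (∀ z ∈ Y.sites 0 t, ∀ i, |z i| ≤ ρ) →
      Disjoint (X.sites 0 (p ++ s)) (Y.sites 0 (p' ++ t))

/-- up blocks read backwards from the tip -/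
noncomputable def legX (μ : Measure (St d → ℝ)) (ℓ : Fin d → ℝ) : Leg d :=
  ⟨bw μ ℓ, fun b => -disp b, fun b => dep (-disp b) b⟩

/-- down blocks read forwards from the tip -/
noncomputable def legY (μ : Measure (St d → ℝ)) (ℓ : Fin d → ℝ) : Leg d :=
  ⟨bw μ (-ℓ), disp, dep 0⟩

/-- concrete form of the flux bound -/
def FlOk (μ : Measure (St d → ℝ)) (ℓ : Fin d → ℝ) (J : ℕ) (C : ℝ≥0∞) : Prop :=
  ∀ (η ε : ℝ≥0∞) (Js : ℕ), η ≠ 0 → C * η ≤ 1 → ε ≠ 0 → 1 ≤ Js → ∃ n0 : ℕ, ∀ n, n0 ≤ n →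
    ∀ (D : Finset (V d)) (N : ℕ), 1 ≤ N → D.card ≤ N →
      xi (bw μ (-ℓ)) disp (J * n) (n / (2 * Js)) (fun z => ind (z ∉ D)) ≤ η →
      ∃ CX CY : List (Pa d) → Prop, Ex (bw μ ℓ) n (fun s => ind (¬CX s)) ≤ ε ∧
        Ex (bw μ (-ℓ)) n (fun t => ind (¬CY t)) ≤ C * η + ε ∧ Fl μ ℓ n CX CY ≤ ε * N

/-- first segments after which the trip is likely to have typical displacements -/
def Good (π : Pa d → ℝ≥0∞) (n J r : ℕ) (c : ℝ) (D : Finset (V d)) (t : List (Pa d)) : Prop :=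
  Ex π (J * n) (fun cs => ind (c * r < (((Finset.range r).filter fun i =>
    tot disp ((t ++ cs).take (J * n + i)) ∉ D).card : ℝ))) ≤ 4⁻¹

/-- mean height of a block -/
noncomputable def mh (μ : Measure (St d → ℝ)) (ℓ : Fin d → ℝ) : ℝ :=
  (∑' b, bw μ ℓ b * ENNReal.ofReal (ht ℓ b)).toReal

/-- real indicator of a given block -/
noncomputable def isB (b0 b : Pa d) : ℝ := if b = b0 then 1 else 0

end Vale.Agent.P147F
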