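import Vale.Agent.P147F.Defs

/-! Expectations over lists of independent letters. -/

namespace Vale.Agent.P147F

open scoped ENNReal Classical

variable {B C : Type*} {π : B → ℝ≥0∞} {σ : C → ℝ≥0∞}

lemma ind_pos {p : Prop} (h : p) : ind p = 1 := if_pos h
lemma ind_neg {p : Prop} (h : ¬p) : ind p = 0 := if_neg h
@[simp] lemma ind_true : ind True = 1 := ind_pos trivial
@[simp] lemma ind_false : ind False = 0 := ind_neg id
lemma ind_le_one (p : Prop) : ind p ≤ 1 := by unfold ind; split_ifs <;> simp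
lemma ind_mono {p r : Prop} (h : p → r) : ind p ≤ ind r := by
  by_cases hp : p
  · rw [ind_pos hp, ind_pos (h hp)]
  · rw [ind_neg hp]; exact zero_le
lemma ind_congr {p r : Prop} (h : p ↔ r) : ind p = ind r := by rw [propext h]
lemma ind_le {p : Prop} {c : ℝ≥0∞} (h : p → 1 ≤ c) : ind p ≤ c := by
  by_cases hp : p
  · rw [ind_pos hp]; exact h hp
  · rw [ind_neg hp]; exact zero_le
lemma ind_and (p r : Prop) : ind (p ∧ r) = ind p * ind r := by
  by_cases hp : p <;> by_cases hr : r <;> simp [ind, hp, hr]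
lemma ind_or_le (p r : Prop) : ind (p ∨ r) ≤ ind p + ind r := by
  by_cases hp : p <;> by_cases hr : r <;> simp [ind, hp, hr]
lemma ind_le_add {p r t : Prop} (h : p → r ∨ t) : ind p ≤ ind r + ind t :=
  (ind_mono h).trans (ind_or_le _ _)
lemma ind_add_not (p : Prop) : ind p + ind (¬p) = 1 := by
  by_cases hp : p <;> simp [ind, hp]
lemma ind_mul (p : Prop) (c : ℝ≥0∞) : ind p * c = if p then c else 0 := by
  by_cases hp : p <;> simp [ind, hp]
lemma ind_mul_le {p : Prop} {c c' : ℝ≥0∞} (h : p → c ≤ c') : ind p * c ≤ c' := by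
  by_cases hp : p
  · rw [ind_pos hp, one_mul]; exact h hp
  · rw [ind_neg hp, zero_mul]; exact zero_le
lemma ind_exists_le_tsum {ι : Type*} (p : ι → Prop) : ind (∃ i, p i) ≤ ∑' i, ind (p i) :=
  ind_le fun ⟨i, hi⟩ => (ind_pos hi).symm.le.trans (ENNReal.le_tsum i)
lemma ind_exists_le_sum {ι : Type*} (s : Finset ι) (p : ι → Prop) :
    ind (∃ i ∈ s, p i) ≤ ∑ i ∈ s, ind (p i) :=
  ind_le fun ⟨_, hs, hi⟩ => (ind_pos hi).symm.le.trans
    (Finset.single_le_sum (f := fun i => ind (p i)) (fun _ _ => zero_le) hs)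
/-- at most one index satisfies `p` -/
lemma tsum_ind_le {ι : Type*} {p : ι → Prop} (h : ∀ i j, p i → p j → i = j) :
    ∑' i, ind (p i) ≤ ind (∃ i, p i) := by
  by_cases he : ∃ i, p i
  · obtain ⟨i, hi⟩ := he
    rw [tsum_eq_single i fun j hj => ind_neg fun hp => hj (h _ _ hp hi)]
    exact ind_mono fun _ => ⟨i, hi⟩
  · rw [ENNReal.tsum_eq_zero.2 fun i => ind_neg fun hi => he ⟨i, hi⟩]; exact zero_le

lemma tsum_ind_eq {ι : Type*} (a : ι) (f : ι → ℝ≥0∞) : ∑' i, ind (i = a) * f i = f a := by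
  rw [tsum_eq_single a fun j hj => by rw [ind_neg hj, zero_mul], ind_pos rfl, one_mul]
/-- summation along a map which is injective on `A` -/
lemma tsum_ind_inj {ι κ : Type*} (A : ι → Prop) (g : ι → κ)
    (hinj : ∀ i j, A i → A j → g i = g j → i = j) (f : κ → ℝ≥0∞) :
    ∑' i, ind (A i) * f (g i) ≤ ∑' k, ind (∃ i, A i ∧ g i = k) * f k := by
  calc _ = ∑' i, ∑' k, ind (A i ∧ g i = k) * f k := by
        refine tsum_congr fun i => ?_
        rw [← tsum_ind_eq (g i) fun k => ind (A i) * f k]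
        refine tsum_congr fun k => ?_
        rw [ind_and, ind_congr (eq_comm (a := g i)), mul_left_comm, mul_assoc]
    _ ≤ _ := by
        rw [ENNReal.tsum_comm]
        refine ENNReal.tsum_le_tsum fun k => ?_
        rw [ENNReal.tsum_mul_right]
        exact mul_le_mul_left (tsum_ind_le fun i j hi hj =>
          hinj i j hi.1 hj.1 (hi.2.trans hj.2.symm)) _
lemma tsum_ind_mono {ι : Type*} {p r : ι → Prop} (h : ∀ i, p i → r i) (f : ι → ℝ≥0∞) :
    ∑' i, ind (p i) * f i ≤ ∑' i, ind (r i) * f i :=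
  ENNReal.tsum_le_tsum fun i => mul_le_mul_left (ind_mono (h i)) _

@[simp] lemma Ex_zero (F : List B → ℝ≥0∞) : Ex π 0 F = F [] := rfl
lemma Ex_succ (k : ℕ) (F : List B → ℝ≥0∞) :
    Ex π (k + 1) F = ∑' b, π b * Ex π k fun l => F (b :: l) := rfl
lemma Ex_one (F : List B → ℝ≥0∞) : Ex π 1 F = ∑' b, π b * F [b] := rfl

@[simp] lemma wt_nil : wt π [] = 1 := rfl
@[simp] lemma wt_cons (b : B) (l : List B) : wt π (b :: l) = π b * wt π l := by simp [wt]
lemma wt_append (l t : List B) : wt π (l ++ t) = wt π l * wt π t := by simp [wt]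
lemma wt_reverse (l : List B) : wt π l.reverse = wt π l := by
  simp [wt, List.map_reverse, List.prod_reverse]
lemma sup_nil : Sup π [] := fun _ h => by simp at h
lemma sup_cons {b : B} {l : List B} : Sup π (b :: l) ↔ π b ≠ 0 ∧ Sup π l := by simp [Sup]
lemma sup_append {l t : List B} : Sup π (l ++ t) ↔ Sup π l ∧ Sup π t := by
  simp [Sup, or_imp, forall_and]
lemma Sup.take {l : List B} (h : Sup π l) (k : ℕ) : Sup π (l.take k) :=
  fun b hb => h b (List.mem_of_mem_take hb)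
lemma Sup.drop {l : List B} (h : Sup π l) (k : ℕ) : Sup π (l.drop k) :=
  fun b hb => h b (List.mem_of_mem_drop hb)
lemma wt_ne_zero {l : List B} : wt π l ≠ 0 ↔ Sup π l := by
  induction l with
  | nil => simp [sup_nil]
  | cons b l ih => rw [wt_cons, mul_ne_zero_iff, ih, sup_cons]
lemma pw_ne_zero {n : ℕ} {l : List B} : pw π n l ≠ 0 ↔ l.length = n ∧ Sup π l := by
  unfold pw; split_ifs with h
  · simp [h, wt_ne_zero]
  · simp [h]

lemma tsum_list (f : List B → ℝ≥0∞) : ∑' l, f l = f [] + ∑' b, ∑' l, f (b :: l) := by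
  have hinj : Function.Injective fun p : B × List B => p.1 :: p.2 := fun p p' h => by
    simp only [List.cons.injEq] at h; exact Prod.ext h.1 h.2
  rw [ENNReal.tsum_eq_add_tsum_ite [], ← ENNReal.tsum_prod (f := fun e l => f (e :: l))]
  congr 1
  refine (hinj.tsum_eq ?_).symm.trans (tsum_congr fun p => by simp)
  intro l hl
  cases l with
  | nil => simp at hl
  | cons e l => exact ⟨(e, l), rfl⟩

lemma Ex_eq_tsum (k : ℕ) (F : List B → ℝ≥0∞) : Ex π k F = ∑' l, pw π k l * F l := by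
  induction k generalizing F with
  | zero => rw [tsum_list]; simp [pw]
  | succ k ih =>
    rw [tsum_list, Ex_succ]
    have : pw π (k + 1) ([] : List B) = 0 := by simp [pw]
    rw [this, zero_mul, zero_add]
    refine tsum_congr fun b => ?_
    rw [ih, ← ENNReal.tsum_mul_left]
    refine tsum_congr fun l => ?_
    by_cases h : l.length = k <;> simp [pw, h, mul_assoc]

lemma Ex_mono {k : ℕ} {F G : List B → ℝ≥0∞} (h : ∀ l, l.length = k → Sup π l → F l ≤ G l) :
    Ex π k F ≤ Ex π k G := by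
  rw [Ex_eq_tsum, Ex_eq_tsum]
  refine ENNReal.tsum_le_tsum fun l => ?_
  by_cases h0 : pw π k l = 0
  · simp [h0]
  · exact mul_le_mul_right (h l (pw_ne_zero.1 h0).1 (pw_ne_zero.1 h0).2) _
lemma Ex_mono' {k : ℕ} {F G : List B → ℝ≥0∞} (h : ∀ l, F l ≤ G l) : Ex π k F ≤ Ex π k G :=
  Ex_mono fun l _ _ => h l
lemma Ex_congr {k : ℕ} {F G : List B → ℝ≥0∞} (h : ∀ l, l.length = k → Sup π l → F l = G l) :
    Ex π k F = Ex π k G :=
  le_antisymm (Ex_mono fun l a b => (h l a b).le) (Ex_mono fun l a b => (h l a b).ge)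
lemma Ex_add (k : ℕ) (F G : List B → ℝ≥0∞) :
    Ex π k (fun l => F l + G l) = Ex π k F + Ex π k G := by
  simp only [Ex_eq_tsum, mul_add, ENNReal.tsum_add]
lemma Ex_mul_left (k : ℕ) (c : ℝ≥0∞) (F : List B → ℝ≥0∞) :
    Ex π k (fun l => c * F l) = c * Ex π k F := by
  simp only [Ex_eq_tsum, ← ENNReal.tsum_mul_left, mul_left_comm]
lemma Ex_mul_right (k : ℕ) (c : ℝ≥0∞) (F : List B → ℝ≥0∞) :
    Ex π k (fun l => F l * c) = Ex π k F * c := by
  simp only [Ex_eq_tsum, ← ENNReal.tsum_mul_right, mul_assoc]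
lemma Ex_tsum {ι : Type*} (k : ℕ) (F : ι → List B → ℝ≥0∞) :
    Ex π k (fun l => ∑' i, F i l) = ∑' i, Ex π k (F i) := by
  simp only [Ex_eq_tsum, ← ENNReal.tsum_mul_left]
  exact ENNReal.tsum_comm
lemma Ex_sum {ι : Type*} (s : Finset ι) (k : ℕ) (F : ι → List B → ℝ≥0∞) :
    Ex π k (fun l => ∑ i ∈ s, F i l) = ∑ i ∈ s, Ex π k (F i) := by
  simp only [Ex_eq_tsum, Finset.mul_sum]
  exact Summable.tsum_finsetSum fun _ _ => ENNReal.summable
@[simp] lemma Ex_zero_fun (k : ℕ) : Ex π k (fun _ => 0) = 0 := by simp [Ex_eq_tsum]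
lemma Ex_const (hπ : ∑' b, π b = 1) (k : ℕ) (c : ℝ≥0∞) : Ex π k (fun _ => c) = c := by
  induction k with
  | zero => rfl
  | succ k ih => rw [Ex_succ, ih, ENNReal.tsum_mul_right, hπ, one_mul]
lemma Ex_le (hπ : ∑' b, π b = 1) {k : ℕ} {F : List B → ℝ≥0∞} {c : ℝ≥0∞}
    (h : ∀ l, l.length = k → Sup π l → F l ≤ c) : Ex π k F ≤ c :=
  (Ex_mono h).trans (Ex_const hπ k c).le
lemma le_Ex (hπ : ∑' b, π b = 1) {k : ℕ} {F : List B → ℝ≥0∞} {c : ℝ≥0∞}
    (h : ∀ l, l.length = k → Sup π l → c ≤ F l) : c ≤ Ex π k F :=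
  (Ex_const hπ k c).ge.trans (Ex_mono h)
lemma Ex_ind_le_one (hπ : ∑' b, π b = 1) (k : ℕ) (p : List B → Prop) :
    Ex π k (fun l => ind (p l)) ≤ 1 := Ex_le hπ fun _ _ _ => ind_le_one _
lemma Ex_ind_add_not (hπ : ∑' b, π b = 1) (k : ℕ) (p : List B → Prop) :
    Ex π k (fun l => ind (p l)) + Ex π k (fun l => ind (¬p l)) = 1 := by
  rw [← Ex_add]; simp only [ind_add_not, Ex_const hπ]
lemma tsum_pw (hπ : ∑' b, π b = 1) (n : ℕ) : ∑' l, pw π n l = 1 := by
  simpa [Ex_eq_tsum] using Ex_const hπ n 1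
lemma Ex_append (k m : ℕ) (F : List B → ℝ≥0∞) :
    Ex π (k + m) F = Ex π k fun l => Ex π m fun t => F (l ++ t) := by
  induction k generalizing F with
  | zero => simp
  | succ k ih => rw [Nat.add_right_comm, Ex_succ, Ex_succ]; simp only [ih, List.cons_append]
lemma Ex_take (hπ : ∑' b, π b = 1) {k m : ℕ} (h : k ≤ m) (F : List B → ℝ≥0∞) :
    Ex π m (fun l => F (l.take k)) = Ex π k F := by
  obtain ⟨j, rfl⟩ := Nat.exists_eq_add_of_le h
  rw [Ex_append]
  refine Ex_congr fun l hl _ => ?_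
  simp only [← hl, List.take_left, Ex_const hπ]
lemma Ex_drop (hπ : ∑' b, π b = 1) (k m : ℕ) (F : List B → ℝ≥0∞) :
    Ex π (k + m) (fun l => F (l.drop k)) = Ex π m F := by
  rw [Ex_append, ← Ex_const hπ k (Ex π m F)]
  refine Ex_congr fun l hl _ => ?_
  simp only [← hl, List.drop_left]
/-- a function of the letters number `k, ..., k + m - 1` -/
lemma Ex_window (hπ : ∑' b, π b = 1) {k m N : ℕ} (h : k + m ≤ N) (F : List B → ℝ≥0∞) :
    Ex π N (fun l => F ((l.drop k).take m)) = Ex π m F := by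
  obtain ⟨j, rfl⟩ := Nat.exists_eq_add_of_le h
  rw [Nat.add_assoc, Ex_drop hπ k (m + j) fun l => F (l.take m), Ex_take hπ (Nat.le_add_right _ _)]
/-- splitting at `k`, keeping `m` further letters -/
lemma Ex_take_window (hπ : ∑' b, π b = 1) {k m N : ℕ} (h : k + m ≤ N)
    (F : List B → List B → ℝ≥0∞) :
    Ex π N (fun l => F (l.take k) ((l.drop k).take m)) = Ex π k fun p => Ex π m (F p) := by
  obtain ⟨j, rfl⟩ := Nat.exists_eq_add_of_le h
  rw [Nat.add_assoc, Ex_append]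
  refine Ex_congr fun l hl _ => ?_
  simp only [← hl, List.take_left, List.drop_left]
  exact Ex_take hπ (Nat.le_add_right _ _) _
lemma Ex_reverse (k : ℕ) (F : List B → ℝ≥0∞) : Ex π k (fun l => F l.reverse) = Ex π k F := by
  rw [Ex_eq_tsum, Ex_eq_tsum, ← (Function.Involutive.toPerm _ List.reverse_involutive).tsum_eq]
  refine tsum_congr fun l => ?_
  simp [pw, wt_reverse]
lemma Ex_comm (k m : ℕ) (F : List B → List C → ℝ≥0∞) :
    Ex π k (fun l => Ex σ m (F l)) = Ex σ m fun t => Ex π k fun l => F l t := by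
  simp only [Ex_eq_tsum, ← ENNReal.tsum_mul_left]
  rw [ENNReal.tsum_comm]
  simp only [mul_left_comm]
lemma Ex_pw (n k : ℕ) (F : List B → ℝ≥0∞) :
    Ex (pw π n) k (fun ss => F ss.flatten) = Ex π (k * n) F := by
  induction k generalizing F with
  | zero => simp
  | succ k ih =>
    rw [Ex_succ, Nat.succ_mul, Nat.add_comm, Ex_append, Ex_eq_tsum n]
    refine tsum_congr fun s => ?_
    simp only [List.flatten_cons]
    rw [ih fun l => F (s ++ l)]
lemma Ex_single (l : List B) (F : List B → ℝ≥0∞) : wt π l * F l ≤ Ex π l.length F := by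
  rw [Ex_eq_tsum]
  refine le_trans (le_of_eq ?_) (ENNReal.le_tsum l)
  simp [pw]
lemma Ex_exists_mem (hπ : ∑' b, π b = 1) (k : ℕ) (p : B → Prop) :
    Ex π k (fun l => ind (∃ b ∈ l, p b)) ≤ k * ∑' b, π b * ind (p b) := by
  induction k with
  | zero => simp
  | succ k ih =>
    rw [Ex_succ, Nat.cast_succ, add_mul, one_mul]
    calc _ ≤ ∑' b, π b * (k * (∑' b, π b * ind (p b)) + ind (p b)) := by
          refine ENNReal.tsum_le_tsum fun b => mul_le_mul_right ?_ _
          refine le_trans (Ex_mono' fun l => ind_le_add (r := ∃ b ∈ l, p b) (t := p b) ?_) ?_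
          · rintro ⟨c, hc, hp⟩
            rcases List.mem_cons.1 hc with rfl | hc
            · exact Or.inr hp
            · exact Or.inl ⟨c, hc, hp⟩
          · rw [Ex_add, Ex_const hπ]; exact add_le_add_left ih _
      _ = _ := by simp only [mul_add, ENNReal.tsum_add, ENNReal.tsum_mul_right, hπ, one_mul]
/-- union bound over the position of a letter -/
lemma Ex_exists_split (hπ : ∑' b, π b = 1) (K : ℕ) (Φ : List B → B → Prop) :
    Ex π K (fun l => ind (∃ p b r, l = p ++ b :: r ∧ Φ p b)) ≤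
      ∑ i ∈ Finset.range K, Ex π i fun p => ∑' b, π b * ind (Φ p b) := by
  induction K generalizing Φ with
  | zero => simp [ind_neg]
  | succ K ih =>
    rw [Finset.sum_range_succ', Ex_succ, Ex_zero]
    simp only [Ex_succ]
    rw [← Summable.tsum_finsetSum fun _ _ => ENNReal.summable, ← ENNReal.tsum_add]
    refine ENNReal.tsum_le_tsum fun b => ?_
    rw [← Finset.mul_sum, ← mul_add]
    refine mul_le_mul_right ?_ _
    refine le_trans (Ex_mono' fun l => ind_le_add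
      (r := ∃ p c r, l = p ++ c :: r ∧ Φ (b :: p) c) (t := Φ [] b) ?_) ?_
    · rintro ⟨p, c, r, h, hΦ⟩
      cases p with
      | nil =>
        simp only [List.nil_append, List.cons.injEq] at h
        exact Or.inr (h.1 ▸ hΦ)
      | cons a p =>
        simp only [List.cons_append, List.cons.injEq] at h
        exact Or.inl ⟨p, c, r, h.2, h.1 ▸ hΦ⟩
    · rw [Ex_add, Ex_const hπ]
      exact add_le_add_left (ih fun p c => Φ (b :: p) c) _
/-- Wald type bound -/
lemma wald {G : Type*} [AddMonoid G] (hπ : ∑' b, π b = 1) (h : B → G) (f : B → ℝ≥0∞)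
    (In : G → Prop) (φ : G → ℝ≥0∞)
    (H : ∀ x b, π b ≠ 0 → ind (In x) * f b + φ (x + h b) ≤ φ x) (K : ℕ) (x : G) :
    (∑' b, π b * f b) * ∑ i ∈ Finset.range K,
      Ex π i (fun l => ind (In (x + (l.map h).sum))) ≤ φ x := by
  induction K generalizing x with
  | zero => simp
  | succ K ih =>
    rw [Finset.sum_range_succ', mul_add]
    simp only [Ex_succ, Ex_zero, List.map_cons, List.sum_cons, List.map_nil, List.sum_nil, add_zero,
      ← add_assoc]
    rw [← Summable.tsum_finsetSum fun _ _ => ENNReal.summable, ← ENNReal.tsum_mul_left,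
      ← ENNReal.tsum_mul_right, ← ENNReal.tsum_add]
    calc _ ≤ ∑' b, π b * φ x := by
          refine ENNReal.tsum_le_tsum fun b => ?_
          by_cases hb : π b = 0
          · simp [hb]
          rw [← Finset.mul_sum, mul_left_comm, mul_assoc (π b), ← mul_add]
          refine mul_le_mul_right (le_trans ?_ (H x b hb)) _
          rw [add_comm, mul_comm (f b)]
          exact add_le_add_right (ih _) _
      _ = φ x := by rw [ENNReal.tsum_mul_right, hπ, one_mul]
/-- tails of a finite sum -/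
lemma tsum_tail {ι : Type*} {f : ι → ℝ≥0∞} (hf : ∑' i, f i ≠ ⊤) (g : ι → ℕ) {ε : ℝ≥0∞}
    (hε : ε ≠ 0) : ∃ ρ : ℕ, ∑' i, f i * ind (ρ < g i) ≤ ε := by
  have h := ENNReal.tendsto_tsum_compl_atTop_zero hf
  obtain ⟨s, hs⟩ := (h.eventually (ge_mem_nhds (pos_iff_ne_zero.2 hε))).exists
  refine ⟨s.sup g, le_trans ?_ hs⟩
  refine le_trans ?_ (le_of_eq (tsum_subtype {i | i ∉ s} f).symm)
  refine ENNReal.tsum_le_tsum fun i => ?_
  by_cases hi : i ∈ s
  · rw [ind_neg (not_lt.2 (Finset.le_sup hi))]; simp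
  · rw [Set.indicator_of_mem (by simpa using hi)]
    exact mul_le_of_le_one_right' (ind_le_one _)
lemma Ex_tail (hπ : ∑' b, π b = 1) (k : ℕ) (g : List B → ℕ) {ε : ℝ≥0∞} (hε : ε ≠ 0) :
    ∃ ρ : ℕ, Ex π k (fun l => ind (ρ < g l)) ≤ ε := by
  simp only [Ex_eq_tsum]
  exact tsum_tail (by rw [tsum_pw hπ]; simp) g hε

lemma E2_mono {k m : ℕ} {F G : List B → List C → ℝ≥0∞}
    (h : ∀ l t, l.length = k → Sup π l → t.length = m → Sup σ t → F l t ≤ G l t) :
    E2 π σ k m F ≤ E2 π σ k m G := Ex_mono fun l a b => Ex_mono fun t c e => h l t a b c e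
lemma E2_mono' {k m : ℕ} {F G : List B → List C → ℝ≥0∞} (h : ∀ l t, F l t ≤ G l t) :
    E2 π σ k m F ≤ E2 π σ k m G := E2_mono fun l t _ _ _ _ => h l t
lemma E2_add (k m : ℕ) (F G : List B → List C → ℝ≥0∞) :
    E2 π σ k m (fun l t => F l t + G l t) = E2 π σ k m F + E2 π σ k m G := by
  simp only [E2, Ex_add]
lemma E2_mul_left (k m : ℕ) (c : ℝ≥0∞) (F : List B → List C → ℝ≥0∞) :
    E2 π σ k m (fun l t => c * F l t) = c * E2 π σ k m F := by simp only [E2, Ex_mul_left]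
lemma E2_mul_right (k m : ℕ) (c : ℝ≥0∞) (F : List B → List C → ℝ≥0∞) :
    E2 π σ k m (fun l t => F l t * c) = E2 π σ k m F * c := by simp only [E2, Ex_mul_right]
lemma E2_tsum {ι : Type*} (k m : ℕ) (F : ι → List B → List C → ℝ≥0∞) :
    E2 π σ k m (fun l t => ∑' i, F i l t) = ∑' i, E2 π σ k m (F i) := by
  simp only [E2, Ex_tsum]
lemma E2_sum {ι : Type*} (s : Finset ι) (k m : ℕ) (F : ι → List B → List C → ℝ≥0∞) :
    E2 π σ k m (fun l t => ∑ i ∈ s, F i l t) = ∑ i ∈ s, E2 π σ k m (F i) := by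
  simp only [E2, Ex_sum]
lemma E2_swap (k m : ℕ) (F : List B → List C → ℝ≥0∞) :
    E2 π σ k m F = E2 σ π m k fun t l => F l t := Ex_comm k m F
lemma E2_left (hσ : ∑' b, σ b = 1) (k m : ℕ) (F : List B → ℝ≥0∞) :
    E2 π σ k m (fun l _ => F l) = Ex π k F := by simp only [E2, Ex_const hσ]
lemma E2_right (hπ : ∑' b, π b = 1) (k m : ℕ) (F : List C → ℝ≥0∞) :
    E2 π σ k m (fun _ t => F t) = Ex σ m F := by simp only [E2, Ex_const hπ]
lemma E2_prod (k m : ℕ) (F : List B → ℝ≥0∞) (G : List C → ℝ≥0∞) :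
    E2 π σ k m (fun l t => F l * G t) = Ex π k F * Ex σ m G := by
  simp only [E2, Ex_mul_left, Ex_mul_right]
lemma E2_le (hπ : ∑' b, π b = 1) (hσ : ∑' b, σ b = 1) {k m : ℕ} {F : List B → List C → ℝ≥0∞}
    {c : ℝ≥0∞} (h : ∀ l t, l.length = k → Sup π l → t.length = m → Sup σ t → F l t ≤ c) :
    E2 π σ k m F ≤ c := Ex_le hπ fun l a b => Ex_le hσ fun t c e => h l t a b c e
lemma E2_append (k k' m m' : ℕ) (F : List B → List C → ℝ≥0∞) :
    E2 π σ (k + k') (m + m') F =
      E2 π σ k m fun l t => E2 π σ k' m' fun l' t' => F (l ++ l') (t ++ t') := by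
  unfold E2
  rw [Ex_append]
  refine congrArg _ (funext fun l => ?_)
  simp only [Ex_append]
  exact Ex_comm _ _ _

lemma pf_refl (a : List B) : Pf a a := ⟨[], by simp⟩
lemma pf_nil (a : List B) : Pf [] a := ⟨a, rfl⟩
lemma pf_append (a r : List B) : Pf a (a ++ r) := ⟨r, rfl⟩
lemma Pf.trans {a b c : List B} (h : Pf a b) (h' : Pf b c) : Pf a c := by
  obtain ⟨r, rfl⟩ := h; obtain ⟨t, rfl⟩ := h'; exact ⟨r ++ t, by simp⟩
lemma Pf.total {a b c : List B} (h : Pf a c) (h' : Pf b c) : Pf a b ∨ Pf b a := by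
  obtain ⟨r, rfl⟩ := h; obtain ⟨t, ht⟩ := h'
  rcases List.append_eq_append_iff.1 ht with ⟨u, rfl, -⟩ | ⟨u, rfl, -⟩
  · exact Or.inl ⟨u, rfl⟩
  · exact Or.inr ⟨u, rfl⟩
lemma Pf.length_le {a b : List B} (h : Pf a b) : a.length ≤ b.length := by
  obtain ⟨r, rfl⟩ := h; simp
/-- a shortest initial segment with a property -/
lemma exists_first_pf {R : List B → Prop} {l : List B} (h : ∃ a, Pf a l ∧ R a) :
    ∃ a, Pf a l ∧ R a ∧ ∀ b r, a = b ++ r → R b → r = [] := by
  obtain ⟨a, ⟨ha, hR⟩, hmin⟩ := (InvImage.wf List.length wellFounded_lt).has_min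
    {a | Pf a l ∧ R a} h
  refine ⟨a, ha, hR, fun b r hb hRb => ?_⟩
  by_contra hr
  refine hmin b ⟨(show Pf b a from ⟨r, hb⟩).trans ha, hRb⟩ ?_
  show b.length < a.length
  have := List.length_pos_iff.2 hr
  rw [hb, List.length_append]; omega

end Vale.Agent.P147F
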