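import Vale.Agent.P147F.Ex

/-! Deterministic facts on levels, ranges, bridges and blocks. -/

namespace Vale.Agent.P147F

open MeasureTheory Vale.Agent.P147
open scoped ENNReal Classical

variable {d : ℕ} {ℓ : Fin d → ℝ} {e : St d}

@[simp] lemma dot_zero (ℓ : Fin d → ℝ) : dot ℓ 0 = 0 := by simp [dot]
lemma dot_add (ℓ : Fin d → ℝ) (x y : V d) : dot ℓ (x + y) = dot ℓ x + dot ℓ y := by
  simp [dot, mul_add, Finset.sum_add_distrib]
lemma dot_neg (ℓ : Fin d → ℝ) (x : V d) : dot ℓ (-x) = -dot ℓ x := by simp [dot]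
lemma dot_sub (ℓ : Fin d → ℝ) (x y : V d) : dot ℓ (x - y) = dot ℓ x - dot ℓ y := by
  rw [sub_eq_add_neg, dot_add, dot_neg, sub_eq_add_neg]
lemma neg_dot (ℓ : Fin d → ℝ) (x : V d) : dot (-ℓ) x = -dot ℓ x := by simp [dot]
lemma dot_smul (ℓ : Fin d → ℝ) (n : ℤ) (x : V d) : dot ℓ (n • x) = n * dot ℓ x := by
  simp only [dot, Pi.smul_apply, smul_eq_mul, Int.cast_mul, Finset.mul_sum]
  exact Finset.sum_congr rfl fun i _ => by ring
lemma smul_dot (c : ℝ) (ℓ : Fin d → ℝ) (x : V d) : dot (c • ℓ) x = c * dot ℓ x := by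
  simp only [dot, Pi.smul_apply, smul_eq_mul, Finset.mul_sum, mul_assoc]
lemma dot_vec (ℓ : Fin d → ℝ) (f : St d) : dot ℓ (vec f) = if f.2 then ℓ f.1 else -ℓ f.1 := by
  unfold dot vec
  rw [Finset.sum_eq_single f.1]
  · cases f.2 <;> simp
  · intro i _ hi; simp [Pi.single_eq_of_ne hi]
  · simp
lemma vec_opp (e : St d) : vec (opp e) = -vec e := by
  obtain ⟨i, b⟩ := e
  cases b <;> simp [vec, opp, Pi.single_neg]
@[simp] lemma opp_opp (e : St d) : opp (opp e) = e := by simp [opp]
lemma vec_self (f : St d) : vec f f.1 = if f.2 then 1 else -1 := by simp [vec]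
lemma vec_ne (f : St d) {i : Fin d} (h : i ≠ f.1) : vec f i = 0 := by
  simp [vec, Pi.single_eq_of_ne h]
lemma Nrm.opp (h : Nrm ℓ e) : Nrm (-ℓ) (opp e) :=
  ⟨fun f => by rw [neg_dot, abs_neg]; exact h.1 f, by rw [neg_dot, vec_opp, dot_neg, neg_neg, h.2]⟩

@[simp] lemma ht_nil (ℓ : Fin d → ℝ) : ht ℓ [] = 0 := by simp [ht]
lemma ht_append (ℓ : Fin d → ℝ) (a b : Pa d) : ht ℓ (a ++ b) = ht ℓ a + ht ℓ b := by
  simp [ht, dot_add]
lemma ht_cons (ℓ : Fin d → ℝ) (f : St d) (b : Pa d) : ht ℓ (f :: b) = dot ℓ (vec f) + ht ℓ b := by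
  simp [ht, dot_add]
lemma ht_neg (ℓ : Fin d → ℝ) (a : Pa d) : ht (-ℓ) a = -ht ℓ a := neg_dot _ _
lemma Nrm.abs_ht_le (h : Nrm ℓ e) (l : Pa d) : |ht ℓ l| ≤ l.length := by
  induction l with
  | nil => simp
  | cons f l ih =>
    rw [ht_cons, List.length_cons]
    have := h.1 f
    have := abs_add_le (dot ℓ (vec f)) (ht ℓ l)
    push_cast; linarith
lemma tot_nil (a : Pa d → V d) : tot a [] = 0 := rfl
lemma tot_cons (a : Pa d → V d) (b : Pa d) (l : List (Pa d)) : tot a (b :: l) = a b + tot a l := by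
  simp [tot]
lemma tot_append (a : Pa d → V d) (l t : List (Pa d)) : tot a (l ++ t) = tot a l + tot a t := by
  simp [tot]
lemma tot_reverse (a : Pa d → V d) (l : List (Pa d)) : tot a l.reverse = tot a l := by
  simp [tot, List.map_reverse, List.sum_reverse]
lemma tot_disp (l : List (Pa d)) : tot disp l = disp l.flatten := by
  induction l with
  | nil => rfl
  | cons b l ih => rw [tot_cons, ih, List.flatten_cons, disp_append]
lemma tot_neg (a : Pa d → V d) (l : List (Pa d)) : tot (fun b => -a b) l = -tot a l := by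
  induction l with
  | nil => simp [tot_nil]
  | cons b l ih => rw [tot_cons, tot_cons, ih]; abel
lemma dot_tot (ℓ : Fin d → ℝ) (a : Pa d → V d) (l : List (Pa d)) :
    dot ℓ (tot a l) = (l.map fun b => dot ℓ (a b)).sum := by
  induction l with
  | nil => simp [tot_nil]
  | cons b l ih => rw [tot_cons, dot_add, ih]; simp
lemma ht_flatten (ℓ : Fin d → ℝ) (l : List (Pa d)) : ht ℓ l.flatten = (l.map (ht ℓ)).sum := by
  rw [ht, ← tot_disp, dot_tot]; rfl

lemma mem_dep_append {x : V d} (a : Pa d) {r : Pa d} (hr : r ≠ []) : x + disp a ∈ dep x (a ++ r) := by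
  obtain ⟨f, r, rfl⟩ := List.exists_cons_of_ne_nil hr
  exact (mem_dep_iff _ _ _).2 ⟨a, f, r, rfl, rfl⟩
lemma mem_dep_iff' (x y : V d) (l : Pa d) :
    y ∈ dep x l ↔ ∃ a r, l = a ++ r ∧ r ≠ [] ∧ y = x + disp a := by
  constructor
  · intro h
    obtain ⟨a, f, r, rfl, rfl⟩ := (mem_dep_iff _ _ _).1 h
    exact ⟨a, f :: r, rfl, by simp, rfl⟩
  · rintro ⟨a, r, rfl, hr, rfl⟩
    exact mem_dep_append a hr
lemma mem_ran_iff (x y : V d) (l : Pa d) : y ∈ ran x l ↔ ∃ a r, l = a ++ r ∧ y = x + disp a := by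
  rw [ran, Finset.mem_insert, mem_dep_iff']
  constructor
  · rintro (rfl | ⟨a, r, rfl, -, rfl⟩)
    · exact ⟨l, [], by simp, rfl⟩
    · exact ⟨a, r, rfl, rfl⟩
  · rintro ⟨a, r, rfl, rfl⟩
    by_cases hr : r = []
    · left; simp [hr]
    · exact Or.inr ⟨a, r, rfl, hr, rfl⟩
lemma mem_ran_pf {x : V d} {a l : Pa d} (h : Pf a l) : x + disp a ∈ ran x l := by
  obtain ⟨r, rfl⟩ := h; exact (mem_ran_iff _ _ _).2 ⟨a, r, rfl, rfl⟩
lemma end_mem_ran (x : V d) (l : Pa d) : x + disp l ∈ ran x l := mem_ran_pf (pf_refl l)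
lemma start_mem_ran (x : V d) (l : Pa d) : x ∈ ran x l := by
  simpa using mem_ran_pf (x := x) (pf_nil l)
lemma dep_subset_ran (x : V d) (l : Pa d) : dep x l ⊆ ran x l := Finset.subset_insert _ _
lemma ran_append (x : V d) (a b : Pa d) : ran x (a ++ b) = dep x a ∪ ran (x + disp a) b := by
  simp [ran, dep_append, add_assoc, Finset.union_insert]
lemma mem_ran_shift (x y : V d) (l : Pa d) : y ∈ ran x l ↔ y - x ∈ ran 0 l := by
  simp only [ran, Finset.mem_insert, mem_dep_shift x y, zero_add, sub_eq_iff_eq_add']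
lemma add_mem_ran (x y : V d) (l : Pa d) : x + y ∈ ran x l ↔ y ∈ ran 0 l := by
  rw [mem_ran_shift, add_sub_cancel_left]
lemma add_mem_dep (x y : V d) (l : Pa d) : x + y ∈ dep x l ↔ y ∈ dep 0 l := by
  rw [mem_dep_shift, add_sub_cancel_left]
lemma dep_mono {x : V d} {a l : Pa d} (h : Pf a l) : dep x a ⊆ dep x l := by
  obtain ⟨r, rfl⟩ := h; rw [dep_append]; exact Finset.subset_union_left
lemma ran_mono {x : V d} {a l : Pa d} (h : Pf a l) : ran x a ⊆ ran x l := fun y hy => by
  obtain ⟨b, r, rfl, rfl⟩ := (mem_ran_iff _ _ _).1 hy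
  exact mem_ran_pf ((pf_append b r).trans h)
lemma ran_subset_dep (x : V d) (a : Pa d) {r : Pa d} (hr : r ≠ []) : ran x a ⊆ dep x (a ++ r) :=
  fun y hy => by
    obtain ⟨b, t, rfl, rfl⟩ := (mem_ran_iff _ _ _).1 hy
    rw [List.append_assoc]
    exact mem_dep_append b (by simp [hr])
lemma ran_suffix (x : V d) (a b : Pa d) : ran (x + disp a) b ⊆ ran x (a ++ b) := by
  rw [ran_append]; exact Finset.subset_union_right
lemma card_ran_le (x : V d) (l : Pa d) : (ran x l).card ≤ l.length + 1 :=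
  (Finset.card_insert_le _ _).trans (Nat.succ_le_succ (card_dep_le_length x l))
lemma abs_ran_le_length {x y : V d} {l : Pa d} (h : y ∈ ran x l) (i : Fin d) :
    |y i - x i| ≤ l.length := by
  obtain ⟨a, r, rfl, rfl⟩ := (mem_ran_iff _ _ _).1 h
  have := abs_disp_le_length a i
  simp only [Pi.add_apply, add_sub_cancel_left, List.length_append]
  push_cast; linarith
/-- a site of a concatenation lies on one of the pieces -/
lemma mem_ran_flatten {x y : V d} {l : List (Pa d)} (hl : l ≠ []) (h : y ∈ ran x l.flatten) :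
    ∃ p b r, l = p ++ b :: r ∧ y ∈ ran (x + disp p.flatten) b := by
  induction l generalizing x with
  | nil => exact absurd rfl hl
  | cons b l ih =>
    rw [List.flatten_cons, ran_append, Finset.mem_union] at h
    rcases h with h | h
    · exact ⟨[], b, l, rfl, by simpa using dep_subset_ran _ _ h⟩
    · by_cases h0 : l = []
      · subst h0
        refine ⟨[], b, [], rfl, ?_⟩
        simp only [ran, List.flatten_nil, disp_nil, add_zero, dep_nil, Finset.mem_insert,
          Finset.notMem_empty, or_false] at h ⊢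
        exact Or.inl h
      · obtain ⟨p, c, r, rfl, hc⟩ := ih h0 h
        exact ⟨b :: p, c, r, rfl, by simpa [add_assoc] using hc⟩

lemma stay_iff {l : Pa d} : Stay ℓ l ↔ ∀ a, Pf a l → 0 ≤ ht ℓ a := by
  constructor
  · intro h a ha
    simpa [ht] using h _ (mem_ran_pf ha)
  · intro h y hy
    obtain ⟨a, r, rfl, rfl⟩ := (mem_ran_iff _ _ _).1 hy
    simpa [ht] using h a (pf_append a r)
lemma stay_nil : Stay ℓ [] := fun y hy => by simp [ran] at hy; simp [hy]
lemma Stay.pf {a l : Pa d} (h : Stay ℓ l) (ha : Pf a l) : Stay ℓ a := fun y hy => h y (ran_mono ha hy)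
lemma Stay.ht_nonneg {l : Pa d} (h : Stay ℓ l) : 0 ≤ ht ℓ l := stay_iff.1 h l (pf_refl l)
/-- levels along a path which stays above its start -/
lemma Stay.le {l : Pa d} (h : Stay ℓ l) {x y : V d} (hy : y ∈ ran x l) : dot ℓ x ≤ dot ℓ y := by
  have := h _ ((mem_ran_shift _ _ _).1 hy)
  rw [dot_sub] at this; linarith
lemma Stay.append {a b : Pa d} (ha : Stay ℓ a) (hb : Stay ℓ b) : Stay ℓ (a ++ b) := fun y hy => by
  rw [ran_append, Finset.mem_union] at hy
  rcases hy with hy | hy
  · exact ha y (dep_subset_ran _ _ hy)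
  · have := hb.le hy
    have h2 := ha.ht_nonneg
    rw [zero_add] at this
    exact h2.trans this
lemma bridge_nil : Bridge ℓ [] := fun y hy => by simp at hy
lemma Bridge.rec {l : Pa d} (h : Bridge ℓ l) : Rec ℓ l := fun y hy => (h y hy).2
lemma Bridge.ht_pos {l : Pa d} (h : Bridge ℓ l) (hl : l ≠ []) : 0 < ht ℓ l := by
  have := h 0 (by simpa using mem_dep_append (x := 0) [] hl)
  simpa using this.2
lemma Bridge.ht_nonneg {l : Pa d} (h : Bridge ℓ l) : 0 ≤ ht ℓ l := by
  by_cases hl : l = []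
  · simp [hl]
  · exact (h.ht_pos hl).le
lemma Bridge.stay {l : Pa d} (h : Bridge ℓ l) : Stay ℓ l := fun y hy => by
  rcases Finset.mem_insert.1 hy with rfl | hy
  · simpa [ht] using h.ht_nonneg
  · exact (h y hy).1
lemma Bridge.lt {l : Pa d} (h : Bridge ℓ l) {x y : V d} (hy : y ∈ dep x l) :
    dot ℓ x ≤ dot ℓ y ∧ dot ℓ y < dot ℓ x + ht ℓ l := by
  have := h _ ((mem_dep_shift _ _ _).1 hy)
  rw [dot_sub] at this; constructor <;> linarith [this.1, this.2]
lemma Bridge.le {l : Pa d} (h : Bridge ℓ l) {x y : V d} (hy : y ∈ ran x l) :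
    dot ℓ x ≤ dot ℓ y ∧ dot ℓ y ≤ dot ℓ x + ht ℓ l := by
  rcases Finset.mem_insert.1 hy with rfl | hy
  · rw [dot_add]; exact ⟨by linarith [h.ht_nonneg, show ht ℓ l = dot ℓ (disp l) from rfl], le_rfl⟩
  · exact ⟨(h.lt hy).1, (h.lt hy).2.le⟩
lemma Bridge.append {a b : Pa d} (ha : Bridge ℓ a) (hb : Bridge ℓ b) : Bridge ℓ (a ++ b) :=
  fun y hy => by
    rw [dep_append, Finset.mem_union] at hy
    rw [ht_append]
    rcases hy with hy | hy
    · exact ⟨(ha y hy).1, by linarith [(ha y hy).2, hb.ht_nonneg]⟩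
    · have := hb.lt hy
      rw [zero_add] at this
      exact ⟨ha.ht_nonneg.trans this.1, this.2⟩
lemma bridge_flatten {bs : List (Pa d)} (h : ∀ b ∈ bs, Blk ℓ b) : Bridge ℓ bs.flatten := by
  induction bs with
  | nil => exact bridge_nil
  | cons b l ih =>
    exact (h b (by simp)).2.1.append (ih fun c hc => h c (by simp [hc]))
lemma bridge_flatten2 {ss : List (List (Pa d))} (h : ∀ s ∈ ss, ∀ b ∈ s, Blk ℓ b) :
    Bridge ℓ ss.flatten.flatten := bridge_flatten fun b hb => by
  obtain ⟨s, hs, hb⟩ := List.mem_flatten.1 hb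
  exact h s hs b hb
lemma Rec.disjoint {a r : Pa d} (ha : Rec ℓ a) (hr : Stay ℓ r) :
    Disjoint (dep 0 a) (dep (disp a) r) := Finset.disjoint_left.2 fun y h1 h2 => by
  have := hr.le (dep_subset_ran _ _ h2)
  exact absurd (ha y h1) (not_lt.2 this)
/-- every bridge is a concatenation of irreducible ones -/
lemma exists_blocks {l : Pa d} (h : Bridge ℓ l) :
    ∃ bs : List (Pa d), (∀ b ∈ bs, Blk ℓ b) ∧ bs.flatten = l := by
  induction hn : l.length using Nat.strong_induction_on generalizing l with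
  | _ n ih =>
    by_cases hl : l = []
    · exact ⟨[], by simp, by simp [hl]⟩
    by_cases hb : Blk ℓ l
    · exact ⟨[l], by simpa using hb, by simp⟩
    simp only [Blk, ne_eq, hl, not_false_eq_true, h, true_and, not_forall, not_not] at hb
    obtain ⟨a, b, rfl, ha, hb, h1, h2⟩ := hb
    have la := List.length_pos_iff.2 ha
    have lb := List.length_pos_iff.2 hb
    rw [List.length_append] at hn
    obtain ⟨s, hs, rfl⟩ := ih _ (by omega) h1 rfl
    obtain ⟨t, ht, rfl⟩ := ih _ (by omega) h2 rfl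
    exact ⟨s ++ t, by simpa [or_imp, forall_and] using ⟨hs, ht⟩, by simp⟩
lemma blk_unique_aux {b t ρ : Pa d} (hb : Blk ℓ b) (hb' : Blk ℓ (b ++ t)) (hρ : Stay ℓ (t ++ ρ)) :
    t = [] := by
  by_contra ht0
  refine hb'.2.2 b t rfl hb.1 ht0 ⟨hb.2.1, fun y hy => ⟨hρ y (dep_subset_ran _ _
    (dep_mono (pf_append t ρ) hy)), ?_⟩⟩
  have := (hb'.2.1 (disp b + y) (by
    rw [dep_append, zero_add]; exact Finset.mem_union_right _ ((add_mem_dep _ _ _).2 hy))).2
  rw [dot_add, ht_append] at this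
  exact lt_of_add_lt_add_left this
lemma blk_unique {b b' ρ ρ' : Pa d} (hb : Blk ℓ b) (hb' : Blk ℓ b') (hρ : Stay ℓ ρ)
    (hρ' : Stay ℓ ρ') (h : b ++ ρ = b' ++ ρ') : b = b' := by
  rcases List.append_eq_append_iff.1 h with ⟨t, rfl, rfl⟩ | ⟨t, rfl, rfl⟩
  · rw [blk_unique_aux hb hb' hρ]; simp
  · rw [blk_unique_aux hb' hb hρ']; simp
lemma blks_unique {bs cs : List (Pa d)} {ρ ρ' : Pa d} (hl : bs.length = cs.length)
    (hb : ∀ b ∈ bs, Blk ℓ b) (hc : ∀ b ∈ cs, Blk ℓ b) (hρ : Stay ℓ ρ) (hρ' : Stay ℓ ρ')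
    (h : bs.flatten ++ ρ = cs.flatten ++ ρ') : bs = cs := by
  induction bs generalizing cs with
  | nil => exact (List.length_eq_zero_iff.1 hl.symm).symm
  | cons b bs ih =>
    obtain ⟨c, cs, rfl⟩ := List.exists_cons_of_length_eq_add_one hl.symm
    simp only [List.flatten_cons, List.append_assoc] at h
    have hb' : ∀ b ∈ bs, Blk ℓ b := fun x hx => hb x (by simp [hx])
    have hc' : ∀ b ∈ cs, Blk ℓ b := fun x hx => hc x (by simp [hx])
    obtain rfl := blk_unique (hb b (by simp)) (hc c (by simp))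
      ((bridge_flatten hb').stay.append hρ) ((bridge_flatten hc').stay.append hρ') h
    rw [ih (by simpa using hl) hb' hc' (List.append_cancel_left h)]
lemma blks_unique' {bs cs : List (Pa d)} (hb : ∀ b ∈ bs, Blk ℓ b) (hc : ∀ b ∈ cs, Blk ℓ b)
    (h : bs.flatten = cs.flatten) : bs = cs := by
  induction bs generalizing cs with
  | nil =>
    cases cs with
    | nil => rfl
    | cons c cs => exact absurd (List.append_eq_nil_iff.1 h.symm).1 (hc c (by simp)).1
  | cons b bs ih =>
    cases cs with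
    | nil => exact absurd (List.append_eq_nil_iff.1 h).1 (hb b (by simp)).1
    | cons c cs =>
      simp only [List.flatten_cons] at h
      have hb' : ∀ b ∈ bs, Blk ℓ b := fun x hx => hb x (by simp [hx])
      have hc' : ∀ b ∈ cs, Blk ℓ b := fun x hx => hc x (by simp [hx])
      obtain rfl := blk_unique (hb b (by simp)) (hc c (by simp))
        (bridge_flatten hb').stay (bridge_flatten hc').stay h
      rw [ih hb' hc' (List.append_cancel_left h)]
lemma blk_single {f : St d} (h : 0 < dot ℓ (vec f)) : Blk ℓ [f] := by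
  refine ⟨by simp, fun y hy => ?_, fun a b hab ha hb _ => ?_⟩
  · simp only [dep_cons, dep_nil, Finset.mem_insert, Finset.notMem_empty, or_false] at hy
    simpa [hy, ht] using h
  · have := congrArg List.length hab
    have la := List.length_pos_iff.2 ha
    have lb := List.length_pos_iff.2 hb
    simp at this; omega
lemma blk_pair {f g : St d} (hf : dot ℓ (vec f) = 0) (hg : 0 < dot ℓ (vec g)) : Blk ℓ [f, g] := by
  refine ⟨by simp, fun y hy => ?_, fun a b hab ha hb h => ?_⟩
  · simp only [dep_cons, dep_nil, Finset.mem_insert, Finset.notMem_empty, or_false, zero_add] at hy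
    rcases hy with rfl | rfl <;> simp [ht, dot_add, hf, hg]
  · have h1 := h.1.ht_pos ha
    obtain ⟨x, a, rfl⟩ := List.exists_cons_of_ne_nil ha
    obtain ⟨y, b, rfl⟩ := List.exists_cons_of_ne_nil hb
    cases a with
    | nil =>
      simp only [List.cons_append, List.nil_append, List.cons.injEq] at hab
      rw [← hab.1] at h1
      simp [ht, hf] at h1
    | cons z a => simpa using congrArg List.length hab

lemma Leg.sites_nil (X : Leg d) (x : V d) : X.sites x [] = ∅ := rfl
lemma Leg.sites_cons (X : Leg d) (x : V d) (b : Pa d) (l : List (Pa d)) :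
    X.sites x (b :: l) = (X.S b).image (fun z => x + z) ∪ X.sites (x + X.a b) l := rfl
lemma Leg.sites_append (X : Leg d) (x : V d) (p s : List (Pa d)) :
    X.sites x (p ++ s) = X.sites x p ∪ X.sites (x + tot X.a p) s := by
  induction p generalizing x with
  | nil => simp [Leg.sites_nil, tot_nil]
  | cons b p ih =>
    rw [List.cons_append, Leg.sites_cons, Leg.sites_cons, ih, tot_cons, add_assoc,
      Finset.union_assoc]
lemma Leg.mem_sites_shift (X : Leg d) (x y z : V d) (l : List (Pa d)) :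
    x + z ∈ X.sites (x + y) l ↔ z ∈ X.sites y l := by
  induction l generalizing y with
  | nil => simp [Leg.sites_nil]
  | cons b l ih =>
    simp only [Leg.sites_cons, Finset.mem_union, Finset.mem_image, add_assoc, ih, add_right_inj]
lemma image_add_dep (x y : V d) (l : Pa d) : (dep y l).image (fun z => x + z) = dep (x + y) l := by
  ext z
  simp only [Finset.mem_image]
  constructor
  · rintro ⟨u, hu, rfl⟩
    rw [mem_dep_shift] at hu ⊢
    simpa using hu
  · intro h
    refine ⟨z - x, ?_, by abel⟩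
    rw [mem_dep_shift] at h ⊢
    simpa [sub_sub] using h
lemma sitesY (μ : Measure (St d → ℝ)) (x : V d) (l : List (Pa d)) :
    (legY μ ℓ).sites x l = dep x l.flatten := by
  induction l generalizing x with
  | nil => rfl
  | cons b l ih =>
    rw [Leg.sites_cons, ih, List.flatten_cons, dep_append]
    simp only [legY, image_add_dep, add_zero]
lemma sitesX (μ : Measure (St d → ℝ)) (x : V d) (l : List (Pa d)) :
    (legX μ ℓ).sites x l = dep (x - disp l.reverse.flatten) l.reverse.flatten := by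
  induction l generalizing x with
  | nil => rfl
  | cons b l ih =>
    rw [Leg.sites_cons, ih, List.reverse_cons, List.flatten_append, dep_append, Finset.union_comm]
    simp only [legX, image_add_dep, List.flatten_cons, List.flatten_nil, List.append_nil,
      disp_append]
    congr 2 <;> abel

end Vale.Agent.P147F
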