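import Vale.Agent.P147F.Ex

/-! The weak law of large numbers. -/

namespace Vale.Agent.P147F

open MeasureTheory Vale.Agent.P147
open scoped ENNReal Classical

variable {d : ℕ} {μ : Measure (St d → ℝ)} [IsProbabilityMeasure μ] {ℓ : Fin d → ℝ} {e : St d}

lemma wlln_lin {B : Type*} {π : B → ℝ≥0∞} (hπ : ∑' b, π b = 1) {g h : B → ℝ} {m α β : ℝ}
    (hm0 : 0 ≤ m) (hg : ∀ b, π b ≠ 0 → 0 ≤ g b)
    (hm : ∑' b, π b * ENNReal.ofReal (g b) = ENNReal.ofReal m) (hα : 0 ≤ α)
    (hh : ∀ b, π b ≠ 0 → 0 ≤ h b ∧ h b ≤ α + β * g b) :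
    ∑' b, π b * ENNReal.ofReal (h b) ≤ ENNReal.ofReal (α + β * m) := by
  have hc : ∑' b, π b * ENNReal.ofReal α = ENNReal.ofReal α := by
    rw [ENNReal.tsum_mul_right, hπ, one_mul]
  have hl : ∀ c : ℝ≥0∞, ∑' b, π b * (c * ENNReal.ofReal (g b)) = c * ENNReal.ofReal m := fun c => by
    rw [← hm, ← ENNReal.tsum_mul_left]
    exact tsum_congr fun b => by ring
  rcases le_total 0 β with hβ | hβ
  · rw [ENNReal.ofReal_add hα (mul_nonneg hβ hm0), ENNReal.ofReal_mul hβ, ← hc, ← hl,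
      ← ENNReal.tsum_add]
    refine ENNReal.tsum_le_tsum fun b => ?_
    by_cases hb : π b = 0
    · simp [hb]
    rw [← mul_add, ← ENNReal.ofReal_mul hβ, ← ENNReal.ofReal_add hα (mul_nonneg hβ (hg b hb))]
    exact mul_le_mul' le_rfl (ENNReal.ofReal_le_ofReal (hh b hb).2)
  · have hβ' : 0 ≤ -β := by linarith
    rw [show α + β * m = α - -β * m by ring, ENNReal.ofReal_sub _ (mul_nonneg hβ' hm0)]
    refine ENNReal.le_sub_of_add_le_right ENNReal.ofReal_ne_top ?_
    rw [ENNReal.ofReal_mul hβ', ← hc, ← hl, ← ENNReal.tsum_add]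
    refine ENNReal.tsum_le_tsum fun b => ?_
    by_cases hb : π b = 0
    · simp [hb]
    rw [← mul_add, ← ENNReal.ofReal_mul hβ',
      ← ENNReal.ofReal_add (hh b hb).1 (mul_nonneg hβ' (hg b hb))]
    exact mul_le_mul' le_rfl (ENNReal.ofReal_le_ofReal (by linarith [(hh b hb).2]))

lemma wlln_var {B : Type*} {π : B → ℝ≥0∞} (hπ : ∑' b, π b = 1) {g : B → ℝ} {m R : ℝ}
    (hm0 : 0 ≤ m) (hg : ∀ b, π b ≠ 0 → 0 ≤ g b ∧ g b ≤ R)
    (hm : ∑' b, π b * ENNReal.ofReal (g b) = ENNReal.ofReal m) (k : ℕ) (x : ℝ) :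
    Ex π k (fun l => ENNReal.ofReal ((x + (l.map g).sum - k * m) ^ 2)) ≤
      ENNReal.ofReal (x ^ 2 + k * R ^ 2) := by
  induction k generalizing x with
  | zero => simp
  | succ k ih =>
    rw [Ex_succ]
    calc _ ≤ ∑' b, π b * ENNReal.ofReal ((x + g b - m) ^ 2 + k * R ^ 2) := by
          refine ENNReal.tsum_le_tsum fun b => mul_le_mul' le_rfl ?_
          refine le_trans (le_of_eq ?_) (ih (x + g b - m))
          congr 1
          funext l
          simp only [List.map_cons, List.sum_cons]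
          congr 2
          push_cast; ring
      _ ≤ ENNReal.ofReal (((x - m) ^ 2 + (k + 1) * R ^ 2) + 2 * (x - m) * m) := by
          refine wlln_lin hπ hm0 (fun b hb => (hg b hb).1) hm (by positivity) fun b hb =>
            ⟨by positivity, ?_⟩
          nlinarith [(hg b hb).1, (hg b hb).2]
      _ ≤ _ := ENNReal.ofReal_le_ofReal (by push_cast; nlinarith [sq_nonneg m])

lemma wlln_sum {B : Type*} {π : B → ℝ≥0∞} (hπ : ∑' b, π b = 1) (g : B → ℝ) (k : ℕ) :
    Ex π k (fun l => ENNReal.ofReal (l.map g).sum) ≤ k * ∑' b, π b * ENNReal.ofReal (g b) := by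
  induction k with
  | zero => simp
  | succ k ih =>
    rw [Ex_succ]
    calc _ ≤ ∑' b, π b * (ENNReal.ofReal (g b) + k * ∑' b, π b * ENNReal.ofReal (g b)) := by
          refine ENNReal.tsum_le_tsum fun b => mul_le_mul' le_rfl ?_
          refine le_trans (Ex_mono' (G := fun l => ENNReal.ofReal (g b) +
            ENNReal.ofReal (l.map g).sum) fun l => ?_) ?_
          · simp only [List.map_cons, List.sum_cons]
            exact ENNReal.ofReal_add_le
          · rw [Ex_add, Ex_const hπ]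
            exact add_le_add le_rfl ih
      _ = _ := by
          simp only [mul_add]
          rw [ENNReal.tsum_add, ENNReal.tsum_mul_right, hπ]
          push_cast; ring

lemma wlln_markov {B : Type*} {π : B → ℝ≥0∞} {k : ℕ} {F : List B → ℝ} {c a : ℝ} (hc : 0 < c)
    (h : Ex π k (fun l => ENNReal.ofReal (F l)) ≤ ENNReal.ofReal a) :
    Ex π k (fun l => ind (c < F l)) ≤ ENNReal.ofReal (a / c) := by
  calc _ ≤ Ex π k fun l => ENNReal.ofReal c⁻¹ * ENNReal.ofReal (F l) := by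
        refine Ex_mono' fun l => ind_le fun hl => ?_
        rw [← ENNReal.ofReal_mul (by positivity)]
        exact ENNReal.one_le_ofReal.2 ((one_le_inv_mul₀ hc).2 hl.le)
    _ ≤ _ := by
        rw [Ex_mul_left, div_eq_inv_mul, ENNReal.ofReal_mul (by positivity)]
        exact mul_le_mul' le_rfl h

theorem wlln {B : Type*} {π : B → ℝ≥0∞} (hπ : ∑' b, π b = 1) {f : B → ℝ}
    (hf : ∀ b, π b ≠ 0 → 0 ≤ f b) (hint : ∑' b, π b * ENNReal.ofReal (f b) ≠ ⊤) :
    WL π f (∑' b, π b * ENNReal.ofReal (f b)).toReal := by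
  intro δ hδ
  obtain ⟨ε, hε, hε1, hε2⟩ : ∃ ε : ℝ, 0 < ε ∧ ε ≤ δ ^ 2 / 6 ∧ ε ≤ δ / 3 :=
    ⟨min (δ ^ 2 / 6) (δ / 3), by positivity, min_le_left _ _, min_le_right _ _⟩
  obtain ⟨R, hR⟩ := tsum_tail hint (fun b => ⌈f b⌉₊) (ENNReal.ofReal_pos.2 hε).ne'
  set f1 : B → ℝ := fun b => if R < ⌈f b⌉₊ then 0 else f b with hf1
  set f2 : B → ℝ := fun b => if R < ⌈f b⌉₊ then f b else 0 with hf2
  have h2 : ∑' b, π b * ENNReal.ofReal (f2 b) ≤ ENNReal.ofReal ε := by
    refine le_trans (ENNReal.tsum_le_tsum fun b => ?_) hR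
    simp only [hf2]
    split_ifs with hb
    · rw [ind_pos hb, mul_one]
    · simp
  have hsum : ∑' b, π b * ENNReal.ofReal (f b) =
      ∑' b, π b * ENNReal.ofReal (f1 b) + ∑' b, π b * ENNReal.ofReal (f2 b) := by
    rw [← ENNReal.tsum_add]
    refine tsum_congr fun b => ?_
    simp only [hf1, hf2]
    split_ifs <;> simp
  have n1 : ∑' b, π b * ENNReal.ofReal (f1 b) ≠ ⊤ := ne_top_of_le_ne_top hint (hsum ▸ le_self_add)
  have n2 : ∑' b, π b * ENNReal.ofReal (f2 b) ≠ ⊤ := ne_top_of_le_ne_top hint (hsum ▸ le_add_self)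
  rw [hsum, ENNReal.toReal_add n1 n2]
  set m1 := (∑' b, π b * ENNReal.ofReal (f1 b)).toReal with hm1
  set m2 := (∑' b, π b * ENNReal.ofReal (f2 b)).toReal with hm2
  have hm20 : 0 ≤ m2 := ENNReal.toReal_nonneg
  have hm2ε : m2 ≤ ε := ENNReal.toReal_le_of_le_ofReal hε.le h2
  have hg : ∀ b, π b ≠ 0 → 0 ≤ f1 b ∧ f1 b ≤ R := fun b hb => by
    simp only [hf1]
    split_ifs with h
    · exact ⟨le_rfl, Nat.cast_nonneg _⟩
    · exact ⟨hf b hb, (Nat.le_ceil _).trans (by exact_mod_cast not_lt.1 h)⟩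
  obtain ⟨k0, hk0⟩ := exists_nat_gt (18 * (R : ℝ) ^ 2 / δ ^ 3)
  refine ⟨k0, fun k hk => ?_⟩
  have hk1 : 18 * (R : ℝ) ^ 2 / δ ^ 3 < k := hk0.trans_le (by exact_mod_cast hk)
  have hkpos : (0 : ℝ) < k := lt_of_le_of_lt (by positivity) hk1
  have e1 := wlln_markov (c := (δ * k / 3) ^ 2) (by positivity)
    (wlln_var hπ ENNReal.toReal_nonneg hg (ENNReal.ofReal_toReal n1).symm k 0)
  have e2 := wlln_markov (c := δ * k / 3) (a := k * ε) (by positivity) ((wlln_sum hπ f2 k).trans (by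
    rw [ENNReal.ofReal_mul hkpos.le, ENNReal.ofReal_natCast]
    exact mul_le_mul' le_rfl h2))
  refine le_trans (Ex_mono fun l _ hl => ind_le_add fun h => ?_)
    (le_trans (le_of_eq (Ex_add k _ _)) ((add_le_add e1 e2).trans ?_))
  · have h3 : (l.map f).sum = (l.map f1).sum + (l.map f2).sum := by
      rw [← List.sum_map_add]
      congr 1
      refine List.map_congr_left fun b _ => ?_
      simp only [hf1, hf2]
      split_ifs <;> simp
    have h4 : 0 ≤ (l.map f2).sum := List.sum_nonneg fun x hx => by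
      obtain ⟨b, hb, rfl⟩ := List.mem_map.1 hx
      simp only [hf2]
      split_ifs
      · exact hf b (hl b hb)
      · exact le_rfl
    by_contra hn
    rw [not_or, not_lt, not_lt, zero_add, ← hm1] at hn
    have h5 := abs_le.1 (abs_le_of_sq_le_sq' hn.1 (by positivity) |> abs_le.2)
    have h6 : (k : ℝ) * m2 ≤ k * (δ / 3) := by gcongr; linarith
    have h7 : 0 ≤ (k : ℝ) * m2 := by positivity
    refine absurd h (not_lt.2 (abs_le.2 ⟨?_, ?_⟩))
    · rw [h3]; nlinarith [h5.1]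
    · rw [h3]; nlinarith [h5.2, hn.2]
  · rw [← ENNReal.ofReal_add (by positivity) (by positivity)]
    refine ENNReal.ofReal_le_ofReal ?_
    have h3 : (0 ^ 2 + k * (R : ℝ) ^ 2) / (δ * k / 3) ^ 2 ≤ δ / 2 := by
      rw [div_lt_iff₀ (by positivity)] at hk1
      rw [div_le_iff₀ (by positivity)]
      nlinarith
    have h4 : k * ε / (δ * k / 3) ≤ δ / 2 := by
      rw [div_le_iff₀ (by positivity)]
      nlinarith
    linarith

end Vale.Agent.P147F
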