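import Vale.Agent.P147F.Blk
import Vale.Agent.P147F.Wlln

/-! Finite mean height, the renewal bound, the two legs. -/

namespace Vale.Agent.P147F

open MeasureTheory Vale.Agent.P147
open scoped ENNReal Classical

variable {d : ℕ} {μ : Measure (St d → ℝ)} [IsProbabilityMeasure μ] {ℓ : Fin d → ℝ} {e : St d}

lemma mean_fpass (hN : Nrm ℓ e) {r : ℕ} (hr : 1 ≤ r) {l : Pa d} (h : FPass ℓ r l) :
    Bridge ℓ l ∧ ht ℓ l < r + 1 := by
  refine ⟨fun y hy => ⟨(h.1 y hy).1, (h.1 y hy).2.trans_le h.2⟩, ?_⟩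
  rcases List.eq_nil_or_concat l with rfl | ⟨a, f, rfl⟩
  · rw [ht_nil]; positivity
  · rw [List.concat_eq_append] at h ⊢
    have h1 := (h.1 _ (mem_dep_append (x := 0) a (List.cons_ne_nil f []))).2
    rw [zero_add] at h1
    have h2 := (abs_le.1 (hN.1 f)).2
    rw [ht_append, ht_cons, ht_nil]
    unfold ht
    linarith

lemma mean_count (hN : Nrm ℓ e) (hR : Reg μ ℓ) (R : ℕ) :
    R * al μ ℓ ≤ ∑' k, Ex (bw μ ℓ) k fun bs => ind (ht ℓ bs.flatten < R + 1) := by
  have hb : ∀ l : Pa d, ∃ bs : List (Pa d), Bridge ℓ l → (∀ b ∈ bs, Blk ℓ b) ∧ bs.flatten = l :=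
    fun l => by
      by_cases h : Bridge ℓ l
      · obtain ⟨bs, h1⟩ := exists_blocks h
        exact ⟨bs, fun _ => h1⟩
      · exact ⟨[], fun h' => absurd h' h⟩
  choose β hβ using hb
  calc (R : ℝ≥0∞) * al μ ℓ = ∑ r ∈ Finset.Icc 1 R, al μ ℓ := by simp
    _ ≤ ∑ r ∈ Finset.Icc 1 R, ∑' l, if FPass ℓ r l then w μ l else 0 :=
        Finset.sum_le_sum fun r _ => hR.fp r
    _ = ∑' l, ∑ r ∈ Finset.Icc 1 R, if FPass ℓ r l then w μ l else 0 :=
        (Summable.tsum_finsetSum fun _ _ => ENNReal.summable).symm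
    _ ≤ ∑' l, ∑' bs : List (Pa d), ind (bs.flatten = l) *
        (wt (bw μ ℓ) bs * ind (ht ℓ bs.flatten < R + 1)) := by
        refine ENNReal.tsum_le_tsum fun l => ?_
        by_cases h : ∃ r ∈ Finset.Icc 1 R, FPass ℓ r l
        · obtain ⟨r, hr, h⟩ := h
          have h1 := mean_fpass hN (Finset.mem_Icc.1 hr).1 h
          rw [Finset.sum_eq_single_of_mem r hr, if_pos h]
          · refine le_trans (le_of_eq ?_) (ENNReal.le_tsum (β l))
            have h2 : (r : ℝ) ≤ R := by exact_mod_cast (Finset.mem_Icc.1 hr).2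
            have h3 := w_flatten (μ := μ) (hβ l h1.1).1 stay_nil
            rw [(hβ l h1.1).2] at h3 ⊢
            rw [ind_pos rfl, ind_pos (by linarith [h1.2]), one_mul, mul_one]
            simpa using h3
          · intro r' hr' hne
            refine if_neg fun h' => hne ?_
            have h2 := mean_fpass hN (Finset.mem_Icc.1 hr').1 h'
            have h3 : (r' : ℝ) < r + 1 := h'.2.trans_lt h1.2
            have h4 : (r : ℝ) < r' + 1 := h.2.trans_lt h2.2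
            have h5 : r' < r + 1 := by exact_mod_cast h3
            have h6 : r < r' + 1 := by exact_mod_cast h4
            omega
        · exact le_of_eq_of_le (Finset.sum_eq_zero fun r hr => if_neg fun h' => h ⟨r, hr, h'⟩)
            zero_le
    _ ≤ ∑' bs : List (Pa d), wt (bw μ ℓ) bs * ind (ht ℓ bs.flatten < R + 1) := by
        rw [ENNReal.tsum_comm]
        refine ENNReal.tsum_le_tsum fun bs => ?_
        rw [ENNReal.tsum_mul_right]
        exact mul_le_of_le_one_left' ((tsum_ind_le fun i j hi hj => hi.symm.trans hj).trans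
          (ind_le_one _))
    _ ≤ _ := by
        simp only [Ex_eq_tsum]
        rw [ENNReal.tsum_comm]
        refine ENNReal.tsum_le_tsum fun bs => le_trans (le_of_eq ?_) (ENNReal.le_tsum bs.length)
        rw [pw, if_pos rfl]

lemma mean_trunc (hN : Nrm ℓ e) (hR : Reg μ ℓ) {R : ℕ} (hR1 : 1 ≤ R) :
    (∑' b, bw μ ℓ b * ENNReal.ofReal (min (ht ℓ b) R)) * al μ ℓ ≤ 3 := by
  have hR' : (1 : ℝ) ≤ R := by exact_mod_cast hR1
  have h1 := fun K => wald hR.sum (ht ℓ) (fun b => ENNReal.ofReal (min (ht ℓ b) R))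
    (fun x : ℝ => x < R + 1) (fun x => if x < R + 1 then ENNReal.ofReal (2 * R + 1 - x) else 0)
    (fun x b hb => by
      have h0 := (blk_of_bw hb).2.1.ht_nonneg
      have h2 : 0 ≤ min (ht ℓ b) R := le_min h0 (by linarith)
      by_cases hx : x < R + 1
      · rw [ind_pos hx, one_mul, if_pos hx]
        split_ifs with hx'
        · rw [← ENNReal.ofReal_add h2 (by linarith)]
          exact ENNReal.ofReal_le_ofReal (by linarith [min_le_left (ht ℓ b) R])
        · rw [add_zero]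
          exact ENNReal.ofReal_le_ofReal (by linarith [min_le_right (ht ℓ b) R])
      · rw [ind_neg hx, zero_mul, zero_add, if_neg (by linarith), if_neg hx]) K 0
  simp only [zero_add, ← ht_flatten] at h1
  have h2 : (∑' b, bw μ ℓ b * ENNReal.ofReal (min (ht ℓ b) R)) * (R * al μ ℓ) ≤ R * 3 := by
    refine (mul_le_mul' le_rfl (mean_count hN hR R)).trans ?_
    rw [ENNReal.tsum_eq_iSup_nat, ENNReal.mul_iSup]
    refine iSup_le fun K => (h1 K).trans ?_
    rw [if_pos (by linarith), ← ENNReal.ofReal_natCast, ← ENNReal.ofReal_ofNat 3,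
      ← ENNReal.ofReal_mul (by linarith)]
    exact ENNReal.ofReal_le_ofReal (by linarith)
  rw [mul_left_comm] at h2
  exact (ENNReal.mul_le_mul_iff_right (by exact_mod_cast (by omega : R ≠ 0))
    (ENNReal.natCast_ne_top R)).1 h2

lemma mean_blk (hN : Nrm ℓ e) : Blk ℓ [e] := blk_single (by rw [hN.2]; exact one_pos)

theorem mean_ne_top (hN : Nrm ℓ e) (hR : Reg μ ℓ) :
    ∑' b, bw μ ℓ b * ENNReal.ofReal (ht ℓ b) ≠ ⊤ := by
  have h1 : (∑' b, bw μ ℓ b * ENNReal.ofReal (ht ℓ b)) * al μ ℓ ≤ 3 := by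
    rw [ENNReal.tsum_eq_iSup_sum, ENNReal.iSup_mul]
    refine iSup_le fun s => ?_
    obtain ⟨R, hR1⟩ := (s.image (ht ℓ)).bddAbove
    obtain ⟨R', hR2⟩ := exists_nat_ge R
    refine le_trans (mul_le_mul' ?_ le_rfl) (mean_trunc hN hR (R := R' + 1) (by omega))
    refine le_trans (le_of_eq (Finset.sum_congr rfl fun b hb => ?_)) (ENNReal.sum_le_tsum s)
    have h2 : ht ℓ b ≤ R := hR1 (Finset.mem_coe.2 (Finset.mem_image_of_mem _ hb))
    rw [min_eq_left (by push_cast; linarith)]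
  intro h
  rw [h, ENNReal.top_mul hR.al_ne] at h1
  exact absurd h1 (by simp)
theorem renewal (hN : Nrm ℓ e) (hs : ∑' b, bw μ ℓ b = 1) (a : ℝ) (m K : ℕ) :
    w μ [e] * ∑ i ∈ Finset.range K, Ex (bw μ ℓ) i
      (fun bs => ind (a ≤ ht ℓ bs.flatten ∧ ht ℓ bs.flatten < a + m)) ≤ m := by
  have h1 := wald hs (ht ℓ) (fun b => ind (b = [e])) (fun x : ℝ => a ≤ x ∧ x < a + m)
    (fun x => ((min m ⌈a + m - x⌉₊ : ℕ) : ℝ≥0∞)) (fun x b hb => by
      have h0 := (blk_of_bw hb).2.1.ht_nonneg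
      by_cases hx : (a ≤ x ∧ x < a + m) ∧ b = [e]
      · obtain ⟨hx, rfl⟩ := hx
        have h2 : ht ℓ [e] = 1 := by rw [ht_cons, ht_nil, hN.2, add_zero]
        have h3 : ⌈a + m - x⌉₊ ≤ m := Nat.ceil_le.2 (by linarith [hx.1])
        have h4 : 1 ≤ ⌈a + m - x⌉₊ := Nat.one_le_ceil_iff.2 (by linarith [hx.2])
        rw [ind_pos hx, ind_pos rfl, h2, ← sub_sub, Nat.ceil_sub_one, one_mul]
        exact_mod_cast (by omega)
      · rw [← ind_and, ind_neg hx, zero_add]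
        exact_mod_cast min_le_min le_rfl (Nat.ceil_mono (by linarith))) K 0
  simp only [zero_add, ← ht_flatten] at h1
  refine le_trans (mul_le_mul' ?_ le_rfl) (h1.trans (by exact_mod_cast min_le_left _ _))
  refine le_trans (le_of_eq ?_) (ENNReal.le_tsum [e])
  rw [ind_pos rfl, mul_one, bw_of_blk (mean_blk hN)]
theorem mh_pos (hμ : Elliptic μ) (hN : Nrm ℓ e) (hR : Reg μ ℓ) : 0 < mh μ ℓ := by
  refine ENNReal.toReal_pos (fun h => ?_) (mean_ne_top hN hR)
  have h1 := ENNReal.tsum_eq_zero.1 h [e]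
  rw [ht_cons, ht_nil, hN.2, add_zero, ENNReal.ofReal_one, mul_one] at h1
  exact bw_ne_zero hμ (mean_blk hN) h1
theorem wl_ht (hN : Nrm ℓ e) (hR : Reg μ ℓ) : WL (bw μ ℓ) (ht ℓ) (mh μ ℓ) :=
  wlln hR.sum (fun _ hb => (blk_of_bw hb).2.1.ht_nonneg) (mean_ne_top hN hR)
omit [IsProbabilityMeasure μ] in
theorem wl_isB (hs : ∑' b, bw μ ℓ b = 1) (b0 : Pa d) :
    WL (bw μ ℓ) (isB b0) (bw μ ℓ b0).toReal := by
  have h1 : ∑' b, bw μ ℓ b * ENNReal.ofReal (isB b0 b) = bw μ ℓ b0 := by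
    rw [tsum_eq_single b0 fun b hb => by simp [isB, hb]]
    simp [isB]
  have h2 := wlln (f := isB b0) hs (fun b _ => by unfold isB; split_ifs <;> norm_num) (by
    rw [h1]
    exact ne_top_of_le_ne_top ENNReal.one_ne_top (hs ▸ ENNReal.le_tsum b0))
  rwa [h1] at h2
theorem legX_ok (hμ : Elliptic μ) (hN : Nrm ℓ e) (hR : Reg μ ℓ) :
    (legX μ ℓ).Ok (-ℓ) (mh μ ℓ) := by
  have h1 : ∀ b : Pa d, dot (-ℓ) ((legX μ ℓ).a b) = ht ℓ b := fun b => by
    show dot (-ℓ) (-disp b) = _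
    rw [neg_dot, dot_neg, neg_neg]; rfl
  refine ⟨hR.sum, mh_pos hμ hN hR, fun b hb => ?_, fun b hb z hz => ?_, ?_⟩
  · rw [h1]; exact (blk_of_bw hb).2.1.ht_nonneg
  · have h2 := (blk_of_bw hb).2.1.lt (x := -disp b) hz
    rw [h1, neg_dot]
    rw [dot_neg] at h2
    unfold ht at h2 ⊢
    constructor <;> linarith [h2.1, h2.2]
  · simp only [h1]; exact wl_ht hN hR
theorem legY_ok (hμ : Elliptic μ) (hN : Nrm ℓ e) (hR : Reg μ (-ℓ)) :
    (legY μ ℓ).Ok (-ℓ) (mh μ (-ℓ)) := by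
  refine ⟨hR.sum, mh_pos hμ hN.opp hR, fun b hb => (blk_of_bw hb).2.1.ht_nonneg,
    fun b hb z hz => ?_, wl_ht hN.opp hR⟩
  have h2 := (blk_of_bw hb).2.1.lt (x := 0) hz
  rw [dot_zero, zero_add] at h2
  exact ⟨h2.1, h2.2.le⟩

end Vale.Agent.P147F
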