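import Vale.Agent.P147F.Mean
import Vale.Agent.P147F.Anti

/-! The down walk is unlikely to hit the bottom part of the up walk. -/

namespace Vale.Agent.P147F

open MeasureTheory Vale.Agent.P147
open scoped ENNReal Classical

variable {d : ℕ} {μ : Measure (St d → ℝ)} [IsProbabilityMeasure μ] {ℓ : Fin d → ℝ} {e : St d}

/-- the first blocks reach level `u` -/
lemma q_reach (hμ : Elliptic μ) (hN : Nrm ℓ e) (hX : Reg μ ℓ) (u : ℝ) {ε : ℝ≥0∞} (hε : ε ≠ 0) :
    ∃ n0 : ℕ, Ex (bw μ ℓ) n0 (fun bs => ind (ht ℓ bs.flatten < u)) ≤ ε := by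
  obtain ⟨δ, -, h1, h2⟩ := ENNReal.lt_iff_exists_real_btwn.1 (pos_iff_ne_zero.2 hε)
  have hδ : 0 < δ := ENNReal.ofReal_pos.1 h1
  have hm := mh_pos hμ hN hX
  obtain ⟨k0, hk0⟩ := wl_ht hN hX (min δ (mh μ ℓ / 2)) (by positivity)
  obtain ⟨k1, hk1⟩ := exists_nat_ge (2 * u / mh μ ℓ)
  refine ⟨max k0 k1, le_trans (Ex_mono' fun bs => ind_mono fun h => ?_)
    ((hk0 _ (le_max_left _ _)).trans ((ENNReal.ofReal_le_ofReal (min_le_left _ _)).trans h2.le))⟩
  rw [← ht_flatten]
  have h3 : 2 * u / mh μ ℓ ≤ (max k0 k1 : ℕ) := hk1.trans (by exact_mod_cast le_max_right _ _)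
  rw [div_le_iff₀ hm] at h3
  have h4 : min δ (mh μ ℓ / 2) * (max k0 k1 : ℕ) ≤ mh μ ℓ / 2 * (max k0 k1 : ℕ) :=
    mul_le_mul_of_nonneg_right (min_le_right _ _) (Nat.cast_nonneg _)
  refine lt_of_lt_of_le ?_ (neg_le_abs _)
  linarith

/-- long blocks rarely cover a given strip -/
lemma q_long (hμ : Elliptic μ) (hN : Nrm ℓ e) (hY : Reg μ ℓ) (u : ℝ) {ε : ℝ≥0∞} (hε : ε ≠ 0) :
    ∃ ρ : ℕ, ∀ (K : ℕ) (L0 : ℝ), Ex (bw μ ℓ) K (fun cs => ind (∃ p b r, cs = p ++ b :: r ∧
      ρ < b.length ∧ L0 - u - ht ℓ b ≤ ht ℓ p.flatten ∧ ht ℓ p.flatten ≤ L0)) ≤ ε := by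
  set M : Pa d → ℕ := fun b => ⌈u + ht ℓ b⌉₊ + 1 with hM
  have hfin : ∑' b, bw μ ℓ b * (M b : ℝ≥0∞) ≠ ⊤ := by
    refine ne_top_of_le_ne_top (b := ∑' b, bw μ ℓ b * ENNReal.ofReal (|u| + 2) +
      ∑' b, bw μ ℓ b * ENNReal.ofReal (ht ℓ b)) ?_ ?_
    · rw [ENNReal.tsum_mul_right, hY.sum, one_mul]
      exact ENNReal.add_ne_top.2 ⟨ENNReal.ofReal_ne_top, mean_ne_top hN hY⟩
    · rw [← ENNReal.tsum_add]
      refine ENNReal.tsum_le_tsum fun b => ?_
      by_cases hb : bw μ ℓ b = 0
      · simp [hb]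
      have h0 := (blk_of_bw hb).2.1.ht_nonneg
      rw [← mul_add, ← ENNReal.ofReal_add (by positivity) h0, ← ENNReal.ofReal_natCast]
      refine mul_le_mul' le_rfl (ENNReal.ofReal_le_ofReal ?_)
      have h1 : (⌈u + ht ℓ b⌉₊ : ℝ) ≤ ⌈|u| + ht ℓ b⌉₊ := by
        exact_mod_cast Nat.ceil_mono (by linarith [le_abs_self u])
      have h2 := Nat.ceil_lt_add_one (show 0 ≤ |u| + ht ℓ b by positivity)
      simp only [hM]
      push_cast
      linarith
  have hw0 : w μ [e] ≠ 0 := w_ne_zero hμ _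
  have hw1 : w μ [e] ≠ ⊤ := ne_top_of_le_ne_top ENNReal.one_ne_top (w_le_one hμ _)
  obtain ⟨ρ, hρ⟩ := tsum_tail hfin List.length (mul_ne_zero hw0 hε)
  refine ⟨ρ, fun K L0 => (ENNReal.mul_le_mul_iff_right hw0 hw1).1 (le_trans ?_ hρ)⟩
  refine (mul_le_mul' le_rfl (Ex_exists_split hY.sum K fun p b => ρ < b.length ∧
    L0 - u - ht ℓ b ≤ ht ℓ p.flatten ∧ ht ℓ p.flatten ≤ L0)).trans ?_
  simp only [Ex_tsum]
  rw [← Summable.tsum_finsetSum fun _ _ => ENNReal.summable, ← ENNReal.tsum_mul_left]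
  refine ENNReal.tsum_le_tsum fun b => ?_
  simp only [ind_and, ← mul_assoc, Ex_mul_left]
  calc _ ≤ w μ [e] * ∑ i ∈ Finset.range K, bw μ ℓ b * ind (ρ < b.length) * Ex (bw μ ℓ) i
        (fun p => ind (L0 - u - ht ℓ b ≤ ht ℓ p.flatten ∧
          ht ℓ p.flatten < L0 - u - ht ℓ b + M b)) := by
        refine mul_le_mul' le_rfl (Finset.sum_le_sum fun i _ => ?_)
        rw [← Ex_mul_left]
        refine Ex_mono' fun p => ?_
        rw [mul_assoc (_ * _), ← ind_and]
        refine mul_le_mul' le_rfl (ind_mono fun h => ⟨h.1, ?_⟩)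
        have := Nat.le_ceil (u + ht ℓ b)
        simp only [hM]
        push_cast
        linarith [h.2]
    _ ≤ _ := by
        rw [← Finset.mul_sum, mul_left_comm, mul_right_comm]
        exact mul_le_mul' (mul_le_mul' le_rfl (renewal hN hY.sum _ _ K)) le_rfl |>.trans' (by
          rw [mul_right_comm, mul_right_comm (bw μ ℓ b)])

theorem bot_small (hd : 3 ≤ d) (hμ : Elliptic μ) (hN : Nrm ℓ e) (hX : Reg μ ℓ) (hY : Reg μ (-ℓ))
    (u : ℝ) (J : ℕ) {ε : ℝ≥0∞} (hε : ε ≠ 0) : ∃ k0 : ℕ, ∀ k, k0 ≤ k → ∀ K, K ≤ J * k →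
      ∀ z : V d, E2 (bw μ ℓ) (bw μ (-ℓ)) k K (fun bs cs =>
        ind (Bot ℓ u bs.flatten (disp bs.flatten + z) cs.flatten)) ≤ ε := by
  have hε4 : ε / 4 ≠ 0 := ENNReal.div_ne_zero.2 ⟨hε, by norm_num⟩
  obtain ⟨n0, h1⟩ := q_reach hμ hN hX u hε4
  obtain ⟨ρ, h2⟩ := Ex_tail hX.sum n0 (fun bs => bs.flatten.length) hε4
  obtain ⟨ρ', h3⟩ := q_long hμ hN.opp hY u hε4
  set box : Finset (V d) := Fintype.piFinset fun _ => Finset.Icc (-((ρ + ρ' : ℕ) : ℤ)) (ρ + ρ' : ℕ)
    with hbox
  set c : ℝ≥0∞ := ((box.card * (J + 1) + 1 : ℕ) : ℝ≥0∞) with hc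
  have hc0 : c ≠ 0 := Nat.cast_ne_zero.2 (Nat.succ_ne_zero _)
  have hc1 : c ≠ ⊤ := ENNReal.natCast_ne_top _
  obtain ⟨k1, h4⟩ := anti hd hμ hN hX.sum (ε := ε / 4 / c) (ENNReal.div_ne_zero.2 ⟨hε4, hc1⟩)
  refine ⟨max (max n0 k1) 1, fun k hk K hK z => ?_⟩
  have hk0 : n0 ≤ k := by omega
  have hk1 : k1 ≤ k := by omega
  have hk2 : 1 ≤ k := by omega
  calc _ ≤ E2 (bw μ ℓ) (bw μ (-ℓ)) k K (fun bs cs =>
        (ind (ht ℓ (bs.take n0).flatten < u) + ind (ρ < (bs.take n0).flatten.length)) +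
        (ind (∃ p b r, cs = p ++ b :: r ∧ ρ' < b.length ∧
          dot ℓ (disp bs.flatten + z) - u - ht (-ℓ) b ≤ ht (-ℓ) p.flatten ∧
          ht (-ℓ) p.flatten ≤ dot ℓ (disp bs.flatten + z)) +
        ind (∃ v ∈ box, ∃ i ∈ Finset.range (K + 1),
          disp bs.flatten = v - z - disp (cs.take i).flatten))) := by
        refine E2_mono fun bs cs _ hbs hl hcs => ?_
        refine le_trans (ind_le_add fun h => ?_) (add_le_add (ind_or_le _ _) (ind_or_le _ _))
        obtain ⟨a, ha, hau, hx⟩ := h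
        by_cases c1 : ht ℓ (bs.take n0).flatten < u
        · exact Or.inl (Or.inl c1)
        by_cases c2 : ρ < (bs.take n0).flatten.length
        · exact Or.inl (Or.inr c2)
        right
        have hp : Pf (bs.take n0).flatten bs.flatten :=
          ⟨(bs.drop n0).flatten, by rw [← List.flatten_append, List.take_append_drop]⟩
        have hlen : a.length ≤ ρ := by
          rcases ha.total hp with h | h
          · exact h.length_le.trans (not_lt.1 c2)
          · have := hau _ (mem_ran_pf (x := 0) h)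
            rw [zero_add] at this
            exact absurd this c1
        have hbx : ∀ i, |disp a i| ≤ ρ := fun i =>
          (abs_disp_le_length a i).trans (by exact_mod_cast hlen)
        have h0 : 0 ≤ dot ℓ (disp a) := ((bridge_flatten (sup_bw hbs)).stay.pf ha).ht_nonneg
        have hu : dot ℓ (disp a) < u := by
          have := hau _ (end_mem_ran 0 a); rwa [zero_add] at this
        have hmem : ∀ v : V d, (∀ i, |v i| ≤ ρ + ρ') → v ∈ box := fun v hv =>
          Fintype.mem_piFinset.2 fun i => Finset.mem_Icc.2 (by push_cast; exact abs_le.1 (hv i))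
        rcases eq_or_ne cs [] with rfl | hne
        · right
          refine ⟨disp a, hmem _ fun i => (hbx i).trans (by omega), 0, by simp, ?_⟩
          have : disp a = disp bs.flatten + z := by simpa [ran] using hx
          simp [this]
        obtain ⟨p, b, r, rfl, hb⟩ := mem_ran_flatten hne hx
        by_cases c3 : ρ' < b.length
        · left
          have h5 := (sup_bw hcs b (by simp)).2.1.le hb
          rw [dot_add, neg_dot, neg_dot ℓ (disp a)] at h5
          refine ⟨p, b, r, rfl, c3, ?_, ?_⟩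
          · unfold ht at h5 ⊢; linarith [h5.2]
          · unfold ht; linarith [h5.1]
        · right
          refine ⟨disp bs.flatten + z + disp p.flatten, hmem _ fun i => ?_, p.length, ?_, ?_⟩
          · have h5 := abs_ran_le_length hb i
            have h6 : (b.length : ℤ) ≤ ρ' := by exact_mod_cast not_lt.1 c3
            have h7 := abs_le.1 (hbx i)
            have h8 := abs_le.1 h5
            exact abs_le.2 ⟨by linarith [h7.1, h8.2], by linarith [h7.2, h8.1]⟩
          · rw [Finset.mem_range, ← hl]; simp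
          · rw [List.take_left']
            · abel
            · rfl
    _ ≤ (ε / 4 + ε / 4) + (ε / 4 + ε / 4) := by
        rw [E2_add, E2_add, E2_add]
        refine add_le_add (add_le_add ?_ ?_) (add_le_add ?_ ?_)
        · rw [E2_left hY.sum, Ex_take hX.sum hk0 fun l => ind (ht ℓ l.flatten < u)]
          exact h1
        · rw [E2_left hY.sum, Ex_take hX.sum hk0 fun l => ind (ρ < l.flatten.length)]
          exact h2
        · exact Ex_le hX.sum fun bs _ _ => h3 K _
        · rw [E2_swap]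
          refine Ex_le hY.sum fun cs _ _ => ?_
          calc _ ≤ Ex (bw μ ℓ) k fun bs => ∑ v ∈ box, ∑ i ∈ Finset.range (K + 1),
                ind (disp bs.flatten = v - z - disp (cs.take i).flatten) :=
                Ex_mono' fun bs => (ind_exists_le_sum _ _).trans
                  (Finset.sum_le_sum fun v _ => ind_exists_le_sum _ _)
            _ ≤ c * (ε / 4 / c) := by
                simp only [Ex_sum]
                refine (ENNReal.mul_le_mul_iff_right (a := k) (by exact_mod_cast (by omega : k ≠ 0))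
                  (ENNReal.natCast_ne_top k)).1 ?_
                simp only [Finset.mul_sum]
                refine (Finset.sum_le_card_nsmul _ _ _ fun v _ => Finset.sum_le_card_nsmul _ _ _
                  fun i _ => h4 k hk1 _).trans ?_
                rw [Finset.card_range, nsmul_eq_mul, nsmul_eq_mul, ← mul_assoc, ← mul_assoc, hc]
                refine mul_le_mul' ?_ le_rfl
                have : box.card * (K + 1) ≤ k * (box.card * (J + 1) + 1) := by
                  have h5 : K + 1 ≤ k * (J + 1) := by nlinarith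
                  nlinarith [Nat.mul_le_mul_left box.card h5]
                exact_mod_cast this
            _ = _ := ENNReal.mul_div_cancel hc0 hc1
    _ = ε := by
        rw [← two_mul, ← two_mul, ← mul_assoc, show (2 * 2 : ℝ≥0∞) = 4 by norm_num,
          ENNReal.mul_div_cancel (by norm_num) (by norm_num)]

end Vale.Agent.P147F
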