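import Vale.Agent.P147F.Geo

/-! Repeated trials and the slab lemma. -/

namespace Vale.Agent.P147F

open MeasureTheory Vale.Agent.P147
open scoped ENNReal Classical

variable {d : ℕ} {μ : Measure (St d → ℝ)} [IsProbabilityMeasure μ] {ℓ : Fin d → ℝ} {e : St d}

variable {P : Measure (ℕ → St d)}

lemma soft1_meas_seg (n : ℕ) : ∀ (a : ℕ) (R : Pa d → Prop),
    MeasurableSet {s : ℕ → St d | R (redSeg s a n)} := by
  induction n with
  | zero => intro a R; exact MeasurableSet.const (R [])
  | succ n ih =>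
    intro a R
    have : {s : ℕ → St d | R (redSeg s a (n + 1))} =
        ⋃ f : St d, (fun s : ℕ → St d => s a) ⁻¹' {f} ∩ {s | R (f :: redSeg s (a + 1) n)} := by
      ext s
      simp only [Set.mem_iUnion, Set.mem_inter_iff, Set.mem_preimage, Set.mem_singleton_iff]
      constructor
      · intro h; exact ⟨s a, rfl, h⟩
      · rintro ⟨f, rfl, h⟩; exact h
    rw [this]
    exact MeasurableSet.iUnion fun f =>
      (measurable_pi_apply a (measurableSet_singleton f)).inter (ih (a + 1) fun l => R (f :: l))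

lemma soft1_seg_congr {s t : ℕ → St d} {n : ℕ} : ∀ {a : ℕ}, (∀ i < n, s (a + i) = t (a + i)) →
    redSeg s a n = redSeg t a n := by
  induction n with
  | zero => intro a _; rfl
  | succ n ih =>
    intro a h
    rw [redSeg, redSeg, show s a = t a from h 0 (by omega), ih fun i hi => ?_]
    rw [show a + 1 + i = a + (i + 1) by ring]
    exact h _ (by omega)

lemma soft1_exists_seg (t0 : ℕ → St d) (l : Pa d) :
    ∀ a, ∃ t : ℕ → St d, redSeg t a l.length = l := by
  induction l with
  | nil => intro a; exact ⟨t0, rfl⟩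
  | cons f l ih =>
    intro a
    obtain ⟨t, ht⟩ := ih (a + 1)
    refine ⟨Function.update t a f, ?_⟩
    rw [List.length_cons, redSeg, Function.update_self, ← ht, red_length]
    congr 1
    exact soft1_seg_congr fun i _ => Function.update_of_ne (by omega) _ _

lemma measurableSet_cyl (l : Pa d) : MeasurableSet (cyl l) :=
  soft1_meas_seg l.length 0 fun r => r = l
omit [IsProbabilityMeasure μ] in
lemma meas_cyl (hP : IsAnnealed μ P) (l : Pa d) : P (cyl l) = w μ l := by
  have := hP.1
  obtain ⟨t0⟩ := nonempty_of_isProbabilityMeasure P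
  obtain ⟨t, ht⟩ := soft1_exists_seg t0 l 0
  have h : cyl l = {s | ∀ i < l.length, s i = t i} := by
    ext s
    constructor
    · intro hs i hi
      have hs' : redSeg s 0 l.length = l := hs
      simpa using red_seg_eq (hs'.trans ht.symm) i hi
    · intro hs
      refine (soft1_seg_congr fun i hi => ?_).trans ht
      rw [zero_add]; exact hs i hi
  rw [h, hP.2, w, env]
  refine lintegral_congr fun ω => ?_
  have := red_q ω t 0 l.length
  rw [red_pos_zero, ht] at this
  simpa using this.symm
lemma measurable_level (ℓ : Fin d → ℝ) (n : ℕ) :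
    Measurable fun s : ℕ → St d => dot ℓ (pos s n) := by
  intro S _
  have := soft1_meas_seg n 0 fun l : Pa d => dot ℓ (disp l) ∈ S
  simp only [red_disp0] at this
  exact this

/-- every event is close to an event which depends on finitely many steps -/
lemma soft1_approx [IsProbabilityMeasure P] {G : Set (ℕ → St d)} (hG : MeasurableSet G)
    {ε : ℝ≥0∞} (hε : 0 < ε) : ∃ (A : Set (ℕ → St d)) (n : ℕ),
      (∀ s t, (∀ i < n, s i = t i) → s ∈ A → t ∈ A) ∧ P (A \ G) ≤ ε ∧ P (G \ A) ≤ ε := by
  let C : Set (Set (ℕ → St d)) := {A | ∃ n : ℕ, ∀ s t, (∀ i < n, s i = t i) → s ∈ A → t ∈ A}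
  have hC : IsSetRing C := by
    refine ⟨⟨0, fun _ _ _ h => h⟩, ?_, ?_⟩
    · rintro A B ⟨n, hA⟩ ⟨m, hB⟩
      refine ⟨max n m, fun s t h hs => ?_⟩
      exact hs.imp (hA s t fun i hi => h i (lt_max_of_lt_left hi))
        (hB s t fun i hi => h i (lt_max_of_lt_right hi))
    · rintro A B ⟨n, hA⟩ ⟨m, hB⟩
      refine ⟨max n m, fun s t h hs => ⟨hA s t (fun i hi => h i (lt_max_of_lt_left hi)) hs.1,
        fun ht => hs.2 (hB t s (fun i hi => (h i (lt_max_of_lt_right hi)).symm) ht)⟩⟩
  have hgen : (MeasurableSpace.pi : MeasurableSpace (ℕ → St d)) =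
      MeasurableSpace.generateFrom C := by
    apply le_antisymm
    · refine iSup_le fun i => ?_
      rintro _ ⟨B, -, rfl⟩
      refine MeasurableSpace.measurableSet_generateFrom ⟨i + 1, fun s t h hs => ?_⟩
      rw [Set.mem_preimage] at hs ⊢
      rw [← h i (by omega)]; exact hs
    · refine MeasurableSpace.generateFrom_le ?_
      rintro A ⟨n, hA⟩
      have : A = {s | ∃ t ∈ A, redSeg t 0 n = redSeg s 0 n} := by
        ext s
        constructor
        · intro hs; exact ⟨s, hs, rfl⟩
        · rintro ⟨t, ht, h⟩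
          exact hA t s (fun i hi => by simpa using red_seg_eq h i hi) ht
      rw [this]
      exact soft1_meas_seg n 0 fun l => ∃ t ∈ A, redSeg t 0 n = l
  obtain ⟨A, ⟨n, hA⟩, h⟩ := exists_measure_symmDiff_lt_of_generateFrom_isSetRing (μ := P) hC
    ⟨{Set.univ}, Set.countable_singleton _, by
      rintro _ rfl; exact ⟨0, fun _ _ _ h => h⟩, by simp⟩ hgen hG hε
  exact ⟨A, n, hA, (measure_mono fun s hs => Or.inl hs).trans h.le,
    (measure_mono fun s hs => Or.inr hs).trans h.le⟩

lemma soft1_cyl_split {l : Pa d} {s : ℕ → St d} (hs : s ∈ cyl l) (k : ℕ) :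
    redSeg s 0 (l.length + k) = l ++ redSeg s l.length k := by
  have hs' : redSeg s 0 l.length = l := hs
  rw [red_seg_add, hs', zero_add]

/-- infinitely many trials, each with conditional chance `c` of the event `G`, force `G` -/
theorem trial [IsProbabilityMeasure P] {G : Set (ℕ → St d)} (hG : MeasurableSet G)
    {Tr : Pa d → Prop} {c : ℝ≥0∞} (hc : c ≠ 0) (h : ∀ l, Tr l → c * P (cyl l) ≤ P (cyl l ∩ G)) :
    ∀ᵐ s ∂P, (∀ n, ∃ m, n ≤ m ∧ Tr (redSeg s 0 m)) → s ∈ G := by
  set E := {s : ℕ → St d | ¬((∀ n, ∃ m, n ≤ m ∧ Tr (redSeg s 0 m)) → s ∈ G)} with hE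
  have key : ∀ ε : ℝ≥0∞, 0 < ε → min c 1 * P E ≤ ε + ε := by
    intro ε hε
    obtain ⟨A, n, hA, h1, h2⟩ := soft1_approx (P := P) hG hε
    let T : Pa d → Prop := fun l => (n ≤ l.length ∧ Tr l ∧
      ∀ a r, l = a ++ r → n ≤ a.length → Tr a → r = []) ∧ Disjoint (cyl l) A
    have hT : PF T := fun a r ha hr => hr.1.2.2 a r rfl ha.1.1 ha.1.2.1
    have hcov : E ⊆ (A \ G) ∪ ⋃ l : {l // T l}, cyl l.1 := by
      intro s hs
      obtain ⟨hio, hsG⟩ := Classical.not_imp.1 hs
      by_cases hsA : s ∈ A
      · exact Or.inl ⟨hsA, hsG⟩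
      right
      have hm := Nat.find_spec (hio n)
      have hmin := fun k => Nat.find_min (hio n) (m := k)
      set m := Nat.find (hio n)
      refine Set.mem_iUnion.2 ⟨⟨redSeg s 0 m, ⟨by rw [red_length]; exact hm.1, hm.2, ?_⟩, ?_⟩, ?_⟩
      · intro a r har hna hTa
        by_contra hr
        have hl := congrArg List.length har
        have hr' := List.length_pos_iff.2 hr
        rw [red_length, List.length_append] at hl
        refine hmin a.length (by omega) ⟨hna, ?_⟩
        rw [hl, red_seg_add] at har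
        rw [(List.append_inj har (red_length _ _ _)).1]
        exact hTa
      · refine Set.disjoint_left.2 fun t ht htA => hsA (hA t s (fun i hi => ?_) htA)
        have ht' : redSeg t 0 (redSeg s 0 m).length = redSeg s 0 m := ht
        rw [red_length] at ht'
        simpa using red_seg_eq ht' i (lt_of_lt_of_le hi hm.1)
      · show redSeg s 0 (redSeg s 0 m).length = redSeg s 0 m
        rw [red_length]
    have hdis : Pairwise (Function.onFun Disjoint fun l : {l // T l} => cyl l.1 ∩ G) := by
      intro l l' hne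
      refine Set.disjoint_left.2 fun s hs hs' => hne (Subtype.ext ?_)
      have e1 := soft1_cyl_split hs.1 l'.1.length
      have e2 := soft1_cyl_split hs'.1 l.1.length
      rw [add_comm] at e2
      exact hT.unique l.2 l'.2 (e1.symm.trans e2)
    have h3 : c * ∑' l : {l // T l}, P (cyl l.1) ≤ ε := by
      rw [← ENNReal.tsum_mul_left]
      calc _ ≤ ∑' l : {l // T l}, P (cyl l.1 ∩ G) :=
            ENNReal.tsum_le_tsum fun l => h l.1 l.2.1.2.1
        _ = P (⋃ l : {l // T l}, cyl l.1 ∩ G) :=
            (measure_iUnion hdis fun l => (measurableSet_cyl _).inter hG).symm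
        _ ≤ P (G \ A) := by
            refine measure_mono (Set.iUnion_subset fun l s hs => ⟨hs.2, fun hsA => ?_⟩)
            exact Set.disjoint_left.1 l.2.2 hs.1 hsA
        _ ≤ ε := h2
    calc min c 1 * P E ≤ min c 1 * (P (A \ G) + ∑' l : {l // T l}, P (cyl l.1)) :=
          mul_le_mul_right ((measure_mono hcov).trans ((measure_union_le _ _).trans
            (add_le_add_right (measure_iUnion_le _) _))) _
      _ ≤ ε + ε := by
          rw [mul_add]
          exact add_le_add ((mul_le_of_le_one_left' (min_le_right _ _)).trans h1)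
            ((mul_le_mul_left (min_le_left _ _) _).trans h3)
  have h0 : min c 1 * P E = 0 := by
    refine le_antisymm (ENNReal.le_of_forall_pos_le_add fun ε hε _ => ?_) zero_le
    have := key (ε / 2) (ENNReal.half_pos (by exact_mod_cast hε.ne'))
    rwa [ENNReal.add_halves, ← zero_add (ε : ℝ≥0∞)] at this
  rw [ae_iff]
  exact (mul_eq_zero.1 h0).resolve_left (by simp [min_eq_iff, hc])

/-- from time `n0` on there is no departure from `x` by `f`, and at least `k` departures from `x`;
the path starts at time `t` -/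
def soft1Ok (x : V d) (f : St d) (n0 : ℕ) : V d → Pa d → ℕ → ℕ → Prop
  | _, [], _, k => k = 0
  | y, g :: l, t, k => if n0 ≤ t ∧ y = x then g ≠ f ∧ soft1Ok x f n0 (y + vec g) l (t + 1) (k - 1)
      else soft1Ok x f n0 (y + vec g) l (t + 1) k

lemma soft1_quench {ω : V d → St d → ℝ} (hω : SubSt ω) (x : V d) (f : St d) (n0 n : ℕ) :
    ∀ (y : V d) (t k : ℕ), ∑' l, (if l.length = n ∧ soft1Ok x f n0 y l t k then q ω y l else 0) ≤
      (1 - ENNReal.ofReal (ω x f)) ^ k := by
  induction n with
  | zero =>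
    intro y t k
    rw [tsum_list_eq]
    simp only [List.length_cons, Nat.add_eq_zero_iff, one_ne_zero, and_false, false_and,
      if_false, tsum_zero, Finset.sum_const_zero, add_zero, List.length_nil, true_and, soft1Ok,
      q_nil]
    split_ifs with hk
    · simp [hk]
    · exact zero_le
  | succ n ih =>
    intro y t k
    rw [tsum_list_eq, if_neg (by simp), zero_add]
    by_cases hy : n0 ≤ t ∧ y = x
    · obtain ⟨ht, rfl⟩ := hy
      have h1 : ∑ g ∈ Finset.univ.erase f, ENNReal.ofReal (ω y g) ≤ 1 - ENNReal.ofReal (ω y f) := by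
        refine ENNReal.le_sub_of_add_le_right ENNReal.ofReal_ne_top ?_
        rw [Finset.sum_erase_add _ _ (Finset.mem_univ f)]
        exact hω y
      calc _ ≤ ∑ g ∈ Finset.univ.erase f,
            ENNReal.ofReal (ω y g) * (1 - ENNReal.ofReal (ω y f)) ^ (k - 1) := by
            rw [← Finset.sum_erase_add _ _ (Finset.mem_univ f)]
            simp only [soft1Ok, ht, true_and, if_true, ne_eq, not_true, false_and, and_false,
              if_false, tsum_zero, add_zero]
            refine Finset.sum_le_sum fun g hg => ?_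
            refine le_trans (le_of_eq ?_) (mul_le_mul_right (ih (y + vec g) (t + 1) (k - 1)) _)
            rw [← ENNReal.tsum_mul_left]
            refine tsum_congr fun l => ?_
            simp only [List.length_cons, Nat.add_right_cancel_iff, q_cons,
              (Finset.mem_erase.1 hg).1, not_false_eq_true, true_and, mul_ite, mul_zero]
        _ ≤ (1 - ENNReal.ofReal (ω y f)) * (1 - ENNReal.ofReal (ω y f)) ^ (k - 1) := by
            rw [← Finset.sum_mul]; exact mul_le_mul_left h1 _
        _ ≤ _ := by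
            cases k with
            | zero => simp
            | succ k => rw [Nat.add_sub_cancel, pow_succ']
    · calc _ ≤ ∑ g, ENNReal.ofReal (ω y g) * (1 - ENNReal.ofReal (ω x f)) ^ k := by
            refine Finset.sum_le_sum fun g _ => ?_
            refine le_trans (le_of_eq ?_) (mul_le_mul_right (ih (y + vec g) (t + 1) k) _)
            rw [← ENNReal.tsum_mul_left]
            refine tsum_congr fun l => ?_
            simp only [soft1Ok, hy, if_false, List.length_cons, Nat.add_right_cancel_iff, q_cons,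
              mul_ite, mul_zero]
        _ ≤ _ := by
            rw [← Finset.sum_mul]; exact mul_le_of_le_one_left' (hω y)

lemma soft1_ok_ev {s : ℕ → St d} {x : V d} {f : St d} {n0 : ℕ}
    (hs : ∀ m, n0 ≤ m → pos s m = x → s m ≠ f) (hio : ∀ n, ∃ m, n ≤ m ∧ pos s m = x) (k : ℕ) :
    ∀ a, ∃ n, ∀ n', n ≤ n' → soft1Ok x f n0 (pos s a) (redSeg s a n') a k := by
  induction k with
  | zero =>
    have : ∀ n' a, soft1Ok x f n0 (pos s a) (redSeg s a n') a 0 := by
      intro n'
      induction n' with
      | zero => intro a; rfl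
      | succ n' ih =>
        intro a
        rw [redSeg, soft1Ok, ← red_pos_succ]
        split_ifs with h
        · exact ⟨hs a h.1 h.2, ih _⟩
        · exact ih _
    exact fun a => ⟨0, fun n' _ => this n' a⟩
  | succ k ih =>
    have : ∀ j a, n0 ≤ a + j → pos s (a + j) = x →
        ∃ n, ∀ n', n ≤ n' → soft1Ok x f n0 (pos s a) (redSeg s a n') a (k + 1) := by
      have step : ∀ a, n0 ≤ a ∧ pos s a = x →
          ∃ n, ∀ n', n ≤ n' → soft1Ok x f n0 (pos s a) (redSeg s a n') a (k + 1) := by
        intro a h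
        obtain ⟨n, hn⟩ := ih (a + 1)
        refine ⟨n + 1, fun n' hn' => ?_⟩
        obtain ⟨n', rfl⟩ : ∃ m, n' = m + 1 := ⟨n' - 1, by omega⟩
        rw [redSeg, soft1Ok, ← red_pos_succ, if_pos h]
        exact ⟨hs a h.1 h.2, hn n' (by omega)⟩
      intro j
      induction j with
      | zero => intro a h1 h2; exact step a ⟨h1, h2⟩
      | succ j ihj =>
        intro a h1 h2
        by_cases h : n0 ≤ a ∧ pos s a = x
        · exact step a h
        · obtain ⟨n, hn⟩ := ihj (a + 1) (by omega) (by rw [← h2]; congr 1; omega)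
          refine ⟨n + 1, fun n' hn' => ?_⟩
          obtain ⟨n', rfl⟩ : ∃ m, n' = m + 1 := ⟨n' - 1, by omega⟩
          rw [redSeg, soft1Ok, ← red_pos_succ, if_neg h]
          exact hn n' (by omega)
    intro a
    obtain ⟨m, hm, hx⟩ := hio (a + n0)
    exact this (m - a) a (by omega) (by rw [← hx]; congr 1; omega)

omit [IsProbabilityMeasure μ] in
lemma soft1_cover (hP : IsAnnealed μ P) (n : ℕ) (R : Pa d → Prop) :
    P {s | R (redSeg s 0 n)} ≤ ∑' l, if l.length = n ∧ R l then w μ l else 0 := by
  calc _ ≤ P (⋃ l : Pa d, {s | (l.length = n ∧ R l) ∧ s ∈ cyl l}) := by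
        refine measure_mono fun s hs => Set.mem_iUnion.2 ⟨redSeg s 0 n, ⟨red_length _ _ _, hs⟩, ?_⟩
        show redSeg s 0 (redSeg s 0 n).length = redSeg s 0 n
        rw [red_length]
    _ ≤ _ := by
        refine (measure_iUnion_le _).trans (ENNReal.tsum_le_tsum fun l => ?_)
        split_ifs with h
        · exact (measure_mono fun s hs => hs.2).trans (meas_cyl hP l).le
        · simp [h]

lemma soft1_tsum_w (A : Pa d → Prop) [h : DecidablePred A] :
    ∑' l, (if A l then w μ l else 0) = ∫⁻ ω, ∑' l, (if A l then q ω 0 l else 0) ∂env μ := by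
  obtain rfl : h = fun l => Classical.propDecidable (A l) := Subsingleton.elim _ _
  exact tsum_w_eq A 0

/-- a site visited infinitely often is left infinitely often in every direction -/
theorem revisit (hμ : Elliptic μ) (hP : IsAnnealed μ P) (f : St d) :
    ∀ᵐ s ∂P, ∀ x : V d, (∀ n, ∃ m, n ≤ m ∧ pos s m = x) → ∀ n, ∃ m, n ≤ m ∧ pos s m = x ∧ s m = f := by
  have key : ∀ (x : V d) (n0 : ℕ), P {s | (∀ n, ∃ m, n ≤ m ∧ pos s m = x) ∧
      ∀ m, n0 ≤ m → pos s m = x → s m ≠ f} = 0 := by
    intro x n0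
    have hk : ∀ k : ℕ, P {s | (∀ n, ∃ m, n ≤ m ∧ pos s m = x) ∧
        ∀ m, n0 ≤ m → pos s m = x → s m ≠ f} ≤
          ∫⁻ ω, (1 - ENNReal.ofReal (ω x f)) ^ k ∂env μ := by
      intro k
      have hmono : Monotone fun n : ℕ =>
          {s : ℕ → St d | ∀ n', n ≤ n' → soft1Ok x f n0 0 (redSeg s 0 n') 0 k} :=
        fun n m hnm s hs n' hn' => hs n' (hnm.trans hn')
      calc _ ≤ P (⋃ n : ℕ, {s | ∀ n', n ≤ n' → soft1Ok x f n0 0 (redSeg s 0 n') 0 k}) := by
            refine measure_mono fun s hs => ?_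
            obtain ⟨n, hn⟩ := soft1_ok_ev hs.2 hs.1 k 0
            rw [red_pos_zero] at hn
            exact Set.mem_iUnion.2 ⟨n, hn⟩
        _ ≤ _ := by
            rw [hmono.measure_iUnion]
            refine iSup_le fun n => ?_
            refine le_trans (measure_mono ?_)
              ((soft1_cover hP n fun l => soft1Ok x f n0 0 l 0 k).trans ?_)
            · exact fun s hs => hs n le_rfl
            rw [soft1_tsum_w]
            exact lintegral_mono_ae ((ae_subSt hμ).mono fun ω hω => soft1_quench hω x f n0 n 0 0 k)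
    have hlim : Filter.Tendsto (fun k : ℕ => ∫⁻ ω, (1 - ENNReal.ofReal (ω x f)) ^ k ∂env μ)
        Filter.atTop (nhds (∫⁻ _, 0 ∂env μ)) := by
      refine tendsto_lintegral_of_dominated_convergence (fun _ => 1) (fun k => ?_)
        (fun k => Filter.Eventually.of_forall fun ω => pow_le_one' tsub_le_self k) (by simp) ?_
      · exact (measurable_const.sub (ENNReal.measurable_ofReal.comp
          ((measurable_pi_apply f).comp (measurable_pi_apply x)))).pow_const k
      · refine (ae_ell hμ).mono fun ω hω => ENNReal.tendsto_pow_atTop_nhds_zero_of_lt_one ?_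
        exact ENNReal.sub_lt_self ENNReal.one_ne_top one_ne_zero
          (ENNReal.ofReal_pos.2 ((hω x).1 f)).ne'
    rw [lintegral_zero] at hlim
    exact le_antisymm (ge_of_tendsto' hlim hk) zero_le
  have h : ∀ᵐ s ∂P, ∀ (x : V d) (n0 : ℕ), ¬((∀ n, ∃ m, n ≤ m ∧ pos s m = x) ∧
      ∀ m, n0 ≤ m → pos s m = x → s m ≠ f) :=
    ae_all_iff.2 fun x => ae_all_iff.2 fun n0 => measure_eq_zero_iff_ae_notMem.1 (key x n0)
  refine h.mono fun s hs x hio n => ?_
  by_contra hn
  exact hs x n ⟨hio, fun m hm hx hf => hn ⟨m, hm, hx, hf⟩⟩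

lemma soft1_mem_dep {s : ℕ → St d} {m : ℕ} {y : V d} (hy : y ∈ dep 0 (redSeg s 0 m)) :
    ∃ i < m, y = pos s i := by
  rw [← red_pos_zero s] at hy
  simpa using red_mem_dep s 0 m y hy

/-- a walk whose level is bounded above escapes in the opposite direction -/
theorem slab (hμ : Elliptic μ) (hP : IsAnnealed μ P) (hN : Nrm ℓ e) :
    ∀ᵐ s ∂P, (∃ H : ℝ, ∀ n, dot ℓ (pos s n) ≤ H) → s ∈ Escape (-ℓ) := by
  have := hP.1
  have hlev : ∀ (x : V d) (k : ℕ), dot ℓ (x + (k : ℤ) • vec e) = dot ℓ x + k := fun x k => by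
    rw [dot_add, dot_smul, hN.2]; simp
  have key : ∀ H H' : ℕ, ∀ᵐ s ∂P, (∀ n, ∃ m, n ≤ m ∧ (-(H' : ℝ) ≤ ht ℓ (redSeg s 0 m) ∧
      ∀ k : ℕ, disp (redSeg s 0 m) + (k : ℤ) • vec e ∉ dep 0 (redSeg s 0 m))) →
        s ∈ {s : ℕ → St d | ∃ n, (H : ℝ) < dot ℓ (pos s n)} := by
    intro H H'
    refine trial (Tr := fun l => -(H' : ℝ) ≤ ht ℓ l ∧ ∀ k : ℕ, disp l + (k : ℤ) • vec e ∉ dep 0 l)
      (c := w μ (List.replicate (H + H' + 1) e)) ?_ (w_ne_zero hμ _) ?_
    · rw [Set.ofPred_exists]
      exact MeasurableSet.iUnion fun n => measurableSet_lt measurable_const (measurable_level ℓ n)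
    · rintro l ⟨h1, h2⟩
      rw [meas_cyl hP, mul_comm, ← w_append, ← meas_cyl hP]
      · refine measure_mono fun s hs => ?_
        have hs' : redSeg s 0 (l ++ List.replicate (H + H' + 1) e).length =
          l ++ List.replicate (H + H' + 1) e := hs
        refine ⟨?_, (l ++ List.replicate (H + H' + 1) e).length, ?_⟩
        · rw [List.length_append, red_seg_add] at hs'
          exact (List.append_inj hs' (red_length _ _ _)).1
        · rw [← red_disp0, hs', disp_append, disp_replicate, hlev]
          rw [ht] at h1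
          push_cast; linarith
      · refine Finset.disjoint_left.2 fun y hy hy' => ?_
        obtain ⟨i, -, rfl⟩ := (mem_dep_replicate _ _ _ _).1 hy'
        exact h2 i hy
  have h1 := revisit hμ hP e
  have h2 := ae_all_iff.2 fun H => ae_all_iff.2 fun H' => key H H'
  filter_upwards [h1, h2] with s h1 h2
  rintro ⟨H0, hH0⟩
  obtain ⟨H, hH⟩ := exists_nat_ge H0
  have hub : ∀ n, dot ℓ (pos s n) ≤ H := fun n => (hH0 n).trans hH
  by_contra hesc
  obtain ⟨H', hH'⟩ : ∃ H' : ℕ, ∀ n, ∃ m, n ≤ m ∧ -(H' : ℝ) ≤ dot ℓ (pos s m) := by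
    by_contra hcon
    refine hesc (Filter.tendsto_atTop_atTop.2 fun b => ?_)
    obtain ⟨H', hb⟩ := exists_nat_ge b
    simp only [not_exists, not_forall, not_and, not_le] at hcon
    obtain ⟨n, hn⟩ := hcon H'
    refine ⟨n, fun m hm => ?_⟩
    have := hn m hm
    rw [neg_dot]; linarith
  have hfin : ∀ x : V d, (pos s ⁻¹' {x}).Finite := by
    intro x
    by_contra hx
    have hio : ∀ k : ℕ, ∀ n, ∃ m, n ≤ m ∧ pos s m = x + (k : ℤ) • vec e := by
      intro k
      induction k with
      | zero =>
        intro n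
        obtain ⟨m, hm, hnm⟩ := Set.Infinite.exists_gt hx n
        exact ⟨m, hnm.le, by simpa using hm⟩
      | succ k ih =>
        intro n
        obtain ⟨m, hm, hx, hf⟩ := h1 _ ih n
        refine ⟨m + 1, by omega, ?_⟩
        rw [red_pos_succ, hx, hf]
        push_cast
        rw [add_smul, one_smul, add_assoc]
    obtain ⟨k, hk⟩ := exists_nat_gt (H - dot ℓ x)
    obtain ⟨m, -, hm⟩ := hio k 0
    have := hub m
    rw [hm, hlev] at this
    linarith
  obtain ⟨n, hn⟩ := h2 H H' fun n => by
    let Z : Set (V d) := (fun p : ℕ × ℕ => pos s p.1 - (p.2 : ℤ) • vec e) ''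
      (Finset.range n ×ˢ Finset.range (H + H' + 1) : Finset (ℕ × ℕ))
    have hZ : (pos s ⁻¹' Z).Finite :=
      ((Finset.finite_toSet _).image _).preimage' fun x _ => hfin x
    obtain ⟨B, hB⟩ := hZ.bddAbove
    obtain ⟨m0, hm0, hl0⟩ := hH' (B + 1)
    have hZ0 : pos s m0 ∉ Z := fun h => by
      have : m0 ≤ B := hB h
      omega
    have hex : ∃ i, ∃ k : ℕ, pos s i = pos s m0 + (k : ℤ) • vec e := ⟨m0, 0, by simp⟩
    obtain ⟨k0, hk0⟩ := Nat.find_spec hex
    have hmin := fun i => Nat.find_min hex (m := i)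
    set m := Nat.find hex
    have hlm := hub m
    rw [hk0, hlev] at hlm
    refine ⟨m, ?_, ?_, fun k hk => ?_⟩
    · by_contra hlt
      refine hZ0 ⟨(m, k0), ?_, by simp [hk0]⟩
      simp only [Finset.coe_product, Finset.coe_range, Set.mem_prod, Set.mem_Iio]
      refine ⟨by omega, ?_⟩
      have : (k0 : ℝ) < (H + H' + 1 : ℕ) := by push_cast; linarith
      exact_mod_cast this
    · rw [ht, red_disp0, hk0, hlev]
      have : (0 : ℝ) ≤ k0 := Nat.cast_nonneg _
      linarith
    · obtain ⟨i, hi, hy⟩ := soft1_mem_dep hk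
      refine hmin i hi ⟨k0 + k, ?_⟩
      rw [← hy, red_disp0, hk0]
      push_cast
      rw [add_smul, add_assoc]
  exact absurd (hub n) (not_le.2 hn)

end Vale.Agent.P147F
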